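import Vale.Agent.P245.H895.QuadQ

/-!
P245, quadratic functionals of log-concave measures (helper895), part R: extension of a Poincaré inequality
for test functions to functions of polynomial growth; the logarithmic Sobolev inequality for polynomials and
the kurtosis form, from the affine invariant Poincaré inequality.
-/

set_option linter.all false

open MeasureTheory Filter Topology Set Metric Matrix
open scoped NNReal ENNReal ContDiff
open Vale.Agent.P227.M Vale.Agent.P254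

namespace Vale.Agent.P245.Q895

variable {n : ℕ} {μ : Measure (E n)}

/-- smooth cut-off functions -/
theorem cutoffs (n : ℕ) : ∃ (χ : ℕ → E n → ℝ) (B : ℝ), 0 ≤ B ∧ (∀ k, ContDiff ℝ ∞ (χ k)) ∧
    (∀ k, HasCompactSupport (χ k)) ∧ (∀ k x, |χ k x| ≤ 1) ∧ (∀ k i x, |pd i (χ k) x| ≤ B / (k + 1)) ∧
    (∀ x, Tendsto (fun k => χ k x) atTop (𝓝 1)) := by
  obtain ⟨φ, hφ⟩ : ∃ φ : ContDiffBump (0 : E n), φ = (⟨1, 2, by norm_num, by norm_num⟩ : ContDiffBump (0 : E n)) :=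
    ⟨_, rfl⟩
  have hφc : ContDiff ℝ ∞ (φ : E n → ℝ) := φ.contDiff
  have hφs : HasCompactSupport (φ : E n → ℝ) := φ.hasCompactSupport
  have hfd : Continuous (fderiv ℝ (φ : E n → ℝ)) := hφc.continuous_fderiv (by simp)
  obtain ⟨B, hB⟩ : ∃ B, ∀ x, ‖fderiv ℝ (φ : E n → ℝ) x‖ ≤ B :=
    (hφs.fderiv (𝕜 := ℝ)).exists_bound_of_continuous hfd
  have hB0 : 0 ≤ B := (norm_nonneg _).trans (hB 0)
  have hsm : ∀ k : ℕ, ContDiff ℝ ∞ (fun x : E n => ((k : ℝ) + 1)⁻¹ • x) := fun k => contDiff_const_smul _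
  refine ⟨fun k x => φ (((k : ℝ) + 1)⁻¹ • x), B, hB0, fun k => hφc.comp (hsm k), fun k => ?_,
    fun k x => ?_, fun k i x => ?_, fun x => ?_⟩
  · have hk : ((k : ℝ) + 1)⁻¹ ≠ 0 := by positivity
    exact hφs.comp_homeomorph (Homeomorph.smulOfNeZero _ hk)
  · rw [abs_of_nonneg φ.nonneg]
    exact φ.le_one
  · have hk : (0 : ℝ) < ((k : ℝ) + 1)⁻¹ := by positivity
    have h1 : HasFDerivAt (fun x : E n => ((k : ℝ) + 1)⁻¹ • x) (((k : ℝ) + 1)⁻¹ • ContinuousLinearMap.id ℝ (E n)) x :=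
      ((((k : ℝ) + 1)⁻¹ • ContinuousLinearMap.id ℝ (E n)).hasFDerivAt :)
    have h2 : HasFDerivAt (φ : E n → ℝ) (fderiv ℝ (φ : E n → ℝ) (((k : ℝ) + 1)⁻¹ • x)) (((k : ℝ) + 1)⁻¹ • x) :=
      ((hφc.differentiable (by simp)) _).hasFDerivAt
    have h3 := h2.comp x h1
    unfold pd
    have h4 : fderiv ℝ (fun x : E n => φ (((k : ℝ) + 1)⁻¹ • x)) x =
        (fderiv ℝ (φ : E n → ℝ) (((k : ℝ) + 1)⁻¹ • x)).comp (((k : ℝ) + 1)⁻¹ • ContinuousLinearMap.id ℝ (E n)) :=
      h3.fderiv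
    rw [h4]
    simp only [ContinuousLinearMap.comp_apply, ContinuousLinearMap.smul_apply, ContinuousLinearMap.id_apply,
      map_smul, smul_eq_mul]
    rw [abs_mul, abs_of_pos hk, div_eq_inv_mul]
    refine mul_le_mul_of_nonneg_left ?_ hk.le
    rw [← Real.norm_eq_abs]
    refine (ContinuousLinearMap.le_opNorm _ _).trans ?_
    have h5 : ‖(ei i : E n)‖ = 1 := by
      unfold ei
      simp
    rw [h5, mul_one]
    exact hB _
  · have h1 : Tendsto (fun k : ℕ => ((k : ℝ) + 1)⁻¹ • x) atTop (𝓝 ((0 : ℝ) • x)) := by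
      have h0 : Tendsto (fun k : ℕ => ((k : ℝ) + 1)⁻¹) atTop (𝓝 0) := by
        have := tendsto_one_div_add_atTop_nhds_zero_nat (𝕜 := ℝ)
        simpa using this
      exact h0.smul_const x
    rw [zero_smul] at h1
    have h2 : φ (0 : E n) = 1 := φ.one_of_mem_closedBall (by simp [φ.rIn_pos.le])
    have h3 := (hφc.continuous.tendsto (0 : E n)).comp h1
    rw [h2] at h3
    exact h3

/-- extension of the Poincaré inequality to functions of polynomial growth -/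
theorem poinc_ext [IsProbabilityMeasure μ] (hlc : HasLogConcaveDensity μ) {K : Matrix (Fin n) (Fin n) ℝ} {C : ℝ}
    (hP : ∀ f : E n → ℝ, ContDiff ℝ ∞ f → HasCompactSupport f →
        (∫ x, f x ^ 2 ∂μ) - (∫ x, f x ∂μ) ^ 2 ≤
          C * ∫ x, ∑ i, ∑ j, K i j * (gradient f x i * gradient f x j) ∂μ)
    {f : E n → ℝ} (hf : ContDiff ℝ ∞ f) (hG : Gr f) (hGp : ∀ i, Gr (pd i f)) :
    (∫ x, f x ^ 2 ∂μ) - (∫ x, f x ∂μ) ^ 2 ≤
      C * ∫ x, ∑ i, ∑ j, K i j * (gradient f x i * gradient f x j) ∂μ := by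
  obtain ⟨χ, B, hB, hχ, hχs, hχ1, hχd, hχt⟩ := cutoffs n
  have hdiff : ∀ x, DifferentiableAt ℝ f x := fun x => (hf.differentiable (by simp)) x
  have hχdiff : ∀ k x, DifferentiableAt ℝ (χ k) x := fun k x => ((hχ k).differentiable (by simp)) x
  have hpd : ∀ k i x, pd i (fun x => f x * χ k x) x = f x * pd i (χ k) x + χ k x * pd i f x := by
    intro k i x
    unfold pd
    rw [fderiv_fun_mul (hdiff x) (hχdiff k x)]
    rfl
  have hk : ∀ k, (∫ x, (f x * χ k x) ^ 2 ∂μ) - (∫ x, f x * χ k x ∂μ) ^ 2 ≤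
      C * ∫ x, ∑ i, ∑ j, K i j * (pd i (fun x => f x * χ k x) x * pd j (fun x => f x * χ k x) x) ∂μ := by
    intro k
    have h := hP (fun x => f x * χ k x) (hf.mul (hχ k)) ((hχs k).mul_left)
    simp only [grad_coord] at h
    exact h
  simp only [grad_coord]
  -- the three limits
  have l1 : Tendsto (fun k => ∫ x, (f x * χ k x) ^ 2 ∂μ) atTop (𝓝 (∫ x, f x ^ 2 ∂μ)) := by
    refine tendsto_integral_of_dominated_convergence (fun x => f x ^ 2)
      (fun k => ((hf.continuous.mul (hχ k).continuous).pow 2).aestronglyMeasurable)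
      (int_gr hlc (hG.pow 2)) (fun k => Eventually.of_forall fun x => ?_) (Eventually.of_forall fun x => ?_)
    · rw [Real.norm_eq_abs, abs_of_nonneg (sq_nonneg _), mul_pow]
      have h1 : χ k x ^ 2 ≤ 1 := by
        rw [← sq_abs]
        exact pow_le_one₀ (abs_nonneg _) (hχ1 k x)
      calc f x ^ 2 * χ k x ^ 2 ≤ f x ^ 2 * 1 := mul_le_mul_of_nonneg_left h1 (sq_nonneg _)
        _ = _ := mul_one _
    · have := ((hχt x).const_mul (f x)).pow 2
      simpa using this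
  have l2 : Tendsto (fun k => ∫ x, f x * χ k x ∂μ) atTop (𝓝 (∫ x, f x ∂μ)) := by
    refine tendsto_integral_of_dominated_convergence (fun x => |f x|)
      (fun k => (hf.continuous.mul (hχ k).continuous).aestronglyMeasurable)
      (int_gr hlc hG).abs (fun k => Eventually.of_forall fun x => ?_) (Eventually.of_forall fun x => ?_)
    · rw [Real.norm_eq_abs, abs_mul]
      calc |f x| * |χ k x| ≤ |f x| * 1 := mul_le_mul_of_nonneg_left (hχ1 k x) (abs_nonneg _)
        _ = _ := mul_one _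
    · have := (hχt x).const_mul (f x)
      simpa using this
  have hcpd : ∀ i k, Continuous (pd i (fun x => f x * χ k x)) := by
    intro i k
    have h1 : Continuous (fderiv ℝ (fun x => f x * χ k x)) := (hf.mul (hχ k)).continuous_fderiv (by simp)
    exact h1.clm_apply continuous_const
  have hb : ∀ i k x, |pd i (fun x => f x * χ k x) x| ≤ B * |f x| + |pd i f x| := by
    intro i k x
    rw [hpd]
    refine (abs_add_le _ _).trans (add_le_add ?_ ?_)
    · rw [abs_mul, mul_comm]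
      refine mul_le_mul_of_nonneg_right ((hχd k i x).trans ?_) (abs_nonneg _)
      refine div_le_self hB ?_
      have : (0 : ℝ) ≤ k := Nat.cast_nonneg k
      linarith
    · rw [abs_mul]
      calc |χ k x| * |pd i f x| ≤ 1 * |pd i f x| := mul_le_mul_of_nonneg_right (hχ1 k x) (abs_nonneg _)
        _ = _ := one_mul _
  have hlim : ∀ i x, Tendsto (fun k => pd i (fun x => f x * χ k x) x) atTop (𝓝 (pd i f x)) := by
    intro i x
    have h1 : Tendsto (fun k : ℕ => pd i (χ k) x) atTop (𝓝 0) := by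
      refine squeeze_zero_norm (fun k => ?_) (a := fun k : ℕ => B / ((k : ℝ) + 1)) ?_
      · rw [Real.norm_eq_abs]
        exact hχd k i x
      · have := (tendsto_one_div_add_atTop_nhds_zero_nat (𝕜 := ℝ)).const_mul B
        simpa [div_eq_mul_inv] using this
    have h2 := (h1.const_mul (f x)).add ((hχt x).mul_const (pd i f x))
    simp only [mul_zero, one_mul, zero_add] at h2
    simpa only [hpd] using h2
  have l3 : Tendsto (fun k => ∫ x, ∑ i, ∑ j, K i j * (pd i (fun x => f x * χ k x) x *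
      pd j (fun x => f x * χ k x) x) ∂μ) atTop (𝓝 (∫ x, ∑ i, ∑ j, K i j * (pd i f x * pd j f x) ∂μ)) := by
    have hgb : ∀ i, Gr (fun x => B * |f x| + |pd i f x|) := fun i => (hG.abs.const_mul _).add (hGp i).abs
    refine tendsto_integral_of_dominated_convergence
      (fun x => ∑ i, ∑ j, |K i j| * ((B * |f x| + |pd i f x|) * (B * |f x| + |pd j f x|)))
      (fun k => ?_) ?_ (fun k => Eventually.of_forall fun x => ?_) (Eventually.of_forall fun x => ?_)
    · refine Continuous.aestronglyMeasurable ?_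
      refine continuous_finset_sum _ fun i _ => continuous_finset_sum _ fun j _ => ?_
      exact ((hcpd i k).mul (hcpd j k)).const_mul _
    · exact int_gr hlc (Gr.sum _ fun i _ => Gr.sum _ fun j _ => ((hgb i).mul (hgb j)).const_mul _)
    · rw [Real.norm_eq_abs]
      refine (Finset.abs_sum_le_sum_abs _ _).trans (Finset.sum_le_sum fun i _ => ?_)
      refine (Finset.abs_sum_le_sum_abs _ _).trans (Finset.sum_le_sum fun j _ => ?_)
      rw [abs_mul, abs_mul]
      exact mul_le_mul_of_nonneg_left (mul_le_mul (hb i k x) (hb j k x) (abs_nonneg _)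
        (by have := hb i k x; positivity)) (abs_nonneg _)
    · exact tendsto_finset_sum _ fun i _ => tendsto_finset_sum _ fun j _ =>
        ((hlim i x).mul (hlim j x)).const_mul _
  exact le_of_tendsto_of_tendsto' (l1.sub (l2.pow 2)) (l3.const_mul C) hk

/-- the gradient form in the metric of the covariance matrix is at most `a² |Df|²` -/
theorem gradK_le [IsProbabilityMeasure μ] (hlc : HasLogConcaveDensity μ) {a : ℝ} (ha : 0 < a)
    (hsub : LinearlySubgaussian μ a) {b : Fin n → ℝ} (hb : ∀ i, ∫ x, x i ∂μ = b i)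
    {K : Matrix (Fin n) (Fin n) ℝ} (hK : ∀ i j, ∫ x, (x i - b i) * (x j - b j) ∂μ = K i j)
    {f : E n → ℝ} (hGp : ∀ i, Gr (pd i f)) :
    ∫ x, ∑ i, ∑ j, K i j * (gradient f x i * gradient f x j) ∂μ ≤ a ^ 2 * ∫ x, ‖gradient f x‖ ^ 2 ∂μ := by
  simp only [grad_coord, norm_grad_sq]
  rw [← integral_const_mul]
  refine integral_mono
    (int_gr hlc (Gr.sum _ fun i _ => Gr.sum _ fun j _ => ((hGp i).mul (hGp j)).const_mul _))
    (int_gr hlc ((Gr.sum _ fun i _ => (hGp i).pow 2).const_mul _)) fun x => ?_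
  have h1 := sub_cov hlc ha hsub hb hK (fun i => pd i f x)
  have h2 := Real.log_two_lt_d9
  have h3 : 0 ≤ ∑ i, pd i f x ^ 2 := Finset.sum_nonneg fun i _ => sq_nonneg _
  have h4 : (fun i => pd i f x) ⬝ᵥ (K *ᵥ (fun i => pd i f x)) = ∑ i, ∑ j, K i j * (pd i f x * pd j f x) := by
    unfold dotProduct mulVec dotProduct
    refine Finset.sum_congr rfl fun i _ => ?_
    rw [Finset.mul_sum]
    exact Finset.sum_congr rfl fun j _ => by ring
  show ∑ i, ∑ j, K i j * (pd i f x * pd j f x) ≤ a ^ 2 * ∑ i, pd i f x ^ 2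
  rw [← h4]
  refine h1.trans ?_
  have h5 : 0 ≤ a ^ 2 * ∑ i, pd i f x ^ 2 := by positivity
  nlinarith

/-- the affine invariant Poincaré inequality for all log-concave laws, with the constant `C` -/
def KLS (C : ℝ) : Prop := ∀ (n : ℕ) (μ : Measure (EuclideanSpace ℝ (Fin n))) [IsProbabilityMeasure μ],
  HasLogConcaveDensity μ → ∀ (b : Fin n → ℝ) (K : Matrix (Fin n) (Fin n) ℝ),
  (∀ i, ∫ x, x i ∂μ = b i) → (∀ i j, ∫ x, (x i - b i) * (x j - b j) ∂μ = K i j) →
  ∀ f : EuclideanSpace ℝ (Fin n) → ℝ, ContDiff ℝ ∞ f → HasCompactSupport f →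
    (∫ x, f x ^ 2 ∂μ) - (∫ x, f x ∂μ) ^ 2 ≤
      C * ∫ x, ∑ i, ∑ j, K i j * (gradient f x i * gradient f x j) ∂μ

/-- Poincaré inequality for functions of polynomial growth -/
theorem kls_gr {C : ℝ} (hC : KLS C) [IsProbabilityMeasure μ] (hlc : HasLogConcaveDensity μ)
    {b : Fin n → ℝ} (hb : ∀ i, ∫ x, x i ∂μ = b i)
    {K : Matrix (Fin n) (Fin n) ℝ} (hK : ∀ i j, ∫ x, (x i - b i) * (x j - b j) ∂μ = K i j)
    {f : E n → ℝ} (hf : ContDiff ℝ ∞ f) (hG : Gr f) (hGp : ∀ i, Gr (pd i f)) :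
    (∫ x, f x ^ 2 ∂μ) - (∫ x, f x ∂μ) ^ 2 ≤
      C * ∫ x, ∑ i, ∑ j, K i j * (gradient f x i * gradient f x j) ∂μ :=
  poinc_ext hlc (hC n μ hlc b K hb hK) hf hG hGp

/-- Poincaré inequality for linearly subgaussian laws -/
theorem kls_sub {C : ℝ} (hC0 : 0 < C) (hC : KLS C) [IsProbabilityMeasure μ] (hlc : HasLogConcaveDensity μ)
    {a : ℝ} (ha : 0 < a) (hsub : LinearlySubgaussian μ a)
    {f : E n → ℝ} (hf : ContDiff ℝ ∞ f) (hG : Gr f) (hGp : ∀ i, Gr (pd i f)) :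
    (∫ x, f x ^ 2 ∂μ) - (∫ x, f x ∂μ) ^ 2 ≤ C * a ^ 2 * ∫ x, ‖gradient f x‖ ^ 2 ∂μ := by
  have h1 := kls_gr hC hlc (b := fun i => ∫ x, x i ∂μ) (fun i => rfl)
    (K := fun i j => ∫ x, (x i - ∫ y, y i ∂μ) * (x j - ∫ y, y j ∂μ) ∂μ) (fun i j => rfl) hf hG hGp
  have h2 := gradK_le hlc ha hsub (b := fun i => ∫ x, x i ∂μ) (fun i => rfl)
    (K := fun i j => ∫ x, (x i - ∫ y, y i ∂μ) * (x j - ∫ y, y j ∂μ) ∂μ) (fun i j => rfl) hGp
  refine h1.trans ?_
  rw [mul_assoc]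
  exact mul_le_mul_of_nonneg_left h2 hC0.le

/-- **LSI for polynomials** -/
theorem poly_lsi {C : ℝ} (hC0 : 0 < C) (hC : KLS C) [IsProbabilityMeasure μ] (hlc : HasLogConcaveDensity μ)
    {a : ℝ} (ha : 0 < a) (hsub : LinearlySubgaussian μ a) (p : MvPolynomial (Fin n) ℝ)
    {d : ℕ} (hp : p.totalDegree ≤ d) :
    Entropy μ (fun x => pf p x ^ 2) ≤ 180 * C * (d + 1) * a ^ 2 * ∫ x, ‖gradient (pf p) x‖ ^ 2 ∂μ := by
  have h1 := ent_pf hlc p hp
  have h2 := kls_sub hC0 hC hlc ha hsub (cd_pf p) (gr_pf p) (gr_pd_pf p)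
  refine h1.trans ?_
  have h3 : (0 : ℝ) ≤ 180 * (d + 1) := by positivity
  refine (mul_le_mul_of_nonneg_left h2 h3).trans (le_of_eq ?_)
  ring

/-- test functions -/
theorem gr_pd_test {f : E n → ℝ} (hf : ContDiff ℝ ∞ f) (hs : HasCompactSupport f) (i : Fin n) : Gr (pd i f) := by
  have h1 : Continuous (fderiv ℝ f) := hf.continuous_fderiv (by simp)
  have h2 : Continuous (pd i f) := h1.clm_apply continuous_const
  refine Gr.of_test h2 ?_
  have h3 := hs.fderiv (𝕜 := ℝ)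
  exact h3.comp_left (g := fun L : E n →L[ℝ] ℝ => L (ei i)) (by simp)

theorem num57 {k : ℝ} (hk : 1 ≤ k) : 17 + 9 * Real.log (81 * k) ≤ 57 * (1 + Real.log k) := by
  have h81 : Real.log 81 ≤ 40 / 9 := by
    rw [Real.log_le_iff_le_exp (by norm_num)]
    have h6 : Real.exp (40 / 9) = Real.exp 1 ^ 4 * Real.exp (4 / 9) := by
      rw [← Real.exp_nat_mul, ← Real.exp_add]
      norm_num
    have h7 := Real.exp_one_gt_d9
    have h8 := Real.quadratic_le_exp_of_nonneg (show (0 : ℝ) ≤ 4 / 9 by norm_num)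
    rw [h6]
    have h9 : (2.718 : ℝ) ^ 4 ≤ Real.exp 1 ^ 4 := pow_le_pow_left₀ (by norm_num) (by linarith) 4
    nlinarith
  have hlk : 0 ≤ Real.log k := Real.log_nonneg hk
  rw [Real.log_mul (by norm_num) (by linarith)]
  linarith

/-- **LSI with the logarithm of the kurtosis** -/
theorem kurt_lsi {C : ℝ} (hC0 : 0 < C) (hC : KLS C) [IsProbabilityMeasure μ] (hlc : HasLogConcaveDensity μ)
    {a : ℝ} (ha : 0 < a) (hsub : LinearlySubgaussian μ a)
    {f : E n → ℝ} (hf : ContDiff ℝ ∞ f) (hs : HasCompactSupport f) {k : ℝ} (hk : 1 ≤ k)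
    (h4 : ∫ x, (f x - ∫ y, f y ∂μ) ^ 4 ∂μ ≤ k * (∫ x, (f x - ∫ y, f y ∂μ) ^ 2 ∂μ) ^ 2) :
    Entropy μ (fun x => f x ^ 2) ≤ 57 * C * (1 + Real.log k) * a ^ 2 * ∫ x, ‖gradient f x‖ ^ 2 ∂μ := by
  have hG : Gr f := Gr.of_test hf.continuous hs
  have h1 := ent_leK (μ := μ) hG.1 (int_gr hlc hG) (int_gr hlc (hG.pow 2)) (int_gr hlc (hG.pow 3))
    (int_gr hlc (hG.pow 4)) hk h4
  have h2 := kls_sub hC0 hC hlc ha hsub hf hG (gr_pd_test hf hs)
  have hlk : 0 ≤ Real.log k := Real.log_nonneg hk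
  have hle := num57 hk
  have hv : 0 ≤ (∫ x, f x ^ 2 ∂μ) - (∫ x, f x ∂μ) ^ 2 := by
    rw [← var_eq hlc hG]
    exact integral_nonneg fun x => sq_nonneg _
  calc _ ≤ _ := h1
    _ ≤ 57 * (1 + Real.log k) * ((∫ x, f x ^ 2 ∂μ) - (∫ x, f x ∂μ) ^ 2) :=
        mul_le_mul_of_nonneg_right hle hv
    _ ≤ 57 * (1 + Real.log k) * (C * a ^ 2 * ∫ x, ‖gradient f x‖ ^ 2 ∂μ) :=
        mul_le_mul_of_nonneg_left h2 (by positivity)
    _ = _ := by ring

end Vale.Agent.P245.Q895
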