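import Vale.Agent.P245.H895.QuadA

/-!
P245, quadratic functionals of log-concave measures (helper895), part B: the variance bound
`Var (∑ m_i x_i²) ≤ 16 ∑ m_i²` for isotropic regular potentials, by the moment map.
-/

set_option linter.all false

open MeasureTheory Filter Topology Set Metric
open scoped NNReal ENNReal ContDiff
open Vale.Agent.P227.M Vale.Agent.P227.M.K814 Vale.Agent.P254 Vale.Agent.P254.SN

namespace Vale.Agent.P245.Q895

variable {n : ℕ} {ψ V : E n → ℝ} {c C M c1 C1 : ℝ}

theorem ll_quad (a i : Fin n) : LocallyLipschitz (fun x : E n => x a * x i) :=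
  ll_mul (ll_coord a) (ll_coord i)

theorem diff_quad (a i : Fin n) (x : E n) : DifferentiableAt ℝ (fun x : E n => x a * x i) x :=
  (rad_diff_coord a x).mul (rad_diff_coord i x)

theorem pd_quad (a i b : Fin n) (x : E n) : pd b (fun x : E n => x a * x i) x =
    (if a = b then 1 else 0) * x i + x a * (if i = b then 1 else 0) := by
  rw [rpd_mul (rad_diff_coord a x) (rad_diff_coord i x), rpd_coord, rpd_coord]

theorem pb_pd_coord_mul (a i b : Fin n) : PB (pd b (fun x : E n => x a * x i)) := by
  rw [funext (pd_quad a i b)]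
  exact ((PB.const _).mul (PB.coord i)).add ((PB.coord a).mul (PB.const _))

theorem sum_ite_left (f : Fin n → ℝ) (a : Fin n) (g : ℝ) :
    ∑ b, f b * ((if a = b then (1 : ℝ) else 0) * g) = f a * g := by
  rw [Finset.sum_eq_single a]
  · simp
  · intro b _ hb
    rw [if_neg (Ne.symm hb)]; ring
  · intro hb
    exact absurd (Finset.mem_univ a) hb

section
variable (hV : Reg V c1 C1) (h : MC.MMc ψ V c C M)
include hV h

/-- Stein: `E x_k D_a τ_ia = E x_a x_k τ_ia - E τ_ak τ_ia` -/
theorem stein_tau (a i k : Fin n) (hk : k = i ∨ k = a) (d : Fin n) :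
    I V (fun x => tau ψ x d k * tau ψ x i a) + I V (fun x => Dt (tau ψ) d (fun y => tau ψ y i a) x * x k)
      - I V (fun x => tau ψ x i a * (x d * x k)) = 0 := by
  have hT : TB V (tau ψ) := tb_tau hV h
  have hll : LocallyLipschitz (fun x : E n => x k * tau ψ x i a) :=
    ll_mul (ll_coord k) (tll hT.toTF i a)
  have hd : ∀ᵐ x : E n, DifferentiableAt ℝ (fun x : E n => x k * tau ψ x i a) x := by
    filter_upwards [tae hT.toTF] with x hx
    exact (rad_diff_coord k x).mul (hx i a)
  have hpde : ∀ᵐ x : E n, ∀ b, pd b (fun x : E n => x k * tau ψ x i a) x =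
      (if k = b then 1 else 0) * tau ψ x i a + x k * pd b (fun y => tau ψ y i a) x := by
    filter_upwards [tae hT.toTF] with x hx b
    rw [rpd_mul (rad_diff_coord k x) (hx i a), rpd_coord]
  -- polynomial growth of the derivative, everywhere
  obtain ⟨Ct, hCt⟩ := hT.bt
  obtain ⟨K, hK⟩ := hT.lip i a
  have hpb : ∀ b, PB (pd b (fun x : E n => x k * tau ψ x i a)) := by
    intro b
    refine ⟨measurable_fderiv_apply_const ℝ _ _, |Ct| + K, 1, by positivity, fun x => ?_⟩
    rw [pow_one]
    by_cases hx : DifferentiableAt ℝ (fun x : E n => x k * tau ψ x i a) x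
    · -- local Lipschitz bound
      have hlip : ∀ᶠ y in 𝓝 x, ‖(y k * tau ψ y i a) - (x k * tau ψ x i a)‖ ≤
          ((|Ct| + K) * (1 + ‖x‖)) * ‖y - x‖ := by
        refine Eventually.of_forall fun y => ?_
        have e : y k * tau ψ y i a - x k * tau ψ x i a =
            (y k - x k) * tau ψ y i a + x k * (tau ψ y i a - tau ψ x i a) := by ring
        rw [e, Real.norm_eq_abs]
        have h1 : |(y k - x k) * tau ψ y i a| ≤ ‖y - x‖ * |Ct| := by
          rw [abs_mul]
          refine mul_le_mul ?_ ((hCt y i a).trans (le_abs_self _)) (abs_nonneg _) (norm_nonneg _)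
          exact abs_coord_le (y - x) k
        have h2 : |x k * (tau ψ y i a - tau ψ x i a)| ≤ ‖x‖ * (K * ‖y - x‖) := by
          rw [abs_mul]
          refine mul_le_mul (abs_coord_le x k) ?_ (abs_nonneg _) (norm_nonneg _)
          have := hK.dist_le_mul y x
          rwa [Real.dist_eq, dist_eq_norm] at this
        refine (abs_add_le _ _).trans ((add_le_add h1 h2).trans ?_)
        have h3 := norm_nonneg x
        have h4 := norm_nonneg (y - x)
        have h5 := abs_nonneg Ct
        have h6 : (0 : ℝ) ≤ K := K.coe_nonneg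
        nlinarith [mul_nonneg h5 (mul_nonneg h3 h4), mul_nonneg h6 h4]
      have h7 := hx.hasFDerivAt.le_of_lip' (by positivity) hlip
      have h8 := (fderiv ℝ (fun x : E n => x k * tau ψ x i a) x).le_opNorm (ei b)
      rw [ei_norm, mul_one] at h8
      exact h8.trans h7
    · unfold pd
      rw [fderiv_zero_of_not_differentiableAt hx]
      simp only [_root_.zero_apply, abs_zero]
      positivity
  have hc := core' hV hT hll hd ((PB.coord k).mul (PB.of_gb (gb_t hT i a))) hpb d
  have e : I V (fun x => Dt (tau ψ) d (fun x : E n => x k * tau ψ x i a) x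
      - x d * (x k * tau ψ x i a)) =
      I V (fun x => (tau ψ x d k * tau ψ x i a + Dt (tau ψ) d (fun y => tau ψ y i a) x * x k)
        - tau ψ x i a * (x d * x k)) := by
    refine I_congr ?_
    filter_upwards [hpde] with x hx
    have e2 : Dt (tau ψ) d (fun x : E n => x k * tau ψ x i a) x =
        tau ψ x d k * tau ψ x i a + Dt (tau ψ) d (fun y => tau ψ y i a) x * x k := by
      unfold Dt
      simp only [hx, mul_add, Finset.sum_add_distrib]
      rw [sum_ite_left (fun b => tau ψ x d b) k (tau ψ x i a), Finset.sum_mul]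
      congr 1
      exact Finset.sum_congr rfl fun b _ => by ring
    rw [e2]
    ring
  rw [e, I_sub' hV, I_add' hV] at hc
  · exact hc
  · exact (PB.of_gb (gb_t hT d k)).mul (PB.of_gb (gb_t hT i a))
  · exact (PB.of_gb (gb_Dt hT d i a)).mul (PB.coord k)
  · exact ((PB.of_gb (gb_t hT d k)).mul (PB.of_gb (gb_t hT i a))).add
      ((PB.of_gb (gb_Dt hT d i a)).mul (PB.coord k))
  · exact (PB.of_gb (gb_t hT i a)).mul ((PB.coord d).mul (PB.coord k))

/-- the weak identity tested with `x_a x_i` -/
theorem quad_pair (a i : Fin n) :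
    I V (fun x => tau ψ x i a * (x a * x i)) = 2 * I V (fun x => tau ψ x i a ^ 2)
      - I V (fun x => (∑ b, ∑ e, tau ψ x i e * pd e (pd b V) x * tau ψ x a b) * (x a * x i))
      - I V (fun x => (∑ b, ∑ e, pd b (fun y => tau ψ y i e) x * pd e (fun y => tau ψ y a b) x)
          * (x a * x i)) := by
  have hT : TB V (tau ψ) := tb_tau hV h
  have hst := stat' hV hT (Q := fun x : E n => x a * x i) (ll_quad a i)
    (Eventually.of_forall (diff_quad a i)) ((PB.coord a).mul (PB.coord i)) (pb_pd_coord_mul a i) a i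
  have e1 : ∀ x : E n, ∑ b, Dt (tau ψ) b (fun y => tau ψ y i a) x * pd b (fun x : E n => x a * x i) x =
      Dt (tau ψ) a (fun y => tau ψ y i a) x * x i + Dt (tau ψ) i (fun y => tau ψ y i a) x * x a := by
    intro x
    simp only [pd_quad, mul_add, Finset.sum_add_distrib]
    rw [sum_ite_left (fun b => Dt (tau ψ) b (fun y => tau ψ y i a) x) a (x i)]
    have e3 : ∀ b, Dt (tau ψ) b (fun y => tau ψ y i a) x * (x a * if i = b then 1 else 0) =
        Dt (tau ψ) b (fun y => tau ψ y i a) x * ((if i = b then 1 else 0) * x a) := fun b => by ring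
    rw [Finset.sum_congr rfl fun b _ => e3 b,
      sum_ite_left (fun b => Dt (tau ψ) b (fun y => tau ψ y i a) x) i (x a)]
  simp only [e1] at hst
  have pQ : PB (fun x : E n => x a * x i) := (PB.coord a).mul (PB.coord i)
  have pA : PB (fun x => (∑ b, ∑ e, tau ψ x i e * pd e (pd b V) x * tau ψ x a b) * (x a * x i)) :=
    (PB.of_gb (GB.sum _ fun b _ => GB.sum _ fun e _ =>
        ((gb_t hT i e).mul (gb_V hT e b)).mul (gb_t hT a b))).mul pQ
  have pD1 : PB (fun x => Dt (tau ψ) a (fun y => tau ψ y i a) x * x i) :=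
    (PB.of_gb (gb_Dt hT a i a)).mul (PB.coord i)
  have pD2 : PB (fun x => Dt (tau ψ) i (fun y => tau ψ y i a) x * x a) :=
    (PB.of_gb (gb_Dt hT i i a)).mul (PB.coord a)
  have pS : PB (fun x => (∑ b, ∑ e, pd b (fun y => tau ψ y i e) x * pd e (fun y => tau ψ y a b) x)
          * (x a * x i)) :=
    (PB.of_gb (GB.sum _ fun b _ => GB.sum _ fun e _ =>
        (gb_pt hT b i e).mul (gb_pt hT e a b))).mul pQ
  have pt : PB (fun x => tau ψ x i a * (x a * x i)) := (PB.of_gb (gb_t hT i a)).mul pQ
  rw [I_sub' hV ((pA.add (pD1.add pD2)).add pS) pt, I_add' hV (pA.add (pD1.add pD2)) pS,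
    I_add' hV pA (pD1.add pD2), I_add' hV pD1 pD2] at hst
  have s1 := stein_tau hV h a i i (Or.inl rfl) a
  have s2 := stein_tau hV h a i a (Or.inr rfl) i
  have t1 : I V (fun x => tau ψ x a i * tau ψ x i a) = I V (fun x => tau ψ x i a ^ 2) :=
    I_congr (Eventually.of_forall fun x => by rw [h.tau_symm x a i]; ring)
  have t2 : I V (fun x => tau ψ x i a * tau ψ x i a) = I V (fun x => tau ψ x i a ^ 2) :=
    I_congr (Eventually.of_forall fun x => by ring)
  have t3 : I V (fun x => tau ψ x i a * (x i * x a)) = I V (fun x => tau ψ x i a * (x a * x i)) :=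
    I_congr (Eventually.of_forall fun x => by ring)
  rw [t1] at s1
  rw [t2, t3] at s2
  linarith

/-- step (2): `E ⟨τ Dx, Dx⟩ ≤ 2 E tr (DτDτ)` -/
theorem form_le (m : Fin n → ℝ) :
    ∑ a, ∑ i, m a * m i * I V (fun x => tau ψ x i a * (x a * x i)) ≤
      2 * ∑ a, ∑ i, m a * m i * I V (fun x => tau ψ x i a ^ 2) := by
  have hT : TB V (tau ψ) := tb_tau hV h
  have pQ : ∀ a i : Fin n, PB (fun x : E n => x a * x i) := fun a i => (PB.coord a).mul (PB.coord i)
  have pA : ∀ a i : Fin n,
      PB (fun x => (∑ b, ∑ e, tau ψ x i e * pd e (pd b V) x * tau ψ x a b) * (x a * x i)) :=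
    fun a i => (PB.of_gb (GB.sum _ fun b _ => GB.sum _ fun e _ =>
        ((gb_t hT i e).mul (gb_V hT e b)).mul (gb_t hT a b))).mul (pQ a i)
  have pS : ∀ a i : Fin n,
      PB (fun x => (∑ b, ∑ e, pd b (fun y => tau ψ y i e) x * pd e (fun y => tau ψ y a b) x)
          * (x a * x i)) :=
    fun a i => (PB.of_gb (GB.sum _ fun b _ => GB.sum _ fun e _ =>
        (gb_pt hT b i e).mul (gb_pt hT e a b))).mul (pQ a i)
  have hA : 0 ≤ ∑ a, ∑ i, m a * m i *
      I V (fun x => (∑ b, ∑ e, tau ψ x i e * pd e (pd b V) x * tau ψ x a b) * (x a * x i)) := by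
    have e1 : ∑ a, ∑ i, m a * m i *
      I V (fun x => (∑ b, ∑ e, tau ψ x i e * pd e (pd b V) x * tau ψ x a b) * (x a * x i)) =
      I V (fun x => ∑ a, ∑ i, m a * m i *
        ((∑ b, ∑ e, tau ψ x i e * pd e (pd b V) x * tau ψ x a b) * (x a * x i))) := by
      rw [I_sum' _ hV fun a _ => PB.sum _ fun i _ => (PB.const _).mul (pA a i)]
      refine Finset.sum_congr rfl fun a _ => ?_
      rw [I_sum' _ hV fun i _ => (PB.const _).mul (pA a i)]
      exact Finset.sum_congr rfl fun i _ => (I_const_mul' _ _).symm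
    rw [e1]
    refine I_nonneg' (Eventually.of_forall fun x => ?_)
    have h1 := hV.lower x (WithLp.toLp 2 fun b => ∑ i, tau ψ x i b * (m i * x i))
    refine le_trans (mul_nonneg hV.c_pos.le (sq_nonneg _)) (h1.trans (le_of_eq ?_))
    unfold qf hess
    simp only [Finset.sum_mul, Finset.mul_sum]
    -- both sides are fourfold sums
    have e2 : ∀ a i b e : Fin n, m a * m i * (tau ψ x i e * pd e (pd b V) x * tau ψ x a b * (x a * x i)) =
      pd e (pd b V) x * (tau ψ x i e * (m i * x i)) * (tau ψ x a b * (m a * x a)) := by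
      intro a i b e; ring
    calc ∑ e, ∑ b, ∑ a, ∑ i, pd e (pd b V) x * (tau ψ x i e * (m i * x i)) *
          (tau ψ x a b * (m a * x a))
        = ∑ a, ∑ e, ∑ b, ∑ i, pd e (pd b V) x * (tau ψ x i e * (m i * x i)) *
          (tau ψ x a b * (m a * x a)) := by
          rw [Finset.sum_congr rfl fun e _ => Finset.sum_comm, Finset.sum_comm]
      _ = ∑ a, ∑ i, ∑ b, ∑ e, pd e (pd b V) x * (tau ψ x i e * (m i * x i)) *
          (tau ψ x a b * (m a * x a)) := by
          refine Finset.sum_congr rfl fun a _ => ?_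
          rw [Finset.sum_comm]
          calc ∑ b, ∑ e, ∑ i, pd e (pd b V) x * (tau ψ x i e * (m i * x i)) *
                (tau ψ x a b * (m a * x a))
              = ∑ b, ∑ i, ∑ e, pd e (pd b V) x * (tau ψ x i e * (m i * x i)) *
                (tau ψ x a b * (m a * x a)) := Finset.sum_congr rfl fun b _ => Finset.sum_comm
            _ = _ := Finset.sum_comm
      _ = _ := by
          refine Finset.sum_congr rfl fun a _ => Finset.sum_congr rfl fun i _ =>
            Finset.sum_congr rfl fun b _ => Finset.sum_congr rfl fun e _ => ?_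
          rw [e2]
  have hS : 0 ≤ ∑ a, ∑ i, m a * m i *
      I V (fun x => (∑ b, ∑ e, pd b (fun y => tau ψ y i e) x * pd e (fun y => tau ψ y a b) x)
          * (x a * x i)) := by
    have e1 : ∑ a, ∑ i, m a * m i *
      I V (fun x => (∑ b, ∑ e, pd b (fun y => tau ψ y i e) x * pd e (fun y => tau ψ y a b) x)
          * (x a * x i)) =
      I V (fun x => ∑ a, ∑ i, m a * m i *
        ((∑ b, ∑ e, pd b (fun y => tau ψ y i e) x * pd e (fun y => tau ψ y a b) x) * (x a * x i))) := by
      rw [I_sum' _ hV fun a _ => PB.sum _ fun i _ => (PB.const _).mul (pS a i)]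
      refine Finset.sum_congr rfl fun a _ => ?_
      rw [I_sum' _ hV fun i _ => (PB.const _).mul (pS a i)]
      exact Finset.sum_congr rfl fun i _ => (I_const_mul' _ _).symm
    rw [e1]
    refine I_nonneg' ?_
    filter_upwards [S814.rad_good h] with x hx
    have h1 := s_nonneg (h.tau_posDef x) (P := fun e a b => pd e (fun y => tau ψ y a b) x)
      (fun e b c => by
        have e1 : (fun y => tau ψ y b c) = fun y => tau ψ y c b :=
          funext fun y => S814.rad_tau_symm h y b c
        simp only [e1])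
      (fun a b c => S814.rad_T h hx a b c) (fun a => m a * x a)
    refine h1.trans (le_of_eq ?_)
    refine Finset.sum_congr rfl fun a _ => Finset.sum_congr rfl fun i _ => ?_
    ring
  have key : ∑ a, ∑ i, m a * m i * I V (fun x => tau ψ x i a * (x a * x i)) =
      2 * (∑ a, ∑ i, m a * m i * I V (fun x => tau ψ x i a ^ 2))
      - (∑ a, ∑ i, m a * m i *
        I V (fun x => (∑ b, ∑ e, tau ψ x i e * pd e (pd b V) x * tau ψ x a b) * (x a * x i)))
      - (∑ a, ∑ i, m a * m i *
        I V (fun x => (∑ b, ∑ e, pd b (fun y => tau ψ y i e) x * pd e (fun y => tau ψ y a b) x)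
          * (x a * x i))) := by
    rw [Finset.mul_sum, ← Finset.sum_sub_distrib, ← Finset.sum_sub_distrib]
    refine Finset.sum_congr rfl fun a _ => ?_
    rw [Finset.mul_sum, ← Finset.sum_sub_distrib, ← Finset.sum_sub_distrib]
    refine Finset.sum_congr rfl fun i _ => ?_
    rw [quad_pair hV h a i]
    ring
  rw [key]
  linarith

end

end Vale.Agent.P245.Q895
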