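import Mathlib
import Vale.Agent.P254.Bdl.B19

/-!
P245, quadratic functionals of log-concave measures (helper895), part A: functions of polynomial growth,
removal of cut-offs, the weak Lichnerowicz-type identity against polynomially growing test functions.
-/

set_option linter.all false

open MeasureTheory Filter Topology Set Metric
open scoped NNReal ENNReal ContDiff
open Vale.Agent.P227.M Vale.Agent.P227.M.K814 Vale.Agent.P254.SN

namespace Vale.Agent.P245.Q895

variable {n : ℕ} {V : E n → ℝ} {c1 C1 : ℝ} {t : E n → Matrix (Fin n) (Fin n) ℝ}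

/-- measurable, polynomial growth -/
def PB (f : E n → ℝ) : Prop :=
  Measurable f ∧ ∃ (B : ℝ) (k : ℕ), 0 ≤ B ∧ ∀ x, |f x| ≤ B * (1 + ‖x‖) ^ k

theorem PB.of_gb {f : E n → ℝ} (hf : GB f) : PB f := by
  obtain ⟨h1, C, hC⟩ := hf
  exact ⟨h1, |C|, 0, abs_nonneg _, fun x => by simpa using (hC x).trans (le_abs_self C)⟩

theorem PB.of_gr {f : E n → ℝ} (hf : Gr f) : PB f := by
  obtain ⟨h1, B, k, hB, hb⟩ := hf
  exact ⟨h1.measurable, B, k, hB, hb⟩

theorem PB.const (c : ℝ) : PB (fun _ : E n => c) := PB.of_gb (GB.const c)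

theorem PB.coord (i : Fin n) : PB (fun x : E n => x i) := PB.of_gr (Gr.coord i)

theorem PB.mul {f g : E n → ℝ} (hf : PB f) (hg : PB g) : PB (fun x => f x * g x) := by
  obtain ⟨hfc, B, k, hB, hb⟩ := hf
  obtain ⟨hgc, D, l, hD, hd⟩ := hg
  refine ⟨hfc.mul hgc, B * D, k + l, mul_nonneg hB hD, fun x => ?_⟩
  rw [abs_mul, pow_add]
  calc |f x| * |g x| ≤ (B * (1 + ‖x‖) ^ k) * (D * (1 + ‖x‖) ^ l) :=
        mul_le_mul (hb x) (hd x) (abs_nonneg _) (mul_nonneg hB (pow_nonneg (by positivity) _))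
    _ = _ := by ring

theorem PB.add {f g : E n → ℝ} (hf : PB f) (hg : PB g) : PB (fun x => f x + g x) := by
  obtain ⟨hfc, B, k, hB, hb⟩ := hf
  obtain ⟨hgc, D, l, hD, hd⟩ := hg
  refine ⟨hfc.add hgc, B + D, k + l, add_nonneg hB hD, fun x => ?_⟩
  have h1 := one_le_one_add_norm x
  have hk : (1 + ‖x‖) ^ k ≤ (1 + ‖x‖) ^ (k + l) := pow_le_pow_right₀ h1 (Nat.le_add_right _ _)
  have hl : (1 + ‖x‖) ^ l ≤ (1 + ‖x‖) ^ (k + l) := pow_le_pow_right₀ h1 (Nat.le_add_left _ _)
  calc |f x + g x| ≤ |f x| + |g x| := abs_add_le _ _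
    _ ≤ B * (1 + ‖x‖) ^ k + D * (1 + ‖x‖) ^ l := add_le_add (hb x) (hd x)
    _ ≤ B * (1 + ‖x‖) ^ (k + l) + D * (1 + ‖x‖) ^ (k + l) := by gcongr
    _ = _ := by ring

theorem PB.neg {f : E n → ℝ} (hf : PB f) : PB (fun x => -f x) := by
  obtain ⟨hfc, B, k, hB, hb⟩ := hf
  exact ⟨hfc.neg, B, k, hB, fun x => by rw [abs_neg]; exact hb x⟩

theorem PB.sub {f g : E n → ℝ} (hf : PB f) (hg : PB g) : PB (fun x => f x - g x) := by
  have h := hf.add hg.neg
  simpa [sub_eq_add_neg] using h

theorem PB.abs {f : E n → ℝ} (hf : PB f) : PB (fun x => |f x|) := by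
  obtain ⟨hfc, B, k, hB, hb⟩ := hf
  exact ⟨hfc.abs, B, k, hB, fun x => by rw [abs_abs]; exact hb x⟩

theorem PB.sum {ι : Type*} (s : Finset ι) {f : ι → E n → ℝ} (hf : ∀ i ∈ s, PB (f i)) :
    PB (fun x => ∑ i ∈ s, f i x) := by
  classical
  induction s using Finset.induction_on with
  | empty => simpa using PB.const (n := n) 0
  | insert a s ha ih =>
    have h := (hf a (Finset.mem_insert_self a s)).add
      (ih fun i hi => hf i (Finset.mem_insert_of_mem hi))
    simpa [Finset.sum_insert ha] using h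

theorem PB.int (hV : Reg V c1 C1) {f : E n → ℝ} (hf : PB f) :
    Integrable (fun x => f x * Real.exp (-V x)) := by
  obtain ⟨hfm, B, k, hB, hb⟩ := hf
  have hG : Gr (fun x : E n => B * (1 + ‖x‖) ^ k) :=
    (Gr.const B).mul (((Gr.const 1).add Gr.norm).pow k)
  refine (hV.integrable_gr hG).mono' (hfm.mul (by
    have := hV.cont
    fun_prop)).aestronglyMeasurable (Eventually.of_forall fun x => ?_)
  rw [norm_mul, Real.norm_eq_abs, Real.norm_eq_abs, Real.abs_exp]
  exact mul_le_mul_of_nonneg_right (hb x) (Real.exp_pos _).le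

/-- dominated convergence -/
theorem tendsto_I (hV : Reg V c1 C1) {f : ℕ → E n → ℝ} {g G : E n → ℝ} (hf : ∀ k, Measurable (f k))
    (hG : PB G) (hb : ∀ k, ∀ᵐ x, |f k x| ≤ G x) (hl : ∀ᵐ x, Tendsto (fun k => f k x) atTop (𝓝 (g x))) :
    Tendsto (fun k => I V (f k)) atTop (𝓝 (I V g)) := by
  unfold I
  have hc := hV.cont
  refine tendsto_integral_of_dominated_convergence (fun x => G x * Real.exp (-V x))
    (fun k => ((hf k).mul (by fun_prop)).aestronglyMeasurable) (hG.int hV) (fun k => ?_) ?_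
  · filter_upwards [hb k] with x hx
    rw [norm_mul, Real.norm_eq_abs, Real.norm_eq_abs, Real.abs_exp]
    exact mul_le_mul_of_nonneg_right hx (Real.exp_pos _).le
  · filter_upwards [hl] with x hx
    exact hx.mul_const _

theorem I_add' (hV : Reg V c1 C1) {f g : E n → ℝ} (hf : PB f) (hg : PB g) :
    I V (fun x => f x + g x) = I V f + I V g := by
  unfold I
  rw [← integral_add (hf.int hV) (hg.int hV)]
  congr 1; ext x; ring

theorem I_sub' (hV : Reg V c1 C1) {f g : E n → ℝ} (hf : PB f) (hg : PB g) :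
    I V (fun x => f x - g x) = I V f - I V g := by
  unfold I
  rw [← integral_sub (hf.int hV) (hg.int hV)]
  congr 1; ext x; ring

theorem I_sum' {ι : Type*} (s : Finset ι) (hV : Reg V c1 C1) {f : ι → E n → ℝ}
    (hf : ∀ i ∈ s, PB (f i)) : I V (fun x => ∑ i ∈ s, f i x) = ∑ i ∈ s, I V (f i) := by
  unfold I
  rw [← integral_finsetSum s fun i hi => (hf i hi).int hV]
  congr 1; ext x; rw [Finset.sum_mul]

theorem I_const_mul' (c : ℝ) (f : E n → ℝ) : I V (fun x => c * f x) = c * I V f := by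
  unfold I
  rw [← integral_const_mul]
  congr 1; ext x; ring

theorem I_nonneg' {f : E n → ℝ} (h : ∀ᵐ x, 0 ≤ f x) : 0 ≤ I V f := by
  unfold I
  refine integral_nonneg_of_ae ?_
  filter_upwards [h] with x hx
  exact mul_nonneg hx (Real.exp_pos _).le

/-- removing a cut-off, polynomial growth -/
theorem cut_limit' (hV : Reg V c1 C1) {F : E n → ℝ} (hF : PB F)
    {g : Fin n → E n → ℝ} (hg : ∀ b, PB (g b))
    (h0 : ∀ χ : E n → ℝ, LC χ → I V (fun x => F x * χ x + ∑ b, g b x * pd b χ x) = 0) :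
    I V F = 0 := by
  obtain ⟨K, χ, hLC, h01, hlim, hpd⟩ := cutoffs n
  have hχm : ∀ k, PB (χ k) := fun k => PB.of_gb ⟨(hLC k).1.continuous.measurable, 1, fun x => by
    rw [abs_of_nonneg (h01 k x).1]; exact (h01 k x).2⟩
  have hGBp : ∀ k b, PB (pd b (χ k)) := fun k b =>
    PB.of_gb ⟨measurable_fderiv_apply_const ℝ _ _, _, fun x => hpd k b x⟩
  have hPB : ∀ k, PB (fun x => F x * χ k x + ∑ b, g b x * pd b (χ k) x) := fun k =>
    (hF.mul (hχm k)).add (PB.sum _ fun b _ => (hg b).mul (hGBp k b))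
  have hG : PB (fun x => |F x| + ∑ b, |g b x| * K) :=
    hF.abs.add (PB.sum _ fun b _ => (hg b).abs.mul (PB.const _))
  have h1 : Tendsto (fun k => I V (fun x => F x * χ k x + ∑ b, g b x * pd b (χ k) x)) atTop
      (𝓝 (I V F)) := by
    refine tendsto_I hV (fun k => (hPB k).1) hG (fun k => Eventually.of_forall fun x => ?_)
      (Eventually.of_forall fun x => ?_)
    · refine (abs_add_le _ _).trans (add_le_add ?_ ?_)
      · rw [abs_mul, abs_of_nonneg (h01 k x).1]
        exact mul_le_of_le_one_right (abs_nonneg _) (h01 k x).2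
      · refine (Finset.abs_sum_le_sum_abs _ _).trans (Finset.sum_le_sum fun b _ => ?_)
        rw [abs_mul]
        refine mul_le_mul_of_nonneg_left ((hpd k b x).trans ?_) (abs_nonneg _)
        have : (1 : ℝ) / ((k : ℝ) + 1) ≤ 1 := by
          rw [div_le_one (by positivity)]
          have : (0 : ℝ) ≤ k := Nat.cast_nonneg k
          linarith
        exact mul_le_of_le_one_right K.coe_nonneg this
    · have e1 : Tendsto (fun k => F x * χ k x) atTop (𝓝 (F x * 1)) := (hlim x).const_mul _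
      have e2 : ∀ b, Tendsto (fun k => pd b (χ k) x) atTop (𝓝 0) := by
        intro b
        have h3 : Tendsto (fun k : ℕ => (K : ℝ) * (1 / ((k : ℝ) + 1))) atTop (𝓝 (K * 0)) :=
          (tendsto_one_div_add_atTop_nhds_zero_nat (𝕜 := ℝ)).const_mul _
        rw [mul_zero] at h3
        exact squeeze_zero_norm (fun k => hpd k b x) h3
      have e3 : Tendsto (fun k => ∑ b, g b x * pd b (χ k) x) atTop (𝓝 (∑ b, g b x * 0)) :=
        tendsto_finsetSum _ fun b _ => (e2 b).const_mul _
      have e4 := e1.add e3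
      simpa using e4
  have h2 : (fun k => I V (fun x => F x * χ k x + ∑ b, g b x * pd b (χ k) x)) = fun _ => (0 : ℝ) :=
    funext fun k => h0 (χ k) (hLC k)
  rw [h2] at h1
  exact (tendsto_nhds_unique h1 tendsto_const_nhds)

section
variable (hV : Reg V c1 C1) (h : TB V t)
include hV h

/-- `E D_a f = E x_a f` for `f` of polynomial growth -/
theorem core' {f : E n → ℝ} (hf : LocallyLipschitz f) (hfd : ∀ᵐ x, DifferentiableAt ℝ f x)
    (h0 : PB f) (h1 : ∀ b, PB (pd b f)) (a : Fin n) :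
    I V (fun x => Dt t a f x - x a * f x) = 0 := by
  refine cut_limit' hV (g := fun b x => t x a b * f x) ?_ (fun b => (PB.of_gb (gb_t h a b)).mul h0) ?_
  · exact (PB.sum _ fun b _ => (PB.of_gb (gb_t h a b)).mul (h1 b)).sub ((PB.coord a).mul h0)
  · intro χ hχ
    refine tcore h.toTF (f := fun x => f x * χ x) (LC.mul_left hf hχ) a ?_
    filter_upwards [hfd, hχ.ae_diff] with x hx hx2
    have e1 : ∀ b, pd b (fun x => f x * χ x) x = pd b f x * χ x + f x * pd b χ x := fun b =>
      rpd_mul hx hx2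
    unfold Dt
    simp only [e1]
    have e2 : ∑ b, t x a b * (pd b f x * χ x + f x * pd b χ x) =
        (∑ b, t x a b * pd b f x) * χ x + ∑ b, t x a b * f x * pd b χ x := by
      rw [Finset.sum_mul, ← Finset.sum_add_distrib]
      exact Finset.sum_congr rfl fun b _ => by ring
    rw [e2]
    ring

/-- the weak identity for a pair of indices, polynomial growth -/
theorem stat' {Q : E n → ℝ} (hQ : LocallyLipschitz Q) (hQd : ∀ᵐ x, DifferentiableAt ℝ Q x)
    (h0 : PB Q) (h1 : ∀ b, PB (pd b Q)) (a i : Fin n) :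
    I V (fun x => (∑ b, ∑ e, t x i e * pd e (pd b V) x * t x a b) * Q x
      + (∑ b, Dt t b (fun y => t y i a) x * pd b Q x)
      + (∑ b, ∑ e, pd b (fun y => t y i e) x * pd e (fun y => t y a b) x) * Q x
      - t x i a * Q x) = 0 := by
  refine cut_limit' hV (g := fun b x => Dt t b (fun y => t y i a) x * Q x) ?_
    (fun b => (PB.of_gb (gb_Dt h b i a)).mul h0) ?_
  · refine PB.sub (PB.add (PB.add ?_ ?_) ?_) ?_
    · exact (PB.of_gb (GB.sum _ fun b _ => GB.sum _ fun e _ =>
        ((gb_t h i e).mul (gb_V h e b)).mul (gb_t h a b))).mul h0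
    · exact PB.sum _ fun b _ => (PB.of_gb (gb_Dt h b i a)).mul (h1 b)
    · exact (PB.of_gb (GB.sum _ fun b _ => GB.sum _ fun e _ =>
        (gb_pt h b i e).mul (gb_pt h e a b))).mul h0
    · exact (PB.of_gb (gb_t h i a)).mul h0
  · intro χ hχ
    have hs := stat_pair h.toTF (Q := fun x => Q x * χ x) (LC.mul_left hQ hχ) a i
    rw [← hs]
    refine I_congr ?_
    filter_upwards [hQd, hχ.ae_diff] with x hx hx2
    have e1 : ∀ b, pd b (fun x => Q x * χ x) x = pd b Q x * χ x + Q x * pd b χ x := fun b =>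
      rpd_mul hx hx2
    simp only [e1]
    have e2 : ∑ b, Dt t b (fun y => t y i a) x * (pd b Q x * χ x + Q x * pd b χ x) =
        (∑ b, Dt t b (fun y => t y i a) x * pd b Q x) * χ x
          + ∑ b, Dt t b (fun y => t y i a) x * Q x * pd b χ x := by
      rw [Finset.sum_mul, ← Finset.sum_add_distrib]
      exact Finset.sum_congr rfl fun b _ => by ring
    rw [e2]
    ring

end

/-- pointwise nonnegativity of the third derivative term -/
theorem s_nonneg {t : Matrix (Fin n) (Fin n) ℝ} (ht : t.PosDef)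
    {P : Fin n → Fin n → Fin n → ℝ} (hP : ∀ e b c, P e b c = P e c b)
    (hS : ∀ a b c, ∑ e, t a e * P e b c = ∑ e, t b e * P e a c) (w : Fin n → ℝ) :
    0 ≤ ∑ a, ∑ i, w a * w i * (∑ b, ∑ e, P b i e * P e a b) := by
  have hu : IsUnit t.det := (Matrix.isUnit_iff_isUnit_det t).1 ht.isUnit
  have hGt : t⁻¹ * t = 1 := Matrix.nonsing_inv_mul t hu
  obtain ⟨C, hC⟩ := Vale.Agent.P254.S2.pw_fact ht.inv.posSemidef
  set A : Matrix (Fin n) (Fin n) ℝ := Matrix.of fun b e => ∑ i, w i * P b i e with hA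
  have hB : (t * A).transpose = t * A := by
    ext c e
    rw [Matrix.transpose_apply, Matrix.mul_apply, Matrix.mul_apply]
    have h1 : ∀ c e, ∑ b, t c b * A b e = ∑ i, w i * ∑ b, t c b * P b i e := by
      intro c e
      simp only [hA, Matrix.of_apply, Finset.mul_sum]
      rw [Finset.sum_comm]
      exact Finset.sum_congr rfl fun i _ => Finset.sum_congr rfl fun b _ => by ring
    rw [h1, h1]
    refine Finset.sum_congr rfl fun i _ => ?_
    congr 1
    have h2 : ∑ b, t e b * P b i c = ∑ b, t i b * P b e c := hS e i c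
    have h3 : ∑ b, t c b * P b i e = ∑ b, t i b * P b c e := hS c i e
    rw [h2, h3]
    exact Finset.sum_congr rfl fun b _ => by rw [hP b e c]
  have hA2 : A = C.transpose * C * (t * A) := by
    rw [← hC, ← Matrix.mul_assoc, hGt, Matrix.one_mul]
  set S : Matrix (Fin n) (Fin n) ℝ := C * (t * A) * C.transpose with hSd
  have hSs : S.transpose = S := by
    rw [hSd, Matrix.transpose_mul, Matrix.transpose_mul, Matrix.transpose_transpose, hB,
      ← Matrix.mul_assoc]
  have e1 : ∑ a, ∑ i, w a * w i * (∑ b, ∑ e, P b i e * P e a b) = (A * A).trace := by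
    have e2 : (A * A).trace = ∑ b, ∑ e, (∑ i, w i * P b i e) * (∑ a, w a * P e a b) := rfl
    rw [e2]
    simp only [Finset.mul_sum, Finset.sum_mul]
    calc ∑ a, ∑ i, ∑ b, ∑ e, w a * w i * (P b i e * P e a b)
        = ∑ b, ∑ a, ∑ i, ∑ e, w a * w i * (P b i e * P e a b) := by
          rw [Finset.sum_congr rfl fun a _ => Finset.sum_comm, Finset.sum_comm]
      _ = ∑ b, ∑ e, ∑ a, ∑ i, w a * w i * (P b i e * P e a b) := by
          refine Finset.sum_congr rfl fun b _ => ?_
          rw [Finset.sum_congr rfl fun a _ => Finset.sum_comm, Finset.sum_comm]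
      _ = _ := by
          refine Finset.sum_congr rfl fun b _ => Finset.sum_congr rfl fun e _ => ?_
          exact Finset.sum_congr rfl fun a _ => Finset.sum_congr rfl fun i _ => by ring
  have e3 : (A * A).trace = (S * S.transpose).trace := by
    rw [hSs, hSd]
    have : A * A = C.transpose * (C * (t * A) * C.transpose * C * (t * A)) := by
      conv_lhs => rw [hA2]
      simp only [Matrix.mul_assoc]
    rw [this, Matrix.trace_mul_comm]
    simp only [Matrix.mul_assoc]
  rw [e1, e3]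
  have e4 : (S * S.transpose).trace = ∑ i, ∑ j, S i j * S i j := rfl
  rw [e4]
  exact Finset.sum_nonneg fun i _ => Finset.sum_nonneg fun j _ => mul_self_nonneg _

end Vale.Agent.P245.Q895
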