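import Vale.Agent.P245.H895.QuadR

/-!
P245, quadratic functionals of log-concave measures (helper895), part S: row POLY, the literal statements
derived from `kls_final`.
-/

set_option linter.all false

open MeasureTheory Filter Topology Set Metric Matrix
open scoped NNReal ENNReal ContDiff
open Vale.Agent.P227.M Vale.Agent.P254

namespace Vale.Agent.P245.Q895

/-- entropy of `f²` for polynomials and in terms of the kurtosis, no hypothesis -/
theorem poly_uncond : ∀ (n : ℕ) (μ : Measure (EuclideanSpace ℝ (Fin n))) [IsProbabilityMeasure μ],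
    HasLogConcaveDensity μ →
    (∀ (d : ℕ) (p : MvPolynomial (Fin n) ℝ), p.totalDegree ≤ d →
      ∀ f : EuclideanSpace ℝ (Fin n) → ℝ, (∀ x, f x = MvPolynomial.eval (fun i => x i) p) →
      Entropy μ (fun x => f x ^ 2) ≤ 180 * (d + 1) * ((∫ x, f x ^ 2 ∂μ) - (∫ x, f x ∂μ) ^ 2)) ∧
    (∀ f : EuclideanSpace ℝ (Fin n) → ℝ, ContDiff ℝ ∞ f → HasCompactSupport f → ∀ k : ℝ, 1 ≤ k →
      ∫ x, (f x - ∫ y, f y ∂μ) ^ 4 ∂μ ≤ k * (∫ x, (f x - ∫ y, f y ∂μ) ^ 2 ∂μ) ^ 2 →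
      Entropy μ (fun x => f x ^ 2) ≤
        57 * (1 + Real.log k) * ((∫ x, f x ^ 2 ∂μ) - (∫ x, f x ∂μ) ^ 2)) := by
  intro n μ _ hlc
  refine ⟨fun d p hp f hf => ?_, fun f hf hs k hk h4 => ?_⟩
  · have e : f = pf p := funext fun x => hf x
    rw [e]
    exact ent_pf hlc p hp
  · have hG : Gr f := Gr.of_test hf.continuous hs
    have h1 := ent_leK (μ := μ) hG.1 (int_gr hlc hG) (int_gr hlc (hG.pow 2)) (int_gr hlc (hG.pow 3))
      (int_gr hlc (hG.pow 4)) hk h4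
    refine h1.trans (mul_le_mul_of_nonneg_right (num57 hk) ?_)
    rw [← var_eq hlc hG]
    exact integral_nonneg fun x => sq_nonneg _

/-- **Row POLY**: the logarithmic Sobolev inequality for polynomials, and with the logarithm of the kurtosis,
from the affine invariant Poincaré inequality of `kls_final`. -/
theorem poly_of
    (h : ∃ C : ℝ, 0 < C ∧ ∀ (n : ℕ) (μ : Measure (EuclideanSpace ℝ (Fin n))) [IsProbabilityMeasure μ],
      HasLogConcaveDensity μ → ∀ (b : Fin n → ℝ) (K : Matrix (Fin n) (Fin n) ℝ),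
      (∀ i, ∫ x, x i ∂μ = b i) → (∀ i j, ∫ x, (x i - b i) * (x j - b j) ∂μ = K i j) →
      ∀ f : EuclideanSpace ℝ (Fin n) → ℝ, ContDiff ℝ ∞ f → HasCompactSupport f →
        (∫ x, f x ^ 2 ∂μ) - (∫ x, f x ∂μ) ^ 2 ≤
          C * ∫ x, ∑ i, ∑ j, K i j * (gradient f x i * gradient f x j) ∂μ) :
    ∃ C : ℝ, 0 < C ∧ ∀ (n : ℕ) (μ : Measure (EuclideanSpace ℝ (Fin n))) [IsProbabilityMeasure μ],
      HasLogConcaveDensity μ → ∀ a : ℝ, 0 < a → LinearlySubgaussian μ a →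
      (∀ (d : ℕ) (p : MvPolynomial (Fin n) ℝ), p.totalDegree ≤ d →
        ∀ f : EuclideanSpace ℝ (Fin n) → ℝ, (∀ x, f x = MvPolynomial.eval (fun i => x i) p) →
        Entropy μ (fun x => f x ^ 2) ≤ C * (d + 1) * a ^ 2 * ∫ x, ‖gradient f x‖ ^ 2 ∂μ) ∧
      (∀ f : EuclideanSpace ℝ (Fin n) → ℝ, ContDiff ℝ ∞ f → HasCompactSupport f → ∀ k : ℝ, 1 ≤ k →
        ∫ x, (f x - ∫ y, f y ∂μ) ^ 4 ∂μ ≤ k * (∫ x, (f x - ∫ y, f y ∂μ) ^ 2 ∂μ) ^ 2 →
        Entropy μ (fun x => f x ^ 2) ≤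
          C * (1 + Real.log k) * a ^ 2 * ∫ x, ‖gradient f x‖ ^ 2 ∂μ) := by
  obtain ⟨C, hC0, hC⟩ := h
  have hC' : KLS C := hC
  refine ⟨180 * C, by positivity, fun n μ _ hlc a ha hsub => ⟨fun d p hp f hf => ?_,
    fun f hf hs k hk h4 => ?_⟩⟩
  · have e : f = pf p := funext fun x => hf x
    rw [e]
    exact poly_lsi hC0 hC' hlc ha hsub p hp
  · refine (kurt_lsi hC0 hC' hlc ha hsub hf hs hk h4).trans ?_
    have hlk : 0 ≤ Real.log k := Real.log_nonneg hk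
    have hI : 0 ≤ ∫ x, ‖gradient f x‖ ^ 2 ∂μ := integral_nonneg fun x => by positivity
    have h1 : 0 ≤ C * (1 + Real.log k) * a ^ 2 * ∫ x, ‖gradient f x‖ ^ 2 ∂μ := by positivity
    calc 57 * C * (1 + Real.log k) * a ^ 2 * ∫ x, ‖gradient f x‖ ^ 2 ∂μ
        = 57 * (C * (1 + Real.log k) * a ^ 2 * ∫ x, ‖gradient f x‖ ^ 2 ∂μ) := by ring
      _ ≤ 180 * (C * (1 + Real.log k) * a ^ 2 * ∫ x, ‖gradient f x‖ ^ 2 ∂μ) :=
          mul_le_mul_of_nonneg_right (by norm_num) h1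
      _ = _ := by ring

end Vale.Agent.P245.Q895
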