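import Vale.Agent.P245.H895.QuadB

/-!
P245, quadratic functionals of log-concave measures (helper895), part C: `E tr (DτDτ) ≤ 2 tr D²`,
Brascamp-Lieb for quadratic functions, the variance bound for regular isotropic potentials.
-/

set_option linter.all false

open MeasureTheory Filter Topology Set Metric
open scoped NNReal ENNReal ContDiff
open Vale.Agent.P227.M Vale.Agent.P227.M.K814 Vale.Agent.P254 Vale.Agent.P254.SN

namespace Vale.Agent.P245.Q895

variable {n : ℕ} {ψ V : E n → ℝ} {c C M c1 C1 : ℝ}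

theorem Ex_eq (V f : E n → ℝ) : Ex V f = I V f / ∫ x, Real.exp (-V x) := rfl

section
variable (hV : Reg V c1 C1) (h : MC.MMc ψ V c C M)
include hV h

/-- step (1), nonnegative weights -/
theorem p_le (h0 : ∀ i, Ex V (fun x => x i) = 0)
    (h1 : ∀ i j, Ex V (fun x => x i * x j) = if i = j then 1 else 0)
    (w : Fin n → ℝ) (hw : ∀ i, 0 ≤ w i) :
    ∑ i, ∑ j, w i * w j * Ex V (fun x => tau ψ x i j ^ 2) ≤ 2 * ∑ i, w i ^ 2 := by
  have hG : ∀ i j, Gr (fun x => tau ψ x i j) := S2.gr_tau h
  have hs : ∀ x i j, tau ψ x i j = tau ψ x j i := S2.tau_symm h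
  have e1 := S2.stmtN1 n ψ V c C M c1 C1 hV h w hw
  have e2 : ∀ x, (Matrix.diagonal w * tau ψ x * Matrix.diagonal w * tau ψ x).trace
      = ∑ i, ∑ j, w i * w j * tau ψ x i j ^ 2 := by
    intro x
    rw [S2.pw_tr4]
    refine Finset.sum_congr rfl fun i _ => Finset.sum_congr rfl fun j _ => ?_
    rw [hs x j i]
    ring
  have e3 : 0 ≤ Ex V (fun x => (hess V x * tau ψ x * Matrix.diagonal w * tau ψ x * Matrix.diagonal w
            * tau ψ x).trace) := by
    refine Ex_nonneg V fun x => ?_
    have hH : (hess V x).PosSemidef := (SL.Gap.hess_posDef hV.c_pos hV.C2 hV.lower x).posSemidef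
    have hτ := MC.MMc.tau_posSemidef h x
    have hB := S2.pw_posW hτ (tau ψ x * Matrix.diagonal w)
    have e4 : tau ψ x * Matrix.diagonal w * tau ψ x * (tau ψ x * Matrix.diagonal w).transpose =
        tau ψ x * Matrix.diagonal w * tau ψ x * Matrix.diagonal w * tau ψ x := by
      rw [Matrix.transpose_mul, Matrix.diagonal_transpose, S2.pw_symm hτ]
      simp only [Matrix.mul_assoc]
    rw [e4] at hB
    have h5 := S2.pw_tr_nonneg hH hB
    refine h5.trans (le_of_eq ?_)
    simp only [Matrix.mul_assoc]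
  have e5 : Ex V (fun x => ∑ i, ∑ j, w i * w j * tau ψ x i j ^ 2) =
      ∑ i, ∑ j, w i * w j * Ex V (fun x => tau ψ x i j ^ 2) := by
    rw [Ex_sum hV _ fun i _ => Gr.sum _ fun j _ => ((hG i j).pow 2).const_mul _]
    refine Finset.sum_congr rfl fun i _ => ?_
    rw [Ex_sum hV _ fun j _ => ((hG i j).pow 2).const_mul _]
    exact Finset.sum_congr rfl fun j _ => Ex_const_mul V _ _
  rw [Ex_congr V e2, e5] at e1
  obtain ⟨hb, -⟩ := S2.H300.stmtBes n ψ V c C M c1 C1 hV h h0 h1
  have hbl : ∀ i j, Ex V (fun x => tau ψ x i j ^ 2) - (if i = j then 1 else 0) ≤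
      Ex V (S2.gam ψ (fun x => tau ψ x i j)) := by
    intro i j
    have h6 := SL.Gap.stmtBL n ψ V c C M c1 C1 hV h i j
    rw [hb i j] at h6
    have h7 : ((if i = j then (1 : ℝ) else 0)) ^ 2 = if i = j then 1 else 0 := by
      split_ifs <;> norm_num
    rwa [h7] at h6
  have e6 : ∑ i, ∑ j, w i * w j * (Ex V (fun x => tau ψ x i j ^ 2) - (if i = j then 1 else 0)) ≤
      ∑ i, ∑ j, w i * w j * Ex V (S2.gam ψ (fun x => tau ψ x i j)) :=
    Finset.sum_le_sum fun i _ => Finset.sum_le_sum fun j _ =>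
      mul_le_mul_of_nonneg_left (hbl i j) (mul_nonneg (hw i) (hw j))
  have e7 : ∑ i, ∑ j, w i * w j * (Ex V (fun x => tau ψ x i j ^ 2) - (if i = j then 1 else 0)) =
      (∑ i, ∑ j, w i * w j * Ex V (fun x => tau ψ x i j ^ 2)) - ∑ i, w i ^ 2 := by
    rw [← Finset.sum_sub_distrib]
    refine Finset.sum_congr rfl fun i _ => ?_
    have : w i ^ 2 = ∑ j, w i * w j * (if i = j then 1 else 0) := by
      rw [Finset.sum_eq_single i]
      · simp [sq]
      · intro j _ hj
        rw [if_neg (Ne.symm hj), mul_zero]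
      · intro hj
        exact absurd (Finset.mem_univ i) hj
    rw [this, ← Finset.sum_sub_distrib]
    exact Finset.sum_congr rfl fun j _ => by ring
  rw [e7] at e6
  linarith

/-- step (1), all weights -/
theorem p_le' (h0 : ∀ i, Ex V (fun x => x i) = 0)
    (h1 : ∀ i j, Ex V (fun x => x i * x j) = if i = j then 1 else 0)
    (m : Fin n → ℝ) :
    ∑ i, ∑ j, m i * m j * Ex V (fun x => tau ψ x i j ^ 2) ≤ 2 * ∑ i, m i ^ 2 := by
  have h2 := p_le hV h h0 h1 (fun i => |m i|) fun i => abs_nonneg _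
  simp only [sq_abs] at h2
  refine le_trans (Finset.sum_le_sum fun i _ => Finset.sum_le_sum fun j _ => ?_) h2
  refine mul_le_mul_of_nonneg_right ?_ (Ex_nonneg V fun x => sq_nonneg _)
  rw [← abs_mul]
  exact le_abs_self _

/-- Brascamp-Lieb for `∑ m_i x_i²` -/
theorem bl_quad (m : Fin n → ℝ) :
    Ex V (fun x => (∑ i, m i * x i ^ 2) ^ 2) - (Ex V (fun x => ∑ i, m i * x i ^ 2)) ^ 2 ≤
      4 * ∑ a, ∑ i, m a * m i * Ex V (fun x => tau ψ x i a * (x a * x i)) := by
  have hT : TB V (tau ψ) := tb_tau hV h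
  obtain ⟨q, hq⟩ : ∃ q : E n → ℝ, q = fun x => ∑ i, m i * x i ^ 2 := ⟨_, rfl⟩
  have hqx : ∀ x, q x = ∑ i, m i * x i ^ 2 := fun x => by rw [hq]
  have hqG : Gr q := by
    rw [hq]
    exact Gr.sum _ fun i _ => ((Gr.coord i).pow 2).const_mul _
  have hqP : PB q := PB.of_gr hqG
  have hqc : ContDiff ℝ 1 q := by
    rw [hq]
    fun_prop
  have hqll : LocallyLipschitz q := ll_of_contDiff hqc
  have hqd : ∀ x, DifferentiableAt ℝ q x := fun x => (hqc.differentiable (by norm_num)) x
  have hpq : ∀ b x, pd b q x = 2 * (m b * x b) := by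
    intro b x
    have e0 : q = fun x => ∑ i, m i * (x i * x i) := by
      rw [hq]; funext x; exact Finset.sum_congr rfl fun i _ => by ring
    rw [e0, rpd_sum fun i _ => (diff_quad i i x).const_mul (m i)]
    have e1 : ∀ i, pd b (fun x : E n => m i * (x i * x i)) x =
        m i * ((if i = b then 1 else 0) * x i + x i * (if i = b then 1 else 0)) := by
      intro i
      rw [rpd_mul (differentiableAt_const _) (diff_quad i i x), rpd_const, pd_quad]
      ring
    rw [Finset.sum_congr rfl fun i _ => e1 i, Finset.sum_eq_single b]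
    · simp; ring
    · intro i _ hi
      rw [if_neg hi]; ring
    · intro hi
      exact absurd (Finset.mem_univ b) hi
  have hpqP : ∀ b, PB (pd b q) := by
    intro b
    rw [funext (hpq b)]
    exact (PB.const _).mul ((PB.const _).mul (PB.coord b))
  obtain ⟨K, χ, hLC, h01, hlim, hpd⟩ := cutoffs n
  have hχm : ∀ k, Measurable (χ k) := fun k => (hLC k).1.continuous.measurable
  have hFLC : ∀ k, LC (fun x => q x * χ k x) := fun k => LC.mul_left hqll (hLC k)
  have hmain : ∀ k, Ex V (fun x => (q x * χ k x) ^ 2) - (Ex V (fun x => q x * χ k x)) ^ 2 ≤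
      Ex V (S2.gam ψ (fun x => q x * χ k x)) := by
    intro k
    obtain ⟨L, hL⟩ := (hFLC k).lip
    obtain ⟨B0, hB0⟩ := (hFLC k).2.exists_bound_of_continuous (hFLC k).1.continuous
    refine SL.Gap.gap_mmc hV h (K := L) (B0 := B0) (fun x y => ?_) (fun x => hB0 x)
    have := hL.dist_le_mul x y
    rwa [Real.dist_eq, dist_eq_norm] at this
  have l1 : Tendsto (fun k => Ex V (fun x => (q x * χ k x) ^ 2)) atTop (𝓝 (Ex V (fun x => q x ^ 2))) := by
    refine (tendsto_I hV (fun k => (hqP.1.mul (hχm k)).pow_const 2) (hqP.mul hqP)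
      (fun k => Eventually.of_forall fun x => ?_) (Eventually.of_forall fun x => ?_)).div_const _
    · change |(q x * χ k x) ^ 2| ≤ q x * q x
      rw [abs_pow, abs_mul, mul_pow, sq_abs, ← sq]
      refine mul_le_of_le_one_right (sq_nonneg _) ?_
      rw [abs_of_nonneg (h01 k x).1]
      exact pow_le_one₀ (h01 k x).1 (h01 k x).2
    · have := (((hlim x).const_mul (q x)).pow 2)
      simpa using this
  have l2 : Tendsto (fun k => Ex V (fun x => q x * χ k x)) atTop (𝓝 (Ex V q)) := by
    refine (tendsto_I hV (fun k => (hqP.1.mul (hχm k))) hqP.abs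
      (fun k => Eventually.of_forall fun x => ?_) (Eventually.of_forall fun x => ?_)).div_const _
    · change |q x * χ k x| ≤ |q x|
      rw [abs_mul, abs_of_nonneg (h01 k x).1]
      exact mul_le_of_le_one_right (abs_nonneg _) (h01 k x).2
    · have := ((hlim x).const_mul (q x))
      simpa using this
  have l3 : Tendsto (fun k => Ex V (S2.gam ψ (fun x => q x * χ k x))) atTop
      (𝓝 (Ex V (S2.gam ψ q))) := by
    refine (tendsto_I hV (G := fun x => ∑ a, ∑ b, |tau ψ x a b| * (|pd a q x| + |q x| * K) *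
      (|pd b q x| + |q x| * K)) (fun k => ?_) ?_
      (fun k => ?_) ?_).div_const _
    · refine Finset.measurable_sum _ fun a _ => Finset.measurable_sum _ fun b _ => ?_
      exact ((gb_t hT a b).1.mul (measurable_fderiv_apply_const ℝ _ _)).mul
        (measurable_fderiv_apply_const ℝ _ _)
    · exact PB.sum _ fun a _ => PB.sum _ fun b _ => (((PB.of_gb (gb_t hT a b)).abs.mul
        ((hpqP a).abs.add (hqP.abs.mul (PB.const _)))).mul
        ((hpqP b).abs.add (hqP.abs.mul (PB.const _))))
    · filter_upwards [(hLC k).ae_diff] with x hx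
      have e1 : ∀ b, |pd b (fun x => q x * χ k x) x| ≤ |pd b q x| + |q x| * K := by
        intro b
        rw [rpd_mul (hqd x) hx]
        refine (abs_add_le _ _).trans (add_le_add ?_ ?_)
        · rw [abs_mul, abs_of_nonneg (h01 k x).1]
          exact mul_le_of_le_one_right (abs_nonneg _) (h01 k x).2
        · rw [abs_mul]
          refine mul_le_mul_of_nonneg_left ((hpd k b x).trans ?_) (abs_nonneg _)
          have : (1 : ℝ) / ((k : ℝ) + 1) ≤ 1 := by
            rw [div_le_one (by positivity)]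
            have : (0 : ℝ) ≤ k := Nat.cast_nonneg k
            linarith
          exact mul_le_of_le_one_right K.coe_nonneg this
      unfold S2.gam
      refine (Finset.abs_sum_le_sum_abs _ _).trans (Finset.sum_le_sum fun a _ => ?_)
      refine (Finset.abs_sum_le_sum_abs _ _).trans (Finset.sum_le_sum fun b _ => ?_)
      rw [abs_mul, abs_mul]
      have := e1 a
      have := e1 b
      gcongr
    · have hall : ∀ᵐ x : E n, ∀ k, DifferentiableAt ℝ (χ k) x := by
        rw [ae_all_iff]
        exact fun k => (hLC k).ae_diff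
      filter_upwards [hall] with x hx
      have e1 : ∀ b, Tendsto (fun k => pd b (fun x => q x * χ k x) x) atTop (𝓝 (pd b q x)) := by
        intro b
        have e2 : ∀ k, pd b (fun x => q x * χ k x) x = pd b q x * χ k x + q x * pd b (χ k) x :=
          fun k => rpd_mul (hqd x) (hx k)
        simp only [e2]
        have h3 : Tendsto (fun k : ℕ => (K : ℝ) * (1 / ((k : ℝ) + 1))) atTop (𝓝 (K * 0)) :=
          (tendsto_one_div_add_atTop_nhds_zero_nat (𝕜 := ℝ)).const_mul _
        rw [mul_zero] at h3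
        have h4 : Tendsto (fun k => pd b (χ k) x) atTop (𝓝 0) :=
          squeeze_zero_norm (fun k => hpd k b x) h3
        have h5 := ((hlim x).const_mul (pd b q x)).add (h4.const_mul (q x))
        simpa using h5
      unfold S2.gam
      exact tendsto_finsetSum _ fun a _ => tendsto_finsetSum _ fun b _ =>
        ((e1 a).const_mul _).mul (e1 b)
  have hfin := le_of_tendsto_of_tendsto' (l1.sub (l2.pow 2)) l3 hmain
  have e4 : Ex V (S2.gam ψ q) = 4 * ∑ a, ∑ i, m a * m i * Ex V (fun x => tau ψ x i a * (x a * x i)) := by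
    have hG : ∀ i j, Gr (fun x => tau ψ x i j) := S2.gr_tau h
    have e5 : ∀ x, S2.gam ψ q x = 4 * ∑ a, ∑ i, m a * m i * (tau ψ x i a * (x a * x i)) := by
      intro x
      unfold S2.gam
      rw [Finset.mul_sum, Finset.sum_comm]
      refine Finset.sum_congr rfl fun a _ => ?_
      rw [Finset.mul_sum]
      refine Finset.sum_congr rfl fun i _ => ?_
      rw [hpq, hpq]
      ring
    rw [Ex_congr V e5, Ex_const_mul]
    congr 1
    have hg : ∀ a i : Fin n, Gr (fun x => m a * m i * (tau ψ x i a * (x a * x i))) := fun a i =>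
      ((hG i a).mul ((Gr.coord a).mul (Gr.coord i))).const_mul _
    rw [Ex_sum hV _ fun a _ => Gr.sum _ fun i _ => hg a i]
    refine Finset.sum_congr rfl fun a _ => ?_
    rw [Ex_sum hV _ fun i _ => hg a i]
    exact Finset.sum_congr rfl fun i _ => Ex_const_mul V _ _
  rw [← e4]
  have e6 : Ex V (fun x => (∑ i, m i * x i ^ 2) ^ 2) - (Ex V (fun x => ∑ i, m i * x i ^ 2)) ^ 2 =
      Ex V (fun x => q x ^ 2) - (Ex V q) ^ 2 := by rw [hq]
  rw [e6]
  exact hfin

end

/-- **the variance bound, regular isotropic case**: `Var (∑ m_i x_i²) ≤ 16 ∑ m_i²` -/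
theorem quad_reg (hV : Reg V c1 C1) (h0 : ∀ i, Ex V (fun x => x i) = 0)
    (h1 : ∀ i j, Ex V (fun x => x i * x j) = if i = j then 1 else 0) (m : Fin n → ℝ) :
    Ex V (fun x => (∑ i, m i * x i ^ 2) ^ 2) - (Ex V (fun x => ∑ i, m i * x i ^ 2)) ^ 2 ≤
      16 * ∑ i, m i ^ 2 := by
  have hZ := hV.Z_pos
  have hcen : MC.Centred V := by
    intro i
    have h2 := h0 i
    unfold Ex at h2
    rcases div_eq_zero_iff.1 h2 with h3 | h3
    · exact h3
    · exact absurd h3 hZ.ne'
  obtain ⟨ψ, M, h⟩ := MC.stmtMMc_of_sc (HL.stmtSC_of_heat SC.stmtHeat) n V c1 C1 hV hcen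
  have e1 := bl_quad hV h m
  have e2 := form_le hV h m
  have e3 := p_le' hV h h0 h1 m
  have e4 : ∑ a, ∑ i, m a * m i * Ex V (fun x => tau ψ x i a * (x a * x i)) =
      (∑ a, ∑ i, m a * m i * I V (fun x => tau ψ x i a * (x a * x i))) / ∫ x, Real.exp (-V x) := by
    rw [Finset.sum_div]
    refine Finset.sum_congr rfl fun a _ => ?_
    rw [Finset.sum_div]
    exact Finset.sum_congr rfl fun i _ => by rw [Ex_eq, mul_div_assoc]
  have e5 : ∑ a, ∑ i, m a * m i * Ex V (fun x => tau ψ x a i ^ 2) =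
      (∑ a, ∑ i, m a * m i * I V (fun x => tau ψ x i a ^ 2)) / ∫ x, Real.exp (-V x) := by
    rw [Finset.sum_div]
    refine Finset.sum_congr rfl fun a _ => ?_
    rw [Finset.sum_div]
    refine Finset.sum_congr rfl fun i _ => ?_
    rw [Ex_eq, mul_div_assoc]
    congr 3
    funext x
    rw [h.tau_symm x a i]
  rw [e4] at e1
  rw [e5] at e3
  have e6 := div_le_div_of_nonneg_right e2 hZ.le
  rw [mul_div_assoc] at e6
  linarith

end Vale.Agent.P245.Q895
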