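import Vale.Agent.P245.H895.QuadC

/-!
P245, quadratic functionals of log-concave measures (helper895), part D: affine reduction,
`Var ⟨T(x-b), x-b⟩ ≤ 16 tr (TKTK)` for all regular potentials.
-/

set_option linter.all false

open MeasureTheory Filter Topology Set Metric Matrix
open scoped NNReal ENNReal ContDiff
open Vale.Agent.P227.M Vale.Agent.P254

namespace Vale.Agent.P245.Q895

variable {n : ℕ} {V : E n → ℝ} {c1 C1 : ℝ}

/-- change of variables in `Ex` -/
theorem Ex_aff {P : Matrix (Fin n) (Fin n) ℝ} (hP : IsUnit P) (a : Fin n → ℝ) (V f : E n → ℝ) :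
    Ex (fun y => V (S5.aff P a y)) (fun y => f (S5.aff P a y)) = Ex V f := by
  have hdet : P.det ≠ 0 := ((Matrix.isUnit_iff_isUnit_det _).1 hP).ne_zero
  have key : ∀ g : E n → ℝ, ∫ y : E n, g (S5.aff P a y) = |P.det|⁻¹ * ∫ x : E n, g x := by
    intro g
    have h1 := S5.integral_aff hP a (fun x => g (WithLp.toLp 2 x))
    have h2 := S5.integral_ofLp (n := n) (fun x => g (WithLp.toLp 2 x))
    rw [← h2] at h1
    exact h1
  unfold Ex
  have h3 := key (fun x => f x * Real.exp (-V x))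
  have h4 := key (fun x => Real.exp (-V x))
  rw [h3, h4, mul_div_mul_left _ _ (inv_ne_zero (abs_ne_zero.2 hdet))]

/-- spectral theorem for real symmetric matrices -/
theorem spec {A : Matrix (Fin n) (Fin n) ℝ} (hA : Aᵀ = A) :
    ∃ (U : Matrix (Fin n) (Fin n) ℝ) (d : Fin n → ℝ), Uᵀ * U = 1 ∧ U * Uᵀ = 1 ∧
      A = U * Matrix.diagonal d * Uᵀ := by
  have hA' : A.IsHermitian := by
    rw [Matrix.IsHermitian, Matrix.conjTranspose_eq_transpose_of_trivial, hA]
  have hU1 : (hA'.eigenvectorUnitary : Matrix (Fin n) (Fin n) ℝ)ᵀ *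
      (hA'.eigenvectorUnitary : Matrix (Fin n) (Fin n) ℝ) = 1 := by
    have := Unitary.coe_star_mul_self hA'.eigenvectorUnitary
    rwa [Matrix.star_eq_conjTranspose, Matrix.conjTranspose_eq_transpose_of_trivial] at this
  refine ⟨(hA'.eigenvectorUnitary : Matrix (Fin n) (Fin n) ℝ), fun i => hA'.eigenvalues i, hU1,
    mul_eq_one_comm.1 hU1, ?_⟩
  have h := hA'.spectral_theorem
  rw [Unitary.conjStarAlgAut_apply] at h
  rw [Matrix.star_eq_conjTranspose, Matrix.conjTranspose_eq_transpose_of_trivial] at h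
  exact h

/-- simultaneous diagonalisation -/
theorem diag_pair {K T : Matrix (Fin n) (Fin n) ℝ} (hK : K.PosDef) (hT : Tᵀ = T) :
    ∃ (P : Matrix (Fin n) (Fin n) ℝ) (m : Fin n → ℝ), IsUnit P ∧ P * Pᵀ = K ∧
      Pᵀ * T * P = Matrix.diagonal m := by
  obtain ⟨S, hS⟩ := S2.pw_fact hK.posSemidef
  have hA : (S * T * Sᵀ)ᵀ = S * T * Sᵀ := by
    rw [Matrix.transpose_mul, Matrix.transpose_mul, Matrix.transpose_transpose, hT, Matrix.mul_assoc]
  obtain ⟨U, d, hU1, hU2, hsp⟩ := spec hA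
  have h1 : (Sᵀ * U) * (Sᵀ * U)ᵀ = K := by
    rw [Matrix.transpose_mul, Matrix.transpose_transpose, Matrix.mul_assoc, ← Matrix.mul_assoc U,
      hU2, Matrix.one_mul, ← hS]
  refine ⟨Sᵀ * U, d, ?_, h1, ?_⟩
  · have h2 : IsUnit ((Sᵀ * U) * (Sᵀ * U)ᵀ).det := by
      rw [h1]
      exact (Matrix.isUnit_iff_isUnit_det _).1 hK.isUnit
    rw [Matrix.det_mul] at h2
    exact (Matrix.isUnit_iff_isUnit_det _).2 (isUnit_of_mul_isUnit_left h2)
  · have e1 : (Sᵀ * U)ᵀ * T * (Sᵀ * U) = Uᵀ * (S * T * Sᵀ) * U := by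
      rw [Matrix.transpose_mul, Matrix.transpose_transpose]
      simp only [Matrix.mul_assoc]
    rw [e1, hsp]
    have e2 : Uᵀ * (U * Matrix.diagonal d * Uᵀ) * U =
        (Uᵀ * U) * Matrix.diagonal d * (Uᵀ * U) := by
      simp only [Matrix.mul_assoc]
    rw [e2, hU1, Matrix.one_mul, Matrix.mul_one]

/-- the covariance matrix of a regular potential is positive definite -/
theorem cov_posDef (hV : Reg V c1 C1) {b : Fin n → ℝ}
    {K : Matrix (Fin n) (Fin n) ℝ} (hK : ∀ i j, Ex V (fun x => (x i - b i) * (x j - b j)) = K i j) :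
    K.PosDef := by
  have hG : ∀ i, Gr (fun x : E n => x i - b i) := fun i => (Gr.coord i).sub (Gr.const _)
  have hq : ∀ v : Fin n → ℝ, v ⬝ᵥ (K *ᵥ v) = Ex V (fun x => (∑ i, v i * (x i - b i)) ^ 2) := by
    intro v
    have e1 : ∀ x : E n, (∑ i, v i * (x i - b i)) ^ 2 =
        ∑ i, ∑ j, v i * v j * ((x i - b i) * (x j - b j)) := by
      intro x
      rw [sq, Finset.sum_mul_sum]
      exact Finset.sum_congr rfl fun i _ => Finset.sum_congr rfl fun j _ => by ring
    rw [Ex_congr V e1, Ex_sum hV _ fun i _ => Gr.sum _ fun j _ => ((hG i).mul (hG j)).const_mul _]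
    unfold dotProduct Matrix.mulVec dotProduct
    refine Finset.sum_congr rfl fun i _ => ?_
    rw [Ex_sum hV _ fun j _ => ((hG i).mul (hG j)).const_mul _, Finset.mul_sum]
    refine Finset.sum_congr rfl fun j _ => ?_
    rw [Ex_const_mul, hK]
    ring
  refine Matrix.PosDef.of_dotProduct_mulVec_pos ?_ fun v hv => ?_
  · ext i j
    rw [Matrix.conjTranspose_apply, star_trivial, ← hK, ← hK]
    exact Ex_congr V fun x => mul_comm _ _
  · rw [star_trivial, hq v]
    have hZ := hV.Z_pos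
    unfold Ex
    refine div_pos ?_ hZ
    have hGl : Gr (fun x : E n => (∑ i, v i * (x i - b i)) ^ 2) :=
      (Gr.sum _ fun i _ => (hG i).const_mul _).pow 2
    rw [integral_pos_iff_support_of_nonneg (fun x => mul_nonneg (sq_nonneg _) (Real.exp_pos _).le)
      (hV.integrable_gr hGl)]
    have hcont : Continuous fun x : E n => (∑ i, v i * (x i - b i)) ^ 2 * Real.exp (-V x) :=
      hGl.cont.mul (Real.continuous_exp.comp hV.cont.neg)
    refine hcont.isOpen_support.measure_pos volume ?_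
    refine ⟨WithLp.toLp 2 (fun i => b i + v i), ?_⟩
    rw [Function.mem_support]
    refine mul_ne_zero (pow_ne_zero 2 ?_) (Real.exp_pos _).ne'
    have e3 : ∑ i, v i * ((WithLp.toLp 2 (fun i => b i + v i) : E n) i - b i) = v ⬝ᵥ v := by
      unfold dotProduct
      refine Finset.sum_congr rfl fun i _ => ?_
      show v i * (b i + v i - b i) = v i * v i
      ring
    rw [e3]
    intro h0
    exact hv (dotProduct_self_eq_zero.1 h0)

/-- **the variance bound for regular potentials** -/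
theorem quad_reg_gen (hV : Reg V c1 C1) {T : Matrix (Fin n) (Fin n) ℝ} (hT : Tᵀ = T)
    {b : Fin n → ℝ} (hb : ∀ i, Ex V (fun x => x i) = b i)
    {K : Matrix (Fin n) (Fin n) ℝ} (hK : ∀ i j, Ex V (fun x => (x i - b i) * (x j - b j)) = K i j) :
    Ex V (fun x => (∑ i, ∑ j, T i j * ((x i - b i) * (x j - b j))) ^ 2)
      - (Ex V (fun x => ∑ i, ∑ j, T i j * ((x i - b i) * (x j - b j)))) ^ 2 ≤
      16 * (T * K * T * K).trace := by
  obtain ⟨P, m, hP, hPP, hPT⟩ := diag_pair (cov_posDef hV hK) hT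
  have hPdet := (Matrix.isUnit_iff_isUnit_det _).1 hP
  obtain ⟨c2, C2, hV'⟩ := S5.R669.reg_aff hV hP b
  have hG : ∀ i, Gr (fun x : E n => x i - b i) := fun i => (Gr.coord i).sub (Gr.const _)
  set L : Matrix (Fin n) (Fin n) ℝ := P⁻¹ with hL
  have hLP : L * P = 1 := Matrix.nonsing_inv_mul P hPdet
  have haff : ∀ (y : E n) (i : Fin n), (S5.aff P b y) i - b i = (P *ᵥ y.ofLp) i := by
    intro y i
    show (P *ᵥ y.ofLp + b) i - b i = _
    simp
  have hy : ∀ (y : E n) (i : Fin n), y i = ∑ j, L i j * ((S5.aff P b y) j - b j) := by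
    intro y i
    simp only [haff]
    show y i = (L *ᵥ (P *ᵥ y.ofLp)) i
    rw [Matrix.mulVec_mulVec, hLP, Matrix.one_mulVec]
  have h0 : ∀ i, Ex (fun y => V (S5.aff P b y)) (fun y => y i) = 0 := by
    intro i
    have e1 : (fun y : E n => y i) = fun y => (fun x : E n => ∑ j, L i j * (x j - b j)) (S5.aff P b y) :=
      funext fun y => hy y i
    rw [e1, Ex_aff hP b V (fun x : E n => ∑ j, L i j * (x j - b j)),
      Ex_sum hV _ fun j _ => (hG j).const_mul _]
    refine Finset.sum_eq_zero fun j _ => ?_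
    rw [Ex_const_mul, Ex_sub hV (Gr.coord j) (Gr.const _), hb, Ex_const hV, sub_self, mul_zero]
  have h1 : ∀ i j, Ex (fun y => V (S5.aff P b y)) (fun y => y i * y j) = if i = j then 1 else 0 := by
    intro i j
    have e1 : (fun y : E n => y i * y j) = fun y => (fun x : E n => ∑ k, ∑ l, L i k * L j l *
        ((x k - b k) * (x l - b l))) (S5.aff P b y) := by
      funext y
      rw [hy y i, hy y j, Finset.sum_mul_sum]
      exact Finset.sum_congr rfl fun k _ => Finset.sum_congr rfl fun l _ => by ring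
    rw [e1, Ex_aff hP b V (fun x : E n => ∑ k, ∑ l, L i k * L j l *
        ((x k - b k) * (x l - b l))),
      Ex_sum hV _ fun k _ => Gr.sum _ fun l _ => ((hG k).mul (hG l)).const_mul _]
    have e2 : ∀ k, Ex V (fun x => ∑ l, L i k * L j l * ((x k - b k) * (x l - b l))) =
        ∑ l, L i k * L j l * K k l := by
      intro k
      rw [Ex_sum hV _ fun l _ => ((hG k).mul (hG l)).const_mul _]
      exact Finset.sum_congr rfl fun l _ => by rw [Ex_const_mul, hK]
    rw [Finset.sum_congr rfl fun k _ => e2 k]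
    have e3 : ∑ k, ∑ l, L i k * L j l * K k l = (L * K * Lᵀ) i j := by
      rw [Matrix.mul_apply]
      simp only [Matrix.mul_apply, Finset.sum_mul, Matrix.transpose_apply]
      rw [Finset.sum_comm]
      exact Finset.sum_congr rfl fun l _ => Finset.sum_congr rfl fun k _ => by ring
    rw [e3, ← hPP]
    have e4 : L * (P * Pᵀ) * Lᵀ = (L * P) * (L * P)ᵀ := by
      rw [Matrix.transpose_mul]
      simp only [Matrix.mul_assoc]
    rw [e4, hLP, Matrix.transpose_one, Matrix.one_mul, Matrix.one_apply]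
  have key := quad_reg hV' h0 h1 m
  have hF : ∀ y : E n, ∑ i, ∑ j, T i j * (((S5.aff P b y) i - b i) * ((S5.aff P b y) j - b j)) =
      ∑ i, m i * y i ^ 2 := by
    intro y
    simp only [haff]
    have e1 : ∑ i, ∑ j, T i j * ((P *ᵥ y.ofLp) i * (P *ᵥ y.ofLp) j) =
        (P *ᵥ y.ofLp) ⬝ᵥ (T *ᵥ (P *ᵥ y.ofLp)) := by
      unfold dotProduct
      refine Finset.sum_congr rfl fun i _ => ?_
      show _ = (P *ᵥ y.ofLp) i * ∑ j, T i j * (P *ᵥ y.ofLp) j
      rw [Finset.mul_sum]
      exact Finset.sum_congr rfl fun j _ => by ring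
    have e2 : (P *ᵥ y.ofLp) ⬝ᵥ (T *ᵥ (P *ᵥ y.ofLp)) = y.ofLp ⬝ᵥ ((Pᵀ * T * P) *ᵥ y.ofLp) := by
      rw [← Matrix.mulVec_mulVec, ← Matrix.mulVec_mulVec, Matrix.dotProduct_mulVec y.ofLp,
        Matrix.vecMul_transpose]
    rw [e1, e2, hPT]
    unfold dotProduct
    refine Finset.sum_congr rfl fun i _ => ?_
    rw [Matrix.mulVec_diagonal]
    ring
  have e5 : Ex (fun y => V (S5.aff P b y)) (fun x => (∑ i, m i * x i ^ 2) ^ 2) =
      Ex V (fun x => (∑ i, ∑ j, T i j * ((x i - b i) * (x j - b j))) ^ 2) := by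
    rw [← Ex_aff hP b V]
    exact Ex_congr _ fun y => by rw [hF y]
  have e6 : Ex (fun y => V (S5.aff P b y)) (fun x => ∑ i, m i * x i ^ 2) =
      Ex V (fun x => ∑ i, ∑ j, T i j * ((x i - b i) * (x j - b j))) := by
    rw [← Ex_aff hP b V]
    exact Ex_congr _ fun y => by rw [hF y]
  rw [e5, e6] at key
  have e7 : ∑ i, m i ^ 2 = (T * K * T * K).trace := by
    have e8 : (Matrix.diagonal m * Matrix.diagonal m).trace = ∑ i, m i ^ 2 := by
      rw [Matrix.diagonal_mul_diagonal, Matrix.trace_diagonal]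
      exact Finset.sum_congr rfl fun i _ => by ring
    rw [← e8, ← hPT, ← hPP]
    have e9 : Pᵀ * T * P * (Pᵀ * T * P) = Pᵀ * (T * (P * Pᵀ) * T * P) := by
      simp only [Matrix.mul_assoc]
    rw [e9, Matrix.trace_mul_comm]
    simp only [Matrix.mul_assoc]
  rw [e7] at key
  exact key

end Vale.Agent.P245.Q895
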