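import Vale.Agent.P245.H895.QuadD
import Vale.Agent.P245.Defs

/-!
P245, quadratic functionals of log-concave measures (helper895), part E: regular approximations of a
log-concave probability measure `μ`: restriction to a ball, Gaussian smoothing, Gaussian damping.
-/

set_option linter.all false

open MeasureTheory Filter Topology Set Metric Matrix
open scoped NNReal ENNReal ContDiff
open Vale.Agent.P227.M Vale.Agent.P254
open Vale.Agent.P254.S5.R669 (bil bil_apply qd contDiff_qd bdd_qd qf_qd reg_of qf_hess_add bdd_add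
  expo_compact log_lap_bdd)
open Vale.Agent.P227.M.Lap (lap Expo contDiff_lap lap_pos integrable_lap contDiff_log_lap line1 line2)

namespace Vale.Agent.P245.Q895

variable {n : ℕ} {μ : Measure (E n)}

/-- `a ⟨x, y⟩` -/
noncomputable def bl (n : ℕ) (a : ℝ) : E n →L[ℝ] E n →L[ℝ] ℝ :=
  bil (a • (1 : Matrix (Fin n) (Fin n) ℝ))

theorem inner_eq_dot (x y : E n) : inner ℝ x y = x.ofLp ⬝ᵥ y.ofLp := by
  rw [PiLp.inner_apply]
  unfold dotProduct
  refine Finset.sum_congr rfl fun i _ => ?_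
  simp [mul_comm]

theorem bl_apply (a : ℝ) (x y : E n) : bl n a x y = a * inner ℝ x y := by
  unfold bl
  rw [bil_apply, inner_eq_dot, smul_mulVec, one_mulVec, dotProduct_smul, smul_eq_mul]

theorem qd_bl (a : ℝ) (x : E n) : qd (bl n a) 0 x = a / 2 * ‖x‖ ^ 2 := by
  unfold qd
  rw [bl_apply, real_inner_self_eq_norm_sq]
  simp only [_root_.zero_apply]
  ring

/-- the Gaussian factor -/
noncomputable def gd (ε : ℝ) (x : E n) : ℝ := Real.exp (-(1 / (2 * ε)) * ‖x‖ ^ 2)

theorem cont_gd (ε : ℝ) : Continuous (gd ε : E n → ℝ) := by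
  unfold gd
  fun_prop

/-- the Laplace transform of the restriction of `μ` to a ball -/
noncomputable def LG (μ : Measure (E n)) (R ε : ℝ) (y : E n) : ℝ :=
  lap (bl n (1 / ε)) (μ.restrict (closedBall 0 R)) (gd ε) y

/-- Gaussian smoothing of the restriction of `μ` to a ball -/
noncomputable def HG (μ : Measure (E n)) (R ε : ℝ) (y : E n) : ℝ :=
  ∫ x in closedBall 0 R, Real.exp (-(1 / (2 * ε)) * ‖y - x‖ ^ 2) ∂μ

theorem HG_eq {ε : ℝ} (hε : 0 < ε) (R : ℝ) (y : E n) :
    HG μ R ε y = Real.exp (-(1 / (2 * ε)) * ‖y‖ ^ 2) * LG μ R ε y := by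
  unfold HG LG lap
  rw [← integral_const_mul]
  refine integral_congr_ae (Eventually.of_forall fun x => ?_)
  simp only [bl_apply, gd, smul_eq_mul]
  rw [← Real.exp_add, ← Real.exp_add]
  congr 1
  rw [norm_sub_sq_real, real_inner_comm x y]
  field_simp
  ring

section
variable [IsFiniteMeasure μ]

theorem LG_expo (R ε : ℝ) : Expo (μ.restrict (closedBall (0 : E n) R)) (gd ε) :=
  expo_compact (isCompact_closedBall 0 R) (cont_gd ε)

theorem LG_pos {R : ℝ} (hR : μ (closedBall 0 R) ≠ 0) (ε : ℝ) (y : E n) : 0 < LG μ R ε y := by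
  refine lap_pos (LG_expo R ε) (fun x => (Real.exp_pos _).le) ?_ y
  have : {x : E n | gd ε x ≠ 0} = univ := by
    ext x
    simp [gd, Real.exp_ne_zero]
  rw [this, Measure.restrict_apply_univ]
  exact hR

theorem HG_pos {R : ℝ} (hR : μ (closedBall 0 R) ≠ 0) {ε : ℝ} (hε : 0 < ε) (y : E n) :
    0 < HG μ R ε y := by
  rw [HG_eq hε]
  exact mul_pos (Real.exp_pos _) (LG_pos hR ε y)

theorem HG_int (R : ℝ) {ε : ℝ} (hε : 0 < ε) (y : E n) :
    IntegrableOn (fun x => Real.exp (-(1 / (2 * ε)) * ‖y - x‖ ^ 2)) (closedBall 0 R) μ := by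
  have hc : Continuous fun x : E n => Real.exp (-(1 / (2 * ε)) * ‖y - x‖ ^ 2) := by fun_prop
  exact hc.continuousOn.integrableOn_compact (isCompact_closedBall 0 R)

/-- the smoothed restriction of a log-concave measure is (midpoint) log-concave -/
theorem HG_mid (hlc : HasLogConcaveDensity μ) (R : ℝ) {ε : ℝ} (hε : 0 < ε) (y y' : E n) :
    HG μ R ε y * HG μ R ε y' ≤ HG μ R ε ((2 : ℝ)⁻¹ • (y + y')) ^ 2 := by
  obtain ⟨ρ, hm, h0, hc, hμ⟩ := hlc
  set K : Set (E n) := closedBall 0 R with hK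
  have hKm : MeasurableSet K := measurableSet_closedBall
  have hKc : Convex ℝ K := convex_closedBall 0 R
  set k : E n → E n → ℝ≥0∞ := fun y x => ENNReal.ofReal (ρ x) *
    K.indicator (fun x => ENNReal.ofReal (Real.exp (-(1 / (2 * ε)) * ‖y - x‖ ^ 2))) x with hk
  have hkm : ∀ y, Measurable (k y) := fun y => by
    refine (hm.ennreal_ofReal).mul (Measurable.indicator ?_ hKm)
    fun_prop
  have e1 : ∀ y, ENNReal.ofReal (HG μ R ε y) = ∫⁻ x, k y x := by
    intro y
    unfold HG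
    rw [ofReal_integral_eq_lintegral_ofReal (HG_int R hε y)
      (Eventually.of_forall fun x => (Real.exp_pos _).le)]
    rw [← lintegral_indicator hKm, hμ, lintegral_withDensity_eq_lintegral_mul _ hm.ennreal_ofReal]
    · rfl
    · refine Measurable.indicator ?_ hKm
      fun_prop
  have key := P347.pl_enn (k y) (k y') (k ((2 : ℝ)⁻¹ • (y + y'))) (hkm _) (hkm _) (hkm _) ?_
  · rw [← e1, ← e1, ← e1] at key
    have hn : ∀ y, 0 ≤ HG μ R ε y := fun y => by
      unfold HG
      exact integral_nonneg fun x => (Real.exp_pos _).le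
    rw [← ENNReal.ofReal_mul (hn _), ← ENNReal.ofReal_pow (hn _)] at key
    exact (ENNReal.ofReal_le_ofReal_iff (by positivity)).1 key
  · intro x x'
    simp only [hk]
    by_cases hx : x ∈ K
    · by_cases hx' : x' ∈ K
      · have hmid : (2 : ℝ)⁻¹ • (x + x') ∈ K := by
          rw [smul_add]
          exact hKc hx hx' (by norm_num) (by norm_num) (by norm_num)
        rw [indicator_of_mem hx, indicator_of_mem hx', indicator_of_mem hmid]
        rcases (h0 x).eq_or_lt with hρ | hρ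
        · rw [← hρ]; simp
        rcases (h0 x').eq_or_lt with hρ' | hρ'
        · rw [← hρ']; simp
        rw [← ENNReal.ofReal_mul hρ.le, ← ENNReal.ofReal_mul hρ'.le,
          ← ENNReal.ofReal_mul (by positivity), ← ENNReal.ofReal_mul (h0 _),
          ← ENNReal.ofReal_pow (mul_nonneg (h0 _) (Real.exp_pos _).le)]
        refine ENNReal.ofReal_le_ofReal ?_
        have hz : (0 : ℝ) < ρ ((2 : ℝ)⁻¹ • (x + x')) := by
          rw [smul_add]
          exact hc.1 hρ hρ' (by norm_num) (by norm_num) (by norm_num)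
        have h1 := hc.2 hρ hρ' (show (0 : ℝ) ≤ 2⁻¹ by norm_num) (show (0 : ℝ) ≤ 2⁻¹ by norm_num)
          (by norm_num)
        simp only [smul_eq_mul] at h1
        rw [← smul_add] at h1
        have h2 : ρ x * ρ x' ≤ ρ ((2 : ℝ)⁻¹ • (x + x')) ^ 2 := by
          have h3 : Real.log (ρ x * ρ x') ≤ Real.log (ρ ((2 : ℝ)⁻¹ • (x + x')) ^ 2) := by
            rw [Real.log_mul hρ.ne' hρ'.ne', Real.log_pow]
            push_cast
            linarith
          exact (Real.log_le_log_iff (by positivity) (by positivity)).1 h3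
        have h4 : Real.exp (-(1 / (2 * ε)) * ‖y - x‖ ^ 2) * Real.exp (-(1 / (2 * ε)) * ‖y' - x'‖ ^ 2)
            ≤ Real.exp (-(1 / (2 * ε)) * ‖(2 : ℝ)⁻¹ • (y + y') - (2 : ℝ)⁻¹ • (x + x')‖ ^ 2) ^ 2 := by
          rw [← Real.exp_add, ← Real.exp_nat_mul]
          refine Real.exp_le_exp.2 ?_
          have h5 : (2 : ℝ)⁻¹ • (y + y') - (2 : ℝ)⁻¹ • (x + x') = (2 : ℝ)⁻¹ • ((y - x) + (y' - x')) := by
            rw [← smul_sub]
            congr 1
            abel
          rw [h5, norm_smul, Real.norm_eq_abs, abs_of_pos (by norm_num : (0 : ℝ) < 2⁻¹), mul_pow]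
          have h6 := parallelogram_law_with_norm ℝ (y - x) (y' - x')
          have h7 : 0 ≤ ‖(y - x) - (y' - x')‖ * ‖(y - x) - (y' - x')‖ := mul_self_nonneg _
          have h8 : ‖(y - x) + (y' - x')‖ ^ 2 ≤ 2 * (‖y - x‖ ^ 2 + ‖y' - x'‖ ^ 2) := by nlinarith
          have h9 : 0 < 1 / (2 * ε) := by positivity
          push_cast
          nlinarith [mul_le_mul_of_nonneg_left h8 h9.le]
        calc ρ x * Real.exp (-(1 / (2 * ε)) * ‖y - x‖ ^ 2) *
              (ρ x' * Real.exp (-(1 / (2 * ε)) * ‖y' - x'‖ ^ 2))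
            = (ρ x * ρ x') * (Real.exp (-(1 / (2 * ε)) * ‖y - x‖ ^ 2) *
              Real.exp (-(1 / (2 * ε)) * ‖y' - x'‖ ^ 2)) := by ring
          _ ≤ ρ ((2 : ℝ)⁻¹ • (x + x')) ^ 2 * Real.exp (-(1 / (2 * ε)) *
              ‖(2 : ℝ)⁻¹ • (y + y') - (2 : ℝ)⁻¹ • (x + x')‖ ^ 2) ^ 2 := by gcongr
          _ = _ := by ring
      · rw [indicator_of_notMem hx']; simp
    · rw [indicator_of_notMem hx]; simp

/-- `- log (e^{-|y|²/(2ε)} LG)` -/
noncomputable def FG (μ : Measure (E n)) (R ε : ℝ) (y : E n) : ℝ :=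
  qd (bl n (1 / ε)) 0 y + -Real.log (LG μ R ε y)

theorem FG_eq {R : ℝ} (hR : μ (closedBall 0 R) ≠ 0) {ε : ℝ} (hε : 0 < ε) (y : E n) :
    FG μ R ε y = -Real.log (HG μ R ε y) := by
  unfold FG
  rw [HG_eq hε, Real.log_mul (Real.exp_pos _).ne' (LG_pos hR ε y).ne', Real.log_exp, qd_bl]
  ring

theorem contDiff_FG {R : ℝ} (hR : μ (closedBall 0 R) ≠ 0) (ε : ℝ) :
    ContDiff ℝ (⊤ : ℕ∞) (FG μ R ε) :=
  (contDiff_qd _ _).add (contDiff_log_lap (LG_expo R ε) fun y => LG_pos hR ε y).neg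

theorem bdd_FG {R : ℝ} (hR : μ (closedBall 0 R) ≠ 0) (ε : ℝ) (k : ℕ) (hk : 2 ≤ k) :
    ∃ C : ℝ, ∀ y, ‖iteratedFDeriv ℝ k (FG μ R ε) y‖ ≤ C := by
  refine bdd_add (contDiff_qd _ _) (contDiff_log_lap (LG_expo R ε) fun y => LG_pos hR ε y).neg
    (bdd_qd _ _ k hk) ?_
  obtain ⟨C, hC⟩ := log_lap_bdd (μ := μ) (isCompact_closedBall (0 : E n) R) (bl n (1 / ε)) (cont_gd ε)
    (fun _ => (Real.exp_pos _).le) (fun y => LG_pos hR ε y) k hk
  refine ⟨C, fun y => ?_⟩
  have e : iteratedFDeriv ℝ k (fun x : E n => -Real.log (LG μ R ε x)) y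
      = -iteratedFDeriv ℝ k (fun x : E n => Real.log (LG μ R ε x)) y := by
    exact iteratedFDeriv_neg_apply
  change ‖iteratedFDeriv ℝ k (fun x : E n => -Real.log (LG μ R ε x)) y‖ ≤ C
  rw [e, norm_neg]
  exact hC y

theorem qf_FG_nonneg (hlc : HasLogConcaveDensity μ) {R : ℝ} (hR : μ (closedBall 0 R) ≠ 0) {ε : ℝ}
    (hε : 0 < ε) (x v : E n) : 0 ≤ qf (hess (FG μ R ε) x) v := by
  have hs := contDiff_FG hR ε
  have h := Fr.second_le (f := fun t : ℝ => -FG μ R ε (x + t • v))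
    (f' := fun t => -(fderiv ℝ (FG μ R ε) (x + t • v) v))
    (d := -qf (hess (FG μ R ε) (x + (0 : ℝ) • v)) v)
    (fun t => (line1 hs x v t).neg) (line2 hs x v 0).neg fun t => by
      have h1 := HG_mid hlc R hε (x + t • v) (x + (-t) • v)
      have e : (2 : ℝ)⁻¹ • ((x + t • v) + (x + (-t) • v)) = x + (0 : ℝ) • v := by
        rw [zero_smul, add_zero, neg_smul]
        have : x + t • v + (x + -(t • v)) = (2 : ℝ) • x := by rw [two_smul]; abel
        rw [this, smul_smul]; norm_num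
      rw [e] at h1
      have p1 := HG_pos hR hε (x + t • v)
      have p2 := HG_pos hR hε (x + (-t) • v)
      have h2 := Real.log_le_log (mul_pos p1 p2) h1
      rw [Real.log_mul p1.ne' p2.ne', Real.log_pow] at h2
      simp only [FG_eq hR hε, neg_neg]
      push_cast at h2
      exact h2
  rw [zero_smul, add_zero] at h
  linarith

/-- the approximating potential -/
noncomputable def PT (μ : Measure (E n)) (R ε m : ℝ) (y : E n) : ℝ :=
  FG μ R ε y + qd (bl n m) 0 y

theorem exp_neg_PT {R : ℝ} (hR : μ (closedBall 0 R) ≠ 0) {ε : ℝ} (hε : 0 < ε) (m : ℝ) (y : E n) :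
    Real.exp (-PT μ R ε m y) = Real.exp (-(m / 2) * ‖y‖ ^ 2) * HG μ R ε y := by
  unfold PT
  rw [FG_eq hR hε, qd_bl, neg_add, neg_neg, Real.exp_add, Real.exp_log (HG_pos hR hε y), mul_comm]
  congr 2
  ring

/-- the approximating potential is regular -/
theorem reg_PT (hlc : HasLogConcaveDensity μ) {R : ℝ} (hR : μ (closedBall 0 R) ≠ 0) {ε : ℝ}
    (hε : 0 < ε) {m : ℝ} (hm : 0 < m) : ∃ C, Reg (PT μ R ε m) m C := by
  refine reg_of hm ((contDiff_FG hR ε).add (contDiff_qd _ _)) (fun x v => ?_) fun k hk => ?_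
  · have e : qf (hess (PT μ R ε m) x) v = qf (hess (FG μ R ε) x) v + bl n m v v := by
      have h1 := qf_hess_add (contDiff_FG (μ := μ) hR ε) (contDiff_qd (bl n m) 0) x v
      rw [qf_qd] at h1
      exact h1
    rw [e, bl_apply, real_inner_self_eq_norm_sq]
    have := qf_FG_nonneg hlc hR hε x v
    linarith
  · exact bdd_add (contDiff_FG hR ε) (contDiff_qd _ _) (bdd_FG hR ε k hk) (bdd_qd _ _ k hk)

end

end Vale.Agent.P245.Q895
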