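import Vale.Agent.P245.H895.QuadE
import Vale.Agent.P254.H375.Decay

/-!
P245, quadratic functionals of log-concave measures (helper895), part F: moments of log-concave measures and
convergence of the expectations with respect to the regular approximations.
-/

set_option linter.all false

open MeasureTheory Filter Topology Set Metric Matrix
open scoped NNReal ENNReal ContDiff
open Vale.Agent.P227.M Vale.Agent.P254

namespace Vale.Agent.P245.Q895

variable {n : ℕ} {μ : Measure (E n)}

/-- a log-concave probability measure has all moments -/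
theorem mom [IsProbabilityMeasure μ] (hlc : HasLogConcaveDensity μ) (d : ℕ) :
    Integrable (fun x : E n => (1 + ‖x‖) ^ d) μ := by
  obtain ⟨ρ, hm, h0, hc, hμ⟩ := hlc
  set f : (Fin n → ℝ) → ℝ := fun y => ρ (WithLp.toLp 2 y) with hf
  have hfm : Measurable f := hm.comp (WithLp.measurable_toLp 2 _)
  have hLC : H375.LogConcave f := by
    refine ⟨fun y => h0 _, fun x y t ht => ?_⟩
    obtain ⟨ht0, ht1⟩ := ht
    rcases ht0.eq_or_lt with rfl | ht0
    · simp
    rcases ht1.eq_or_lt with rfl | ht1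
    · simp
    rcases (h0 (WithLp.toLp 2 x)).eq_or_lt with hx | hx
    · have : f x = 0 := hx.symm
      rw [this, Real.zero_rpow (by linarith), zero_mul]; exact h0 _
    rcases (h0 (WithLp.toLp 2 y)).eq_or_lt with hy | hy
    · have : f y = 0 := hy.symm
      rw [this, Real.zero_rpow ht0.ne', mul_zero]; exact h0 _
    have hz : (0 : ℝ) < ρ ((1 - t) • WithLp.toLp 2 x + t • WithLp.toLp 2 y) :=
      hc.1 hx hy (by linarith) ht0.le (by ring)
    have h1 := hc.2 hx hy (show 0 ≤ 1 - t by linarith) ht0.le (by ring)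
    simp only [smul_eq_mul] at h1
    have e : f ((1 - t) • x + t • y) = ρ ((1 - t) • WithLp.toLp 2 x + t • WithLp.toLp 2 y) := rfl
    have e1 : f x = ρ (WithLp.toLp 2 x) := rfl
    have e2 : f y = ρ (WithLp.toLp 2 y) := rfl
    rw [e, e1, e2, ← Real.exp_log hz, Real.rpow_def_of_pos hx, Real.rpow_def_of_pos hy, ← Real.exp_add]
    apply Real.exp_le_exp.2
    linarith only [h1]
  have hint1 : ∫ x : E n, ρ x = 1 := by
    have h2 : ∫⁻ x, ENNReal.ofReal (ρ x) = 1 := by
      have h3 : μ univ = 1 := measure_univ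
      rw [hμ, withDensity_apply _ MeasurableSet.univ, Measure.restrict_univ] at h3
      exact h3
    rw [integral_eq_lintegral_of_nonneg_ae (Eventually.of_forall h0) hm.aestronglyMeasurable, h2]
    simp
  have h1 : ∫ y, f y = 1 := by
    rw [← S5.integral_ofLp (n := n) f]
    exact hint1
  obtain ⟨M, a, hM, hG⟩ := hLC.good h1
  -- the polynomial
  set L : (Fin n → ℝ) →L[ℝ] E n := ((EuclideanSpace.equiv (Fin n) ℝ).symm : (Fin n → ℝ) →L[ℝ] E n) with hL
  have hLe : ∀ y, L y = WithLp.toLp 2 y := fun y => rfl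
  have hp : R304.PolyGrowth (fun y : Fin n → ℝ => (1 + ‖(WithLp.toLp 2 y : E n)‖) ^ d) := by
    refine ⟨?_, (1 + ‖L‖) ^ d, d, fun y => ?_⟩
    · have : Continuous fun y : Fin n → ℝ => (1 + ‖L y‖) ^ d := by fun_prop
      exact this.aestronglyMeasurable
    · change |(1 + ‖(WithLp.toLp 2 y : E n)‖) ^ d| ≤ (1 + ‖L‖) ^ d * (1 + ‖y‖) ^ d
      rw [← hLe, abs_of_nonneg (by positivity), ← mul_pow]
      refine pow_le_pow_left₀ (by positivity) ?_ d
      have h2 := L.le_opNorm y
      have h3 := norm_nonneg L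
      have h4 := norm_nonneg y
      nlinarith
  have hI := hG.int hp
  have hmp := EuclideanSpace.volume_preserving_symm_measurableEquiv_toLp (Fin n)
  have hI2 : Integrable (fun x : E n => (1 + ‖x‖) ^ d * ρ x) := by
    have := (hmp.integrable_comp_emb (MeasurableEquiv.measurableEmbedding _)).2 hI
    exact this
  rw [hμ, integrable_withDensity_iff hm.ennreal_ofReal (Eventually.of_forall fun x => ENNReal.ofReal_lt_top)]
  refine hI2.congr (Eventually.of_forall fun x => ?_)
  simp only [ENNReal.toReal_ofReal (h0 x)]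

theorem int_gauss_poly {a : ℝ} (ha : 0 < a) (d : ℕ) :
    Integrable (fun x : E n => (1 + ‖x‖) ^ d * Real.exp (-a * ‖x‖ ^ 2)) := by
  obtain ⟨D, hD, hd⟩ := growth_le_exp (a := a / 2) (by positivity) d
  refine ((integrable_gauss (n := n) (a := a / 2) (by positivity)).const_mul D).mono'
    (by
      have : Continuous fun x : E n => (1 + ‖x‖) ^ d * Real.exp (-a * ‖x‖ ^ 2) := by fun_prop
      exact this.aestronglyMeasurable) (Eventually.of_forall fun x => ?_)
  rw [norm_mul, Real.norm_of_nonneg (by positivity), Real.norm_of_nonneg (Real.exp_pos _).le]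
  calc (1 + ‖x‖) ^ d * Real.exp (-a * ‖x‖ ^ 2)
      ≤ (D * Real.exp (a / 2 * ‖x‖ ^ 2)) * Real.exp (-a * ‖x‖ ^ 2) := by
        gcongr
        exact hd _ (norm_nonneg x)
    _ = D * Real.exp (-(a / 2) * ‖x‖ ^ 2) := by
        rw [mul_assoc, ← Real.exp_add]
        congr 2
        ring

/-- the inner integral -/
noncomputable def W (p : E n → ℝ) (s m : ℝ) (x : E n) : ℝ :=
  ∫ z : E n, p (x + s • z) * Real.exp (-(m / 2) * ‖x + s • z‖ ^ 2) * Real.exp (-(1 / 2) * ‖z‖ ^ 2)

/-- Fubini and scaling -/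
theorem fub [IsFiniteMeasure μ] {p : E n → ℝ} (hp : Continuous p) {B : ℝ} {d : ℕ}
    (hB : ∀ x, |p x| ≤ B * (1 + ‖x‖) ^ d) {R s m : ℝ} (hR : μ (closedBall 0 R) ≠ 0)
    (hs : 0 < s) (hm : 0 < m) :
    ∫ y, p y * Real.exp (-PT μ R (s ^ 2) m y) = s ^ n * ∫ x in closedBall 0 R, W p s m x ∂μ := by
  have hs2 : 0 < s ^ 2 := by positivity
  have e1 : ∀ y, p y * Real.exp (-PT μ R (s ^ 2) m y) = ∫ x in closedBall 0 R,
      (p y * Real.exp (-(m / 2) * ‖y‖ ^ 2)) * Real.exp (-(1 / (2 * s ^ 2)) * ‖y - x‖ ^ 2) ∂μ := by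
    intro y
    rw [exp_neg_PT hR hs2, integral_const_mul]
    unfold HG
    ring
  rw [integral_congr_ae (Eventually.of_forall e1)]
  have hg : Integrable (fun y : E n => p y * Real.exp (-(m / 2) * ‖y‖ ^ 2)) := by
    refine ((int_gauss_poly (n := n) (a := m / 2) (by positivity) d).const_mul B).mono'
      (by
        have : Continuous fun y : E n => p y * Real.exp (-(m / 2) * ‖y‖ ^ 2) := by fun_prop
        exact this.aestronglyMeasurable) (Eventually.of_forall fun y => ?_)
    rw [norm_mul, Real.norm_of_nonneg (Real.exp_pos _).le, ← mul_assoc]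
    exact mul_le_mul_of_nonneg_right (hB y) (Real.exp_pos _).le
  have hF : Integrable (Function.uncurry fun (y x : E n) =>
      (p y * Real.exp (-(m / 2) * ‖y‖ ^ 2)) * Real.exp (-(1 / (2 * s ^ 2)) * ‖y - x‖ ^ 2))
      ((volume : Measure (E n)).prod (μ.restrict (closedBall 0 R))) := by
    refine (hg.norm.comp_fst (μ.restrict (closedBall 0 R))).mono' ?_ (Eventually.of_forall fun z => ?_)
    · have : Continuous (Function.uncurry fun (y x : E n) =>
        (p y * Real.exp (-(m / 2) * ‖y‖ ^ 2)) * Real.exp (-(1 / (2 * s ^ 2)) * ‖y - x‖ ^ 2)) := by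
        unfold Function.uncurry
        fun_prop
      exact this.aestronglyMeasurable
    · simp only [Function.uncurry]
      rw [norm_mul, Real.norm_of_nonneg (Real.exp_pos _).le]
      refine mul_le_of_le_one_right (norm_nonneg _) ?_
      apply Real.exp_le_one_iff.2
      have : 0 ≤ 1 / (2 * s ^ 2) * ‖z.1 - z.2‖ ^ 2 := by positivity
      linarith
  rw [integral_integral_swap hF, ← integral_const_mul]
  refine integral_congr_ae (Eventually.of_forall fun x => ?_)
  simp only []
  have e2 := integral_add_left_eq_self (μ := (volume : Measure (E n)))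
    (fun y => (p y * Real.exp (-(m / 2) * ‖y‖ ^ 2)) * Real.exp (-(1 / (2 * s ^ 2)) * ‖y - x‖ ^ 2)) x
  rw [← e2]
  have e3 := Measure.integral_comp_smul (volume : Measure (E n))
    (fun w => (p (x + w) * Real.exp (-(m / 2) * ‖x + w‖ ^ 2)) *
      Real.exp (-(1 / (2 * s ^ 2)) * ‖x + w - x‖ ^ 2)) s
  rw [finrank_euclideanSpace, Fintype.card_fin, abs_of_pos (by positivity), smul_eq_mul] at e3
  have e4 : W p s m x = (s ^ n)⁻¹ * ∫ w, (p (x + w) * Real.exp (-(m / 2) * ‖x + w‖ ^ 2)) *
      Real.exp (-(1 / (2 * s ^ 2)) * ‖x + w - x‖ ^ 2) := by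
    rw [← e3]
    unfold W
    refine integral_congr_ae (Eventually.of_forall fun z => ?_)
    simp only [add_sub_cancel_left]
    congr 2
    rw [norm_smul, Real.norm_of_nonneg hs.le, mul_pow]
    field_simp
  rw [e4, ← mul_assoc, mul_inv_cancel₀ (by positivity), one_mul]

theorem growth_add {n : ℕ} {x z : E n} {s B : ℝ} (hs0 : 0 ≤ s) (hs1 : s ≤ 1) (hB : 0 ≤ B) (d : ℕ) :
    B * (1 + ‖x + s • z‖) ^ d ≤ B * (1 + ‖x‖) ^ d * (1 + ‖z‖) ^ d := by
  rw [mul_assoc, ← mul_pow]
  refine mul_le_mul_of_nonneg_left (pow_le_pow_left₀ (by positivity) ?_ d) hB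
  have h1 := norm_add_le x (s • z)
  have h1' : ‖s • z‖ = s * ‖z‖ := by rw [norm_smul, Real.norm_of_nonneg hs0]
  rw [h1'] at h1
  have h2 : s * ‖z‖ ≤ ‖z‖ := mul_le_of_le_one_left (norm_nonneg z) hs1
  have h3 := norm_nonneg x
  have h4 := norm_nonneg z
  nlinarith [mul_nonneg h3 h4]

theorem W_bound {p : E n → ℝ} {B : ℝ} (hB0 : 0 ≤ B) {d : ℕ}
    (hB : ∀ x, |p x| ≤ B * (1 + ‖x‖) ^ d) {s m : ℝ} (hs0 : 0 ≤ s) (hs1 : s ≤ 1) (hm : 0 ≤ m) (x : E n) :
    |W p s m x| ≤ B * (1 + ‖x‖) ^ d * ∫ z : E n, (1 + ‖z‖) ^ d * Real.exp (-(1 / 2) * ‖z‖ ^ 2) := by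
  unfold W
  rw [← integral_const_mul, ← Real.norm_eq_abs]
  refine norm_integral_le_of_norm_le
    ((int_gauss_poly (n := n) (a := 1 / 2) (by positivity) d).const_mul _) (Eventually.of_forall fun z => ?_)
  rw [norm_mul, norm_mul, Real.norm_of_nonneg (Real.exp_pos _).le, Real.norm_of_nonneg (Real.exp_pos _).le,
    ← mul_assoc]
  refine mul_le_mul_of_nonneg_right ?_ (Real.exp_pos _).le
  refine (mul_le_of_le_one_right (norm_nonneg _) ?_).trans ((hB _).trans (growth_add hs0 hs1 hB0 d))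
  apply Real.exp_le_one_iff.2
  have : 0 ≤ m / 2 * ‖x + s • z‖ ^ 2 := by positivity
  linarith

/-- the limit of the expectations -/
theorem lim_main [IsProbabilityMeasure μ] (hlc : HasLogConcaveDensity μ) :
    ∃ V : ℕ → E n → ℝ, (∀ k, ∃ c C, Reg (V k) c C) ∧
      ∀ (p : ℕ → E n → ℝ) (q : E n → ℝ) (B : ℝ) (d : ℕ), (∀ k, Continuous (p k)) →
        (∀ k x, |p k x| ≤ B * (1 + ‖x‖) ^ d) →
        (∀ (x : E n) (u : ℕ → E n), Tendsto u atTop (𝓝 x) →
          Tendsto (fun k => p k (u k)) atTop (𝓝 (q x))) →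
        Tendsto (fun k => Ex (V k) (p k)) atTop (𝓝 (∫ x, q x ∂μ)) := by
  -- a ball of positive measure
  obtain ⟨R0, hR0⟩ : ∃ R0 : ℕ, μ (closedBall 0 (R0 : ℝ)) ≠ 0 := by
    by_contra hno
    push Not at hno
    have h1 : μ (⋃ k : ℕ, closedBall (0 : E n) (k : ℝ)) = 0 := measure_iUnion_null hno
    rw [iUnion_closedBall_nat, measure_univ] at h1
    exact one_ne_zero h1
  have hRk : ∀ k : ℕ, μ (closedBall 0 ((R0 : ℝ) + k)) ≠ 0 := by
    intro k h
    refine hR0 (measure_mono_null (closedBall_subset_closedBall ?_) h)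
    have : (0 : ℝ) ≤ k := Nat.cast_nonneg k
    linarith
  set s : ℕ → ℝ := fun k => 1 / ((k : ℝ) + 1) with hs
  have hs0 : ∀ k, 0 < s k := fun k => by simp only [hs]; positivity
  have hs1 : ∀ k, s k ≤ 1 := fun k => by
    simp only [hs]
    rw [div_le_one (by positivity)]
    have : (0 : ℝ) ≤ k := Nat.cast_nonneg k
    linarith
  have hslim : Tendsto s atTop (𝓝 0) := tendsto_one_div_add_atTop_nhds_zero_nat
  refine ⟨fun k => PT μ ((R0 : ℝ) + k) (s k ^ 2) (s k), fun k => ?_, ?_⟩
  · obtain ⟨C, hC⟩ := reg_PT hlc (hRk k) (ε := s k ^ 2) (by have := hs0 k; positivity) (hs0 k)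
    exact ⟨_, C, hC⟩
  intro p q B d hpc hpb hpl
  obtain ⟨c, hc⟩ : ∃ c : ℝ, c = ∫ z : E n, Real.exp (-(1 / 2) * ‖z‖ ^ 2) := ⟨_, rfl⟩
  have hci : Integrable (fun z : E n => Real.exp (-(1 / 2) * ‖z‖ ^ 2)) := by
    have := int_gauss_poly (n := n) (a := 1 / 2) (by positivity) 0
    simpa using this
  have hcpos : 0 < c := by
    rw [hc]
    exact integral_exp_pos hci
  -- the key limit, for arbitrary sequences
  have key : ∀ (p : ℕ → E n → ℝ) (q : E n → ℝ) (B : ℝ) (d : ℕ), (∀ k, Continuous (p k)) →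
        (∀ k x, |p k x| ≤ B * (1 + ‖x‖) ^ d) →
        (∀ (x : E n) (u : ℕ → E n), Tendsto u atTop (𝓝 x) →
          Tendsto (fun k => p k (u k)) atTop (𝓝 (q x))) →
      Tendsto (fun k : ℕ => ∫ x in closedBall 0 ((R0 : ℝ) + (k : ℝ)), W (p k) (s k) (s k) x ∂μ) atTop
        (𝓝 (c * ∫ x, q x ∂μ)) := by
    intro p q B d hpc hpb hpl
    have hB0 : 0 ≤ B := by
      have := (abs_nonneg _).trans (hpb 0 0)
      simpa using this
    have hWm : ∀ k, StronglyMeasurable (W (p k) (s k) (s k)) := by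
      intro k
      have h1 : Continuous (Function.uncurry fun (x z : E n) => p k (x + s k • z) *
        Real.exp (-(s k / 2) * ‖x + s k • z‖ ^ 2) * Real.exp (-(1 / 2) * ‖z‖ ^ 2)) := by
        have := hpc k
        unfold Function.uncurry
        fun_prop
      exact h1.stronglyMeasurable.integral_prod_right
    have hWl : ∀ x, Tendsto (fun k => W (p k) (s k) (s k) x) atTop (𝓝 (q x * c)) := by
      intro x
      have e : q x * c = ∫ z : E n, q x * 1 * Real.exp (-(1 / 2) * ‖z‖ ^ 2) := by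
        rw [mul_one, integral_const_mul, hc]
      rw [e]
      unfold W
      refine tendsto_integral_of_dominated_convergence
        (fun z => B * (1 + ‖x‖) ^ d * ((1 + ‖z‖) ^ d * Real.exp (-(1 / 2) * ‖z‖ ^ 2)))
        (fun k => ?_) ((int_gauss_poly (n := n) (a := 1 / 2) (by positivity) d).const_mul _)
        (fun k => Eventually.of_forall fun z => ?_) (Eventually.of_forall fun z => ?_)
      · have := hpc k
        have : Continuous fun z : E n => p k (x + s k • z) *
          Real.exp (-(s k / 2) * ‖x + s k • z‖ ^ 2) * Real.exp (-(1 / 2) * ‖z‖ ^ 2) := by fun_prop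
        exact this.aestronglyMeasurable
      · rw [norm_mul, norm_mul, Real.norm_of_nonneg (Real.exp_pos _).le,
          Real.norm_of_nonneg (Real.exp_pos _).le, ← mul_assoc]
        refine mul_le_mul_of_nonneg_right ?_ (Real.exp_pos _).le
        refine (mul_le_of_le_one_right (norm_nonneg _) ?_).trans
          ((hpb k _).trans (growth_add (hs0 k).le (hs1 k) hB0 d))
        apply Real.exp_le_one_iff.2
        have := (hs0 k).le
        have : 0 ≤ s k / 2 * ‖x + s k • z‖ ^ 2 := by positivity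
        linarith
      · have hu : Tendsto (fun k => x + s k • z) atTop (𝓝 x) := by
          have := (hslim.smul_const z).const_add x
          simpa using this
        have h1 := hpl x _ hu
        have h2 : Tendsto (fun k => Real.exp (-(s k / 2) * ‖x + s k • z‖ ^ 2)) atTop (𝓝 1) := by
          have h3 : Tendsto (fun k => -(s k / 2) * ‖x + s k • z‖ ^ 2) atTop
              (𝓝 (-(0 / 2) * ‖x‖ ^ 2)) :=
            ((hslim.div_const 2).neg).mul (hu.norm.pow 2)
          have h4 := (Real.continuous_exp.tendsto _).comp h3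
          have h5 : Real.exp (-(0 / 2) * ‖x‖ ^ 2) = 1 := by simp
          rw [h5] at h4
          exact h4
        exact (h1.mul h2).mul_const _
    have e1 : ∀ k : ℕ, ∫ x in closedBall 0 ((R0 : ℝ) + k), W (p k) (s k) (s k) x ∂μ =
        ∫ x, (closedBall 0 ((R0 : ℝ) + k)).indicator (W (p k) (s k) (s k)) x ∂μ := fun k =>
      (integral_indicator measurableSet_closedBall).symm
    have e2 : c * ∫ x, q x ∂μ = ∫ x, q x * c ∂μ := by
      rw [integral_mul_const, mul_comm]
    simp only [e1]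
    rw [e2]
    refine tendsto_integral_of_dominated_convergence
      (fun x => (B * ∫ z : E n, (1 + ‖z‖) ^ d * Real.exp (-(1 / 2) * ‖z‖ ^ 2)) * (1 + ‖x‖) ^ d)
      (fun k => ((hWm k).indicator measurableSet_closedBall).aestronglyMeasurable)
      ((mom hlc d).const_mul _) (fun k => Eventually.of_forall fun x => ?_)
      (Eventually.of_forall fun x => ?_)
    · have hD : 0 ≤ ∫ z : E n, (1 + ‖z‖) ^ d * Real.exp (-(1 / 2) * ‖z‖ ^ 2) :=
        integral_nonneg fun z => by positivity
      by_cases hx : x ∈ closedBall (0 : E n) ((R0 : ℝ) + k)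
      · rw [indicator_of_mem hx]
        have := W_bound hB0 (hpb k) (hs0 k).le (hs1 k) (hs0 k).le x
        rw [Real.norm_eq_abs]
        refine this.trans (le_of_eq (by ring))
      · rw [indicator_of_notMem hx, norm_zero]
        positivity
    · refine (hWl x).congr' ?_
      obtain ⟨N, hN⟩ := exists_nat_ge ‖x‖
      filter_upwards [eventually_ge_atTop N] with k hk
      rw [indicator_of_mem]
      rw [mem_closedBall, dist_zero_right]
      have h1 : (N : ℝ) ≤ k := by exact_mod_cast hk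
      have h2 : (0 : ℝ) ≤ R0 := Nat.cast_nonneg R0
      linarith
  have k1 := key p q B d hpc hpb hpl
  have k2 := key (fun _ _ => 1) (fun _ => 1) 1 0 (fun _ => continuous_const)
    (fun _ _ => by simp) (fun _ _ _ => tendsto_const_nhds)
  have h3 : c * ∫ x : E n, (1 : ℝ) ∂μ = c := by simp
  rw [h3] at k2
  have k3 := k1.div k2 hcpos.ne'
  rw [mul_div_cancel_left₀ _ hcpos.ne'] at k3
  refine k3.congr fun k => ?_
  have f1 := fub (μ := μ) (hpc k) (hpb k) (hRk k) (hs0 k) (hs0 k)
  have f2 := fub (μ := μ) (p := fun _ => (1 : ℝ)) continuous_const (B := 1) (d := 0)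
    (fun _ => by simp) (hRk k) (hs0 k) (hs0 k)
  simp only [one_mul] at f2
  unfold Ex
  rw [f1, f2, mul_div_mul_left _ _ (pow_ne_zero _ (hs0 k).ne')]
  rfl

end Vale.Agent.P245.Q895
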