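import Vale.Agent.P245.H895.QuadF

/-!
P245, quadratic functionals of log-concave measures (helper895), part G: the variance bound
`Var ⟨T(x-b), x-b⟩ ≤ 16 tr (TKTK)` for every log-concave probability measure.
-/

set_option linter.all false

open MeasureTheory Filter Topology Set Metric Matrix
open scoped NNReal ENNReal ContDiff
open Vale.Agent.P227.M Vale.Agent.P254

namespace Vale.Agent.P245.Q895

variable {n : ℕ} {μ : Measure (E n)}

theorem tendsto_coord {u : ℕ → E n} {x : E n} (h : Tendsto u atTop (𝓝 x)) (i : Fin n) :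
    Tendsto (fun k => u k i) atTop (𝓝 (x i)) :=
  ((EuclideanSpace.proj i : E n →L[ℝ] ℝ).continuous.tendsto x).comp h

theorem centre_bound {b B : ℝ} (hb : |b| ≤ B) (x : E n) (i : Fin n) :
    |x i - b| ≤ (1 + B) * (1 + ‖x‖) := by
  have h1 : |x i - b| ≤ |x i| + |b| := abs_sub _ _
  have h2 := abs_coord_le x i
  have h3 := norm_nonneg x
  have h4 : 0 ≤ B := (abs_nonneg b).trans hb
  nlinarith [mul_nonneg h4 h3]

/-- **(S1)** `Var ⟨T(X-b), X-b⟩ ≤ 16 tr (TKTK)` for every log-concave probability measure with density,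
barycentre `b` and covariance matrix `K` -/
theorem quad_lc [IsProbabilityMeasure μ] (hlc : HasLogConcaveDensity μ)
    {T : Matrix (Fin n) (Fin n) ℝ} (hT : Tᵀ = T)
    {b : Fin n → ℝ} (hb : ∀ i, ∫ x, x i ∂μ = b i)
    {K : Matrix (Fin n) (Fin n) ℝ} (hK : ∀ i j, ∫ x, (x i - b i) * (x j - b j) ∂μ = K i j) :
    (∫ x, (∑ i, ∑ j, T i j * ((x i - b i) * (x j - b j))) ^ 2 ∂μ)
      - (∫ x, ∑ i, ∑ j, T i j * ((x i - b i) * (x j - b j)) ∂μ) ^ 2 ≤
      16 * (T * K * T * K).trace := by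
  obtain ⟨V, hV, hlim⟩ := lim_main hlc
  set bk : ℕ → Fin n → ℝ := fun k i => Ex (V k) (fun x => x i) with hbk
  have hbl : ∀ i, Tendsto (fun k => bk k i) atTop (𝓝 (b i)) := by
    intro i
    have := hlim (fun _ x => x i) (fun x => x i) 1 1 (fun _ => by fun_prop) (fun k x => by
      have h1 := abs_coord_le x i
      rw [one_mul, pow_one]
      linarith) (fun x u hu => tendsto_coord hu i)
    rwa [hb i] at this
  obtain ⟨B, hB⟩ : ∃ B : ℝ, ∀ k i, |bk k i| ≤ B := by
    have h1 : ∀ i, ∃ B : ℝ, ∀ k, |bk k i| ≤ B := fun i => by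
      obtain ⟨B, hB⟩ := (hbl i).abs.bddAbove_range
      exact ⟨B, fun k => hB ⟨k, rfl⟩⟩
    choose Bi hBi using h1
    refine ⟨∑ i, |Bi i|, fun k i => (hBi i k).trans ((le_abs_self _).trans ?_)⟩
    exact Finset.single_le_sum (f := fun i => |Bi i|) (fun j _ => abs_nonneg _) (Finset.mem_univ i)
  have hB0 : ∀ (x : E n) k (i : Fin n), |x i - bk k i| ≤ (1 + B) * (1 + ‖x‖) := fun x k i =>
    centre_bound (hB k i) x i
  have hpr : ∀ (x : E n) k (i j : Fin n), |(x i - bk k i) * (x j - bk k j)| ≤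
      (1 + B) ^ 2 * (1 + ‖x‖) ^ 2 := by
    intro x k i j
    rw [abs_mul]
    have h1 := mul_le_mul (hB0 x k i) (hB0 x k j) (abs_nonneg _)
      ((abs_nonneg _).trans (hB0 x k i))
    refine h1.trans (le_of_eq (by ring))
  set Kk : ℕ → Matrix (Fin n) (Fin n) ℝ := fun k => Matrix.of fun i j =>
    Ex (V k) (fun x => (x i - bk k i) * (x j - bk k j)) with hKk
  have hprl : ∀ (x : E n) (u : ℕ → E n), Tendsto u atTop (𝓝 x) → ∀ i j : Fin n,
      Tendsto (fun k => (u k i - bk k i) * (u k j - bk k j)) atTop (𝓝 ((x i - b i) * (x j - b j))) :=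
    fun x u hu i j => ((tendsto_coord hu i).sub (hbl i)).mul ((tendsto_coord hu j).sub (hbl j))
  have hKl : ∀ i j, Tendsto (fun k => Kk k i j) atTop (𝓝 (K i j)) := by
    intro i j
    have := hlim (fun k x => (x i - bk k i) * (x j - bk k j)) (fun x => (x i - b i) * (x j - b j))
      ((1 + B) ^ 2) 2 (fun _ => by fun_prop) (fun k x => hpr x k i j) (fun x u hu => hprl x u hu i j)
    rwa [hK i j] at this
  set A : ℝ := ∑ i, ∑ j, |T i j| with hA
  have hFb : ∀ k (x : E n), |∑ i, ∑ j, T i j * ((x i - bk k i) * (x j - bk k j))| ≤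
      (A * (1 + B) ^ 2) * (1 + ‖x‖) ^ 2 := by
    intro k x
    refine (Finset.abs_sum_le_sum_abs _ _).trans ?_
    rw [hA, Finset.sum_mul, Finset.sum_mul]
    refine Finset.sum_le_sum fun i _ => ?_
    refine (Finset.abs_sum_le_sum_abs _ _).trans ?_
    rw [Finset.sum_mul, Finset.sum_mul]
    refine Finset.sum_le_sum fun j _ => ?_
    rw [abs_mul, mul_assoc]
    exact mul_le_mul_of_nonneg_left (hpr x k i j) (abs_nonneg _)
  have hFl : ∀ (x : E n) (u : ℕ → E n), Tendsto u atTop (𝓝 x) →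
      Tendsto (fun k => ∑ i, ∑ j, T i j * ((u k i - bk k i) * (u k j - bk k j))) atTop
        (𝓝 (∑ i, ∑ j, T i j * ((x i - b i) * (x j - b j)))) := fun x u hu =>
    tendsto_finsetSum _ fun i _ => tendsto_finsetSum _ fun j _ => (hprl x u hu i j).const_mul _
  have l1 := hlim (fun k x => ∑ i, ∑ j, T i j * ((x i - bk k i) * (x j - bk k j)))
    (fun x => ∑ i, ∑ j, T i j * ((x i - b i) * (x j - b j))) (A * (1 + B) ^ 2) 2
    (fun _ => by fun_prop) hFb hFl
  have l2 := hlim (fun k x => (∑ i, ∑ j, T i j * ((x i - bk k i) * (x j - bk k j))) ^ 2)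
    (fun x => (∑ i, ∑ j, T i j * ((x i - b i) * (x j - b j))) ^ 2) ((A * (1 + B) ^ 2) ^ 2) 4
    (fun _ => by fun_prop) (fun k x => by
      rw [abs_pow]
      refine (pow_le_pow_left₀ (abs_nonneg _) (hFb k x) 2).trans (le_of_eq (by ring)))
    (fun x u hu => (hFl x u hu).pow 2)
  have l3 : Tendsto (fun k => 16 * (T * Kk k * T * Kk k).trace) atTop
      (𝓝 (16 * (T * K * T * K).trace)) := by
    have hKt : Tendsto Kk atTop (𝓝 K) :=
      tendsto_pi_nhds.2 fun i => tendsto_pi_nhds.2 fun j => hKl i j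
    have hc : Continuous fun K : Matrix (Fin n) (Fin n) ℝ => 16 * (T * K * T * K).trace := by
      fun_prop
    exact (hc.tendsto K).comp hKt
  refine le_of_tendsto_of_tendsto' (l2.sub (l1.pow 2)) l3 fun k => ?_
  obtain ⟨c, C, hR⟩ := hV k
  exact quad_reg_gen hR hT (b := bk k) (fun i => rfl) (K := Kk k) (fun i j => rfl)

end Vale.Agent.P245.Q895
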