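import Vale.Agent.P245.H895.QuadG

/-!
P245, quadratic functionals of log-concave measures (helper895), part H: consequences of the variance bound:
third moments, the Poincaré inequality for all polynomials of degree at most two.
-/

set_option linter.all false

open MeasureTheory Filter Topology Set Metric Matrix
open scoped NNReal ENNReal ContDiff
open Vale.Agent.P227.M Vale.Agent.P254

namespace Vale.Agent.P245.Q895

variable {n : ℕ} {μ : Measure (E n)}

/-- continuous functions of polynomial growth are integrable -/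
theorem int_gr [IsProbabilityMeasure μ] (hlc : HasLogConcaveDensity μ) {f : E n → ℝ} (hf : Gr f) :
    Integrable f μ := by
  obtain ⟨hc, B, k, hB, hb⟩ := hf
  exact ((mom hlc k).const_mul B).mono' hc.aestronglyMeasurable (Eventually.of_forall fun x => hb x)

/-- Cauchy-Schwarz -/
theorem cs_int {f g : E n → ℝ} (hf : Integrable (fun x => f x ^ 2) μ)
    (hg : Integrable (fun x => g x ^ 2) μ) (hfg : Integrable (fun x => f x * g x) μ) :
    (∫ x, f x * g x ∂μ) ^ 2 ≤ (∫ x, f x ^ 2 ∂μ) * ∫ x, g x ^ 2 ∂μ := by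
  have h : ∀ s : ℝ, 0 ≤ (∫ x, g x ^ 2 ∂μ) * (s * s) + (2 * ∫ x, f x * g x ∂μ) * s + ∫ x, f x ^ 2 ∂μ := by
    intro s
    have h1 : 0 ≤ ∫ x, (f x + s * g x) ^ 2 ∂μ := integral_nonneg fun x => sq_nonneg _
    have h2 : ∫ x, (f x + s * g x) ^ 2 ∂μ =
        (∫ x, g x ^ 2 ∂μ) * (s * s) + (2 * ∫ x, f x * g x ∂μ) * s + ∫ x, f x ^ 2 ∂μ := by
      have e : ∀ x, (f x + s * g x) ^ 2 = (s * s) * g x ^ 2 + (2 * s) * (f x * g x) + f x ^ 2 := fun x => by ring
      have i1 : Integrable (fun x => (s * s) * g x ^ 2) μ := hg.const_mul _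
      have i2 : Integrable (fun x => (2 * s) * (f x * g x)) μ := hfg.const_mul _
      have i3 : Integrable (fun x => (s * s) * g x ^ 2 + (2 * s) * (f x * g x)) μ := i1.add i2
      rw [integral_congr_ae (Eventually.of_forall e), integral_add i3 hf,
        integral_add i1 i2, integral_const_mul, integral_const_mul]
      ring
    rw [← h2]
    exact h1
  have h3 := discrim_le_zero h
  unfold discrim at h3
  nlinarith

section
variable [IsProbabilityMeasure μ] (hlc : HasLogConcaveDensity μ)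
  {b : Fin n → ℝ} (hb : ∀ i, ∫ x, x i ∂μ = b i)
  {K : Matrix (Fin n) (Fin n) ℝ} (hK : ∀ i j, ∫ x, (x i - b i) * (x j - b j) ∂μ = K i j)

theorem gr_c (b : Fin n → ℝ) (i : Fin n) : Gr (fun x : E n => x i - b i) :=
  (Gr.coord i).sub (Gr.const _)

theorem gr_lin (b v : Fin n → ℝ) : Gr (fun x : E n => ∑ i, v i * (x i - b i)) :=
  Gr.sum _ fun i _ => (gr_c b i).const_mul _

theorem gr_q (b : Fin n → ℝ) (T : Matrix (Fin n) (Fin n) ℝ) :
    Gr (fun x : E n => ∑ i, ∑ j, T i j * ((x i - b i) * (x j - b j))) :=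
  Gr.sum _ fun i _ => Gr.sum _ fun j _ => ((gr_c b i).mul (gr_c b j)).const_mul _

include hlc

omit [IsProbabilityMeasure μ] hlc in
theorem int_dbl_aux {c : Fin n → Fin n → ℝ} {G : Fin n → Fin n → E n → ℝ}
    (hG : ∀ i j, Integrable (G i j) μ) :
    ∫ x, ∑ i, ∑ j, c i j * G i j x ∂μ = ∑ i, ∑ j, c i j * ∫ x, G i j x ∂μ := by
  rw [integral_finsetSum _ fun i _ => integrable_finsetSum _ fun j _ => (hG i j).const_mul _]
  refine Finset.sum_congr rfl fun i _ => ?_
  rw [integral_finsetSum _ fun j _ => (hG i j).const_mul _]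
  exact Finset.sum_congr rfl fun j _ => integral_const_mul _ _

include hb in
theorem int_lin (v : Fin n → ℝ) : ∫ x, ∑ i, v i * (x i - b i) ∂μ = 0 := by
  rw [integral_finsetSum _ fun i _ => (int_gr hlc (gr_c b i)).const_mul _]
  refine Finset.sum_eq_zero fun i _ => ?_
  rw [integral_const_mul, integral_sub (int_gr hlc (Gr.coord i)) (integrable_const _), hb]
  simp

include hK in
theorem int_lin_mul (v w : Fin n → ℝ) :
    ∫ x, (∑ i, v i * (x i - b i)) * (∑ j, w j * (x j - b j)) ∂μ = v ⬝ᵥ (K *ᵥ w) := by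
  have e : ∀ x : E n, (∑ i, v i * (x i - b i)) * (∑ j, w j * (x j - b j)) =
      ∑ i, ∑ j, v i * w j * ((x i - b i) * (x j - b j)) := by
    intro x
    rw [Finset.sum_mul_sum]
    exact Finset.sum_congr rfl fun i _ => Finset.sum_congr rfl fun j _ => by ring
  rw [integral_congr_ae (Eventually.of_forall e)]
  rw [integral_finsetSum _ fun i _ => integrable_finsetSum _ fun j _ =>
    (int_gr hlc ((gr_c b i).mul (gr_c b j))).const_mul _]
  unfold dotProduct Matrix.mulVec dotProduct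
  refine Finset.sum_congr rfl fun i _ => ?_
  rw [integral_finsetSum _ fun j _ => (int_gr hlc ((gr_c b i).mul (gr_c b j))).const_mul _,
    Finset.mul_sum]
  refine Finset.sum_congr rfl fun j _ => ?_
  rw [integral_const_mul, hK]
  ring

theorem var_eq {f : E n → ℝ} (hf : Gr f) :
    ∫ x, (f x - ∫ y, f y ∂μ) ^ 2 ∂μ = (∫ x, f x ^ 2 ∂μ) - (∫ x, f x ∂μ) ^ 2 := by
  obtain ⟨m, hm⟩ : ∃ m, m = ∫ y, f y ∂μ := ⟨_, rfl⟩
  rw [← hm]
  have e : ∀ x, (f x - m) ^ 2 = (f x ^ 2 + (-(2 * m)) * f x) + m ^ 2 := fun x => by ring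
  have i1 : Integrable (fun x => f x ^ 2) μ := int_gr hlc (hf.pow 2)
  have i2 : Integrable (fun x => (-(2 * m)) * f x) μ := (int_gr hlc hf).const_mul _
  have i3 : Integrable (fun x => f x ^ 2 + (-(2 * m)) * f x) μ := i1.add i2
  rw [integral_congr_ae (Eventually.of_forall e), integral_add i3 (integrable_const _),
    integral_add i1 i2, integral_const_mul, ← hm, integral_const]
  simp
  ring

include hb hK in
/-- **(S2)**, affine invariant dual form -/
theorem third_lc {T : Matrix (Fin n) (Fin n) ℝ} (hT : Tᵀ = T) (θ : Fin n → ℝ) :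
    (∫ x, (∑ i, θ i * (x i - b i)) * (∑ i, ∑ j, T i j * ((x i - b i) * (x j - b j))) ∂μ) ^ 2 ≤
      16 * (θ ⬝ᵥ (K *ᵥ θ)) * (T * K * T * K).trace := by
  set l : E n → ℝ := fun x => ∑ i, θ i * (x i - b i) with hl
  set F : E n → ℝ := fun x => ∑ i, ∑ j, T i j * ((x i - b i) * (x j - b j)) with hF
  have hlG : Gr l := gr_lin b θ
  have hFG : Gr F := gr_q b T
  obtain ⟨m, hm⟩ : ∃ m, m = ∫ y, F y ∂μ := ⟨_, rfl⟩
  have hFm : Gr (fun x => F x - m) := hFG.sub (Gr.const _)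
  have e1 : ∫ x, l x * F x ∂μ = ∫ x, l x * (F x - m) ∂μ := by
    have e : ∀ x, l x * (F x - m) = l x * F x + (-m) * l x := fun x => by ring
    rw [integral_congr_ae (Eventually.of_forall e),
      integral_add (int_gr hlc (hlG.mul hFG)) ((int_gr hlc hlG).const_mul _), integral_const_mul]
    have : ∫ x, l x ∂μ = 0 := int_lin hlc hb θ
    rw [this]
    ring
  have e2 := cs_int (int_gr hlc (hlG.pow 2)) (int_gr hlc (hFm.pow 2)) (int_gr hlc (hlG.mul hFm))
  have e3 : ∫ x, (F x - m) ^ 2 ∂μ ≤ 16 * (T * K * T * K).trace := by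
    rw [hm, var_eq hlc hFG]
    exact quad_lc hlc hT hb hK
  have e4 : ∫ x, l x ^ 2 ∂μ = θ ⬝ᵥ (K *ᵥ θ) := by
    rw [← int_lin_mul hlc hK θ θ]
    exact integral_congr_ae (Eventually.of_forall fun x => by simp only [hl]; ring)
  have e5 : 0 ≤ ∫ x, l x ^ 2 ∂μ := integral_nonneg fun x => sq_nonneg _
  show (∫ x, l x * F x ∂μ) ^ 2 ≤ _
  rw [e1]
  calc (∫ x, l x * (F x - m) ∂μ) ^ 2 ≤ (∫ x, l x ^ 2 ∂μ) * ∫ x, (F x - m) ^ 2 ∂μ := e2
    _ ≤ (∫ x, l x ^ 2 ∂μ) * (16 * (T * K * T * K).trace) := mul_le_mul_of_nonneg_left e3 e5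
    _ = _ := by rw [e4]; ring

include hb in
/-- **(S2)**, isotropic form: `‖E ⟨X-b, θ⟩ (X-b) ⊗ (X-b)‖_HS ≤ 4 |θ|` -/
theorem third_iso (hK : ∀ i j, ∫ x, (x i - b i) * (x j - b j) ∂μ = (1 : Matrix (Fin n) (Fin n) ℝ) i j)
    (θ : Fin n → ℝ) :
    ∑ i, ∑ j, (∫ x, (∑ k, θ k * (x k - b k)) * ((x i - b i) * (x j - b j)) ∂μ) ^ 2 ≤
      16 * ∑ i, θ i ^ 2 := by
  obtain ⟨T, hT⟩ : ∃ T : Matrix (Fin n) (Fin n) ℝ, ∀ i j, T i j =
    ∫ x, (∑ k, θ k * (x k - b k)) * ((x i - b i) * (x j - b j)) ∂μ := ⟨Matrix.of fun i j =>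
    ∫ x, (∑ k, θ k * (x k - b k)) * ((x i - b i) * (x j - b j)) ∂μ, fun i j => rfl⟩
  have hTs : Tᵀ = T := by
    ext i j
    rw [Matrix.transpose_apply, hT, hT]
    exact integral_congr_ae (Eventually.of_forall fun x => by ring)
  have h1 := third_lc hlc hb hK hTs θ
  have hlG : Gr (fun x : E n => ∑ i, θ i * (x i - b i)) := gr_lin b θ
  have e1 : ∫ x, (∑ i, θ i * (x i - b i)) * (∑ i, ∑ j, T i j * ((x i - b i) * (x j - b j))) ∂μ =
      ∑ i, ∑ j, T i j ^ 2 := by
    have e : ∀ x : E n, (∑ i, θ i * (x i - b i)) * (∑ i, ∑ j, T i j * ((x i - b i) * (x j - b j))) =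
        ∑ i, ∑ j, T i j * ((∑ k, θ k * (x k - b k)) * ((x i - b i) * (x j - b j))) := by
      intro x
      rw [Finset.mul_sum]
      refine Finset.sum_congr rfl fun i _ => ?_
      rw [Finset.mul_sum]
      exact Finset.sum_congr rfl fun j _ => by ring
    rw [integral_congr_ae (Eventually.of_forall e)]
    refine (int_dbl_aux (c := fun i j => T i j)
      (G := fun i j x => (∑ k, θ k * (x k - b k)) * ((x i - b i) * (x j - b j)))
      fun i j => int_gr hlc (hlG.mul ((gr_c b i).mul (gr_c b j)))).trans ?_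
    refine Finset.sum_congr rfl fun i _ => Finset.sum_congr rfl fun j _ => ?_
    rw [sq, ← hT]
  have e2 : (T * 1 * T * 1).trace = ∑ i, ∑ j, T i j ^ 2 := by
    rw [Matrix.mul_one, Matrix.mul_one]
    have : T * T = T * Tᵀ := by rw [hTs]
    rw [this]
    show ∑ i, ∑ j, T i j * T i j = _
    exact Finset.sum_congr rfl fun i _ => Finset.sum_congr rfl fun j _ => by ring
  have e3 : θ ⬝ᵥ ((1 : Matrix (Fin n) (Fin n) ℝ) *ᵥ θ) = ∑ i, θ i ^ 2 := by
    rw [Matrix.one_mulVec]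
    exact Finset.sum_congr rfl fun i _ => by ring
  rw [e1, e2, e3] at h1
  have e4 : ∑ i, ∑ j, (∫ x, (∑ k, θ k * (x k - b k)) * ((x i - b i) * (x j - b j)) ∂μ) ^ 2 =
      ∑ i, ∑ j, T i j ^ 2 :=
    Finset.sum_congr rfl fun i _ => Finset.sum_congr rfl fun j _ => by rw [hT]
  rw [e4]
  have h5 : 0 ≤ ∑ i, ∑ j, T i j ^ 2 := Finset.sum_nonneg fun i _ => Finset.sum_nonneg fun j _ => sq_nonneg _
  rcases h5.eq_or_lt with h6 | h6
  · rw [← h6]
    have : 0 ≤ ∑ i, θ i ^ 2 := Finset.sum_nonneg fun i _ => sq_nonneg _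
    positivity
  · nlinarith

end

end Vale.Agent.P245.Q895
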