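import Vale.Agent.P245.H895.QuadH

/-!
P245, quadratic functionals of log-concave measures (helper895), part I: the Poincaré inequality for all
polynomials of degree at most two.
-/

set_option linter.all false

open MeasureTheory Filter Topology Set Metric Matrix
open scoped NNReal ENNReal ContDiff
open Vale.Agent.P227.M Vale.Agent.P254

namespace Vale.Agent.P245.Q895

variable {n : ℕ} {μ : Measure (E n)}

theorem grad_coord (f : E n → ℝ) (x : E n) (i : Fin n) : gradient f x i = pd i f x := by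
  unfold pd gradient
  have h1 : inner ℝ ((InnerProductSpace.toDual ℝ (E n)).symm (fderiv ℝ f x)) (ei i : E n) =
      fderiv ℝ f x (ei i) := InnerProductSpace.toDual_symm_apply
  rw [← h1]
  unfold ei
  rw [EuclideanSpace.inner_single_right]
  simp

theorem norm_grad_sq (f : E n → ℝ) (x : E n) : ‖gradient f x‖ ^ 2 = ∑ i, (pd i f x) ^ 2 := by
  rw [EuclideanSpace.norm_sq_eq]
  refine Finset.sum_congr rfl fun i _ => ?_
  rw [grad_coord, Real.norm_eq_abs, sq_abs]

/-- the general polynomial of degree at most two -/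
noncomputable def qpoly (T : Matrix (Fin n) (Fin n) ℝ) (c : Fin n → ℝ) (d : ℝ) (x : E n) : ℝ :=
  ∑ i, ∑ j, T i j * (x i * x j) + ∑ i, c i * x i + d

theorem pd_mono (t : ℝ) (i j b : Fin n) (x : E n) : pd b (fun x : E n => t * (x i * x j)) x =
    t * ((if i = b then 1 else 0) * x j + x i * (if j = b then 1 else 0)) := by
  have hm : DifferentiableAt ℝ (fun x : E n => x i * x j) x := (rad_diff_coord i x).mul (rad_diff_coord j x)
  rw [rpd_mul (differentiableAt_const _) hm,
    rpd_const, rpd_mul (rad_diff_coord i x) (rad_diff_coord j x), rpd_coord, rpd_coord]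
  ring

theorem pd_qpoly {T : Matrix (Fin n) (Fin n) ℝ} (hT : Tᵀ = T) (c : Fin n → ℝ) (d : ℝ) (b : Fin n) (x : E n) :
    pd b (qpoly T c d) x = 2 * ∑ j, T b j * x j + c b := by
  have hsym : ∀ i j, T i j = T j i := fun i j => by
    conv_lhs => rw [← hT]
    rfl
  have h1 : ∀ i j, DifferentiableAt ℝ (fun x : E n => T i j * (x i * x j)) x := fun i j =>
    ((rad_diff_coord i x).mul (rad_diff_coord j x)).const_mul _
  have h2 : ∀ i, DifferentiableAt ℝ (fun x : E n => ∑ j, T i j * (x i * x j)) x := fun i =>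
    DifferentiableAt.fun_sum fun j _ => h1 i j
  have h3 : DifferentiableAt ℝ (fun x : E n => ∑ i, ∑ j, T i j * (x i * x j)) x :=
    DifferentiableAt.fun_sum fun i _ => h2 i
  have h4 : ∀ i, DifferentiableAt ℝ (fun x : E n => c i * x i) x := fun i => (rad_diff_coord i x).const_mul _
  have h5 : DifferentiableAt ℝ (fun x : E n => ∑ i, c i * x i) x := DifferentiableAt.fun_sum fun i _ => h4 i
  have e1 : ∀ i j, pd b (fun x : E n => T i j * (x i * x j)) x =
      T i j * ((if i = b then 1 else 0) * x j + x i * (if j = b then 1 else 0)) :=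
    fun i j => pd_mono (T i j) i j b x
  have e2 : ∀ i, pd b (fun x : E n => c i * x i) x = c i * (if i = b then 1 else 0) := by
    intro i
    rw [rpd_mul (differentiableAt_const _) (rad_diff_coord i x), rpd_const, rpd_coord]
    ring
  have h6 : DifferentiableAt ℝ (fun x : E n => ∑ i, ∑ j, T i j * (x i * x j) + ∑ i, c i * x i) x := h3.add h5
  have e0 : pd b (qpoly T c d) x = ∑ i, ∑ j, pd b (fun x : E n => T i j * (x i * x j)) x +
      ∑ i, pd b (fun x : E n => c i * x i) x := by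
    unfold qpoly
    refine (rpd_add h6 (differentiableAt_const _)).trans ?_
    rw [rpd_const, add_zero]
    refine (rpd_add h3 h5).trans ?_
    congr 1
    · refine (rpd_sum (fun i _ => h2 i)).trans ?_
      exact Finset.sum_congr rfl fun i _ => rpd_sum (fun j _ => h1 i j)
    · exact rpd_sum (fun i _ => h4 i)
  rw [e0]
  simp only [e1, e2]
  have e3 : ∑ i, ∑ j, T i j * ((if i = b then (1 : ℝ) else 0) * x j + x i * (if j = b then 1 else 0)) =
      ∑ j, T b j * x j + ∑ i, T i b * x i := by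
    have e4 : ∀ i, ∑ j, T i j * ((if i = b then (1 : ℝ) else 0) * x j + x i * (if j = b then 1 else 0)) =
        (if i = b then (1 : ℝ) else 0) * ∑ j, T i j * x j + T i b * x i := by
      intro i
      simp only [mul_add, Finset.sum_add_distrib]
      congr 1
      · rw [Finset.mul_sum]
        exact Finset.sum_congr rfl fun j _ => by ring
      · rw [Finset.sum_eq_single b]
        · simp
        · intro j _ hj
          rw [if_neg hj]; ring
        · intro hb
          exact absurd (Finset.mem_univ b) hb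
    simp only [e4, Finset.sum_add_distrib]
    congr 1
    simp
  rw [e3]
  have e5 : ∑ i, T i b * x i = ∑ j, T b j * x j := Finset.sum_congr rfl fun i _ => by rw [hsym i b]
  rw [e5]
  simp
  ring

/-- the polynomial centred at `b` -/
theorem qpoly_eq {T : Matrix (Fin n) (Fin n) ℝ} (hT : Tᵀ = T) (c : Fin n → ℝ) (d : ℝ) (b : Fin n → ℝ) :
    ∃ D : ℝ, ∀ x : E n, qpoly T c d x =
      (∑ i, ∑ j, T i j * ((x i - b i) * (x j - b j)) +
        ∑ i, (c i + 2 * ∑ j, T i j * b j) * (x i - b i)) + D := by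
  have hsym : ∀ i j, T i j = T j i := fun i j => by
    conv_lhs => rw [← hT]
    rfl
  refine ⟨∑ i, ∑ j, T i j * (b i * b j) + ∑ i, c i * b i + d, fun x => ?_⟩
  unfold qpoly
  have e1 : ∑ i, ∑ j, T i j * (x i * x j) = ∑ i, ∑ j, T i j * ((x i - b i) * (x j - b j)) +
      ∑ i, ∑ j, T i j * (b i * b j) + ∑ i, ∑ j, T i j * (b i * (x j - b j)) +
      ∑ i, ∑ j, T i j * ((x i - b i) * b j) := by
    simp only [← Finset.sum_add_distrib]
    exact Finset.sum_congr rfl fun i _ => Finset.sum_congr rfl fun j _ => by ring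
  have e2 : ∑ i, ∑ j, T i j * (b i * (x j - b j)) = ∑ i, ∑ j, T i j * ((x i - b i) * b j) := by
    rw [Finset.sum_comm]
    exact Finset.sum_congr rfl fun i _ => Finset.sum_congr rfl fun j _ => by rw [hsym j i]; ring
  have e3 : ∑ i, (c i + 2 * ∑ j, T i j * b j) * (x i - b i) =
      ∑ i, c i * (x i - b i) + 2 * ∑ i, ∑ j, T i j * ((x i - b i) * b j) := by
    rw [Finset.mul_sum, ← Finset.sum_add_distrib]
    refine Finset.sum_congr rfl fun i _ => ?_
    have : ∑ j, T i j * ((x i - b i) * b j) = (x i - b i) * ∑ j, T i j * b j := by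
      rw [Finset.mul_sum]
      exact Finset.sum_congr rfl fun j _ => by ring
    rw [this]
    ring
  have e4 : ∑ i, c i * x i = ∑ i, c i * (x i - b i) + ∑ i, c i * b i := by
    rw [← Finset.sum_add_distrib]
    exact Finset.sum_congr rfl fun i _ => by ring
  rw [e1, e2, e3, e4]
  ring

theorem gr_qpoly (T : Matrix (Fin n) (Fin n) ℝ) (c : Fin n → ℝ) (d : ℝ) : Gr (qpoly T c d) := by
  unfold qpoly
  refine ((Gr.sum _ fun i _ => Gr.sum _ fun j _ => ?_).add (Gr.sum _ fun i _ => ?_)).add (Gr.const _)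
  · exact ((Gr.coord i).mul (Gr.coord j)).const_mul _
  · exact (Gr.coord i).const_mul _

section
variable [IsProbabilityMeasure μ] (hlc : HasLogConcaveDensity μ)
  {b : Fin n → ℝ} (hb : ∀ i, ∫ x, x i ∂μ = b i)
  {K : Matrix (Fin n) (Fin n) ℝ} (hK : ∀ i j, ∫ x, (x i - b i) * (x j - b j) ∂μ = K i j)

include hlc hK

theorem cov_psd : K.PosSemidef := by
  refine Matrix.PosSemidef.of_dotProduct_mulVec_nonneg ?_ fun v => ?_
  · ext i j
    simp only [Matrix.conjTranspose_apply, star_trivial]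
    rw [← hK i j, ← hK j i]
    exact integral_congr_ae (Eventually.of_forall fun x => by ring)
  · rw [star_trivial, ← int_lin_mul hlc hK v v]
    exact integral_nonneg fun x => mul_self_nonneg _

/-- `tr (TKTK) ≤ lam tr (TKT)` if `K ≤ lam` -/
theorem tr_le {lam : ℝ} (hlam : ∀ v : Fin n → ℝ, v ⬝ᵥ (K *ᵥ v) ≤ lam * ∑ i, v i ^ 2)
    {T : Matrix (Fin n) (Fin n) ℝ} (hT : Tᵀ = T) :
    (T * K * T * K).trace ≤ lam * (T * K * T).trace := by
  have hKp := cov_psd hlc hK
  have hA : (T * K * T).PosSemidef := by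
    have := hKp.mul_mul_conjTranspose_same T
    rwa [Matrix.conjTranspose_eq_transpose_of_trivial, hT] at this
  have hB : (lam • (1 : Matrix (Fin n) (Fin n) ℝ) - K).PosSemidef := by
    refine Matrix.PosSemidef.of_dotProduct_mulVec_nonneg ?_ fun v => ?_
    · refine Matrix.IsHermitian.sub ?_ hKp.1
      unfold Matrix.IsHermitian
      rw [Matrix.conjTranspose_smul, Matrix.conjTranspose_one, star_trivial]
    · rw [star_trivial, Matrix.sub_mulVec, Matrix.smul_mulVec, Matrix.one_mulVec, dotProduct_sub,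
        dotProduct_smul]
      have h := hlam v
      have e : v ⬝ᵥ v = ∑ i, v i ^ 2 := Finset.sum_congr rfl fun i _ => by ring
      rw [e, smul_eq_mul]
      linarith
  have h := Vale.Agent.P254.S2.pw_tr_nonneg hA hB
  rw [Matrix.mul_sub, Matrix.trace_sub, Matrix.mul_smul, Matrix.mul_one, Matrix.trace_smul, smul_eq_mul] at h
  linarith

include hb in
/-- mean square of the gradient -/
theorem grad_qpoly {T : Matrix (Fin n) (Fin n) ℝ} (hT : Tᵀ = T) (c : Fin n → ℝ) (d : ℝ) :
    ∫ x, ‖gradient (qpoly T c d) x‖ ^ 2 ∂μ =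
      4 * (T * K * T).trace + ∑ i, (c i + 2 * ∑ j, T i j * b j) ^ 2 := by
  have hsym : ∀ i j, T i j = T j i := fun i j => by
    conv_lhs => rw [← hT]
    rfl
  have e : ∀ x : E n, ‖gradient (qpoly T c d) x‖ ^ 2 =
      ∑ i, (2 * ∑ j, T i j * (x j - b j) + (c i + 2 * ∑ j, T i j * b j)) ^ 2 := by
    intro x
    rw [norm_grad_sq]
    refine Finset.sum_congr rfl fun i _ => ?_
    rw [pd_qpoly hT]
    have : ∑ j, T i j * (x j - b j) = ∑ j, T i j * x j - ∑ j, T i j * b j := by
      rw [← Finset.sum_sub_distrib]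
      exact Finset.sum_congr rfl fun j _ => by ring
    rw [this]
    ring
  have hl : ∀ i, Gr (fun x : E n => ∑ j, T i j * (x j - b j)) := fun i => gr_lin b (fun j => T i j)
  have e1 : ∀ i, ∫ x, (2 * ∑ j, T i j * (x j - b j) + (c i + 2 * ∑ j, T i j * b j)) ^ 2 ∂μ =
      4 * ((fun j => T i j) ⬝ᵥ (K *ᵥ (fun j => T i j))) + (c i + 2 * ∑ j, T i j * b j) ^ 2 := by
    intro i
    obtain ⟨m, hm⟩ : ∃ m, m = c i + 2 * ∑ j, T i j * b j := ⟨_, rfl⟩
    rw [← hm]
    have e2 : ∀ x : E n, (2 * ∑ j, T i j * (x j - b j) + m) ^ 2 =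
        (4 * ((∑ j, T i j * (x j - b j)) * (∑ j, T i j * (x j - b j))) +
          (4 * m) * ∑ j, T i j * (x j - b j)) + m ^ 2 := fun x => by ring
    have i1 : Integrable (fun x : E n => 4 * ((∑ j, T i j * (x j - b j)) * (∑ j, T i j * (x j - b j)))) μ :=
      (int_gr hlc ((hl i).mul (hl i))).const_mul _
    have i2 : Integrable (fun x : E n => (4 * m) * ∑ j, T i j * (x j - b j)) μ := (int_gr hlc (hl i)).const_mul _
    have i3 : Integrable (fun x : E n => 4 * ((∑ j, T i j * (x j - b j)) * (∑ j, T i j * (x j - b j))) +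
          (4 * m) * ∑ j, T i j * (x j - b j)) μ := i1.add i2
    rw [integral_congr_ae (Eventually.of_forall e2), integral_add i3 (integrable_const _),
      integral_add i1 i2, integral_const_mul, integral_const_mul,
      int_lin_mul hlc hK (fun j => T i j) (fun j => T i j), int_lin hlc hb (fun j => T i j), integral_const]
    simp
  rw [integral_congr_ae (Eventually.of_forall e), integral_finsetSum _ fun i _ =>
    int_gr hlc ((((hl i).const_mul _).add (Gr.const _)).pow 2)]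
  rw [Finset.sum_congr rfl fun i _ => e1 i, Finset.sum_add_distrib, ← Finset.mul_sum]
  congr 2
  show _ = ∑ i, (T * K * T) i i
  refine Finset.sum_congr rfl fun i _ => ?_
  rw [Matrix.mul_assoc, Matrix.mul_apply]
  refine Finset.sum_congr rfl fun j _ => ?_
  show T i j * (K *ᵥ (fun j => T i j)) j = _
  congr 1
  rw [Matrix.mul_apply]
  show ∑ k, K j k * T i k = ∑ k, K j k * T k i
  exact Finset.sum_congr rfl fun k _ => by rw [hsym k i]

include hb in
/-- **Poincaré inequality for polynomials of degree at most two** -/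
theorem poinc_qpoly {lam : ℝ} (hlam : ∀ v : Fin n → ℝ, v ⬝ᵥ (K *ᵥ v) ≤ lam * ∑ i, v i ^ 2)
    {T : Matrix (Fin n) (Fin n) ℝ} (hT : Tᵀ = T) (c : Fin n → ℝ) (d : ℝ) :
    (∫ x, qpoly T c d x ^ 2 ∂μ) - (∫ x, qpoly T c d x ∂μ) ^ 2 ≤
      5 * lam * ∫ x, ‖gradient (qpoly T c d) x‖ ^ 2 ∂μ := by
  obtain ⟨D, hD⟩ := qpoly_eq hT c d b
  obtain ⟨w, hw⟩ : ∃ w : Fin n → ℝ, w = fun i => c i + 2 * ∑ j, T i j * b j := ⟨_, rfl⟩
  have hqG : Gr (fun x : E n => ∑ i, ∑ j, T i j * ((x i - b i) * (x j - b j))) := gr_q b T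
  have hlG : Gr (fun x : E n => ∑ i, w i * (x i - b i)) := gr_lin b w
  obtain ⟨m, hm⟩ : ∃ m, m = ∫ x, (∑ i, ∑ j, T i j * ((x i - b i) * (x j - b j))) ∂μ := ⟨_, rfl⟩
  have hD' : ∀ x : E n, qpoly T c d x = (∑ i, ∑ j, T i j * ((x i - b i) * (x j - b j)) +
        ∑ i, w i * (x i - b i)) + D := fun x => by rw [hD, hw]
  have hmean : ∫ x, qpoly T c d x ∂μ = m + D := by
    have j1 := int_gr hlc hqG
    have j2 := int_gr hlc hlG
    have j3 : Integrable (fun x : E n => ∑ i, ∑ j, T i j * ((x i - b i) * (x j - b j)) +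
        ∑ i, w i * (x i - b i)) μ := j1.add j2
    rw [integral_congr_ae (Eventually.of_forall hD')]
    refine (integral_add j3 (integrable_const _)).trans ?_
    rw [integral_const]
    have e7 := integral_add j1 j2
    rw [int_lin hlc hb w, ← hm] at e7
    refine (congrArg (· + _) e7).trans ?_
    simp
  rw [← var_eq hlc (gr_qpoly T c d), hmean]
  have hvq : ∫ x, ((∑ i, ∑ j, T i j * ((x i - b i) * (x j - b j))) - m) ^ 2 ∂μ ≤
      16 * (T * K * T * K).trace := by
    rw [hm, var_eq hlc hqG]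
    exact quad_lc hlc hT hb hK
  have hvl : ∫ x, (∑ i, w i * (x i - b i)) ^ 2 ∂μ = w ⬝ᵥ (K *ᵥ w) := by
    rw [← int_lin_mul hlc hK w w]
    exact integral_congr_ae (Eventually.of_forall fun x => by ring)
  have hqm : Gr (fun x : E n => (∑ i, ∑ j, T i j * ((x i - b i) * (x j - b j))) - m) := hqG.sub (Gr.const _)
  have i1 : Integrable (fun x : E n => (5 / 4 : ℝ) * ((∑ i, ∑ j, T i j * ((x i - b i) * (x j - b j))) - m) ^ 2) μ :=
    (int_gr hlc (hqm.pow 2)).const_mul _
  have i2 : Integrable (fun x : E n => 5 * (∑ i, w i * (x i - b i)) ^ 2) μ :=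
    (int_gr hlc (hlG.pow 2)).const_mul _
  have h1 : ∫ x, (qpoly T c d x - (m + D)) ^ 2 ∂μ ≤
      5 / 4 * (∫ x, ((∑ i, ∑ j, T i j * ((x i - b i) * (x j - b j))) - m) ^ 2 ∂μ) +
        5 * ∫ x, (∑ i, w i * (x i - b i)) ^ 2 ∂μ := by
    rw [← integral_const_mul, ← integral_const_mul, ← integral_add i1 i2]
    refine integral_mono (int_gr hlc (((gr_qpoly T c d).sub (Gr.const _)).pow 2)) (i1.add i2) fun x => ?_
    show (qpoly T c d x - (m + D)) ^ 2 ≤ _
    rw [hD']
    simp only [Pi.add_apply]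
    nlinarith [sq_nonneg ((∑ i, ∑ j, T i j * ((x i - b i) * (x j - b j)) - m) - 4 * ∑ i, w i * (x i - b i))]
  have h2 := grad_qpoly hlc hb hK hT c d
  have h3 := tr_le hlc hK hlam hT
  have h4 := hlam w
  rw [h2]
  have e5 : ∑ i, (c i + 2 * ∑ j, T i j * b j) ^ 2 = ∑ i, w i ^ 2 := by rw [hw]
  rw [e5]
  rw [hvl] at h1
  nlinarith

end

theorem inner_sum (x θ : E n) : inner ℝ x θ = ∑ i, θ i * x i := by
  rw [PiLp.inner_apply]
  refine Finset.sum_congr rfl fun i _ => ?_
  simp

theorem gr_lin0 (v : Fin n → ℝ) : Gr (fun x : E n => ∑ i, v i * x i) :=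
  Gr.sum _ fun i _ => (Gr.coord i).const_mul _

/-- second moments of linearly subgaussian laws -/
theorem sub_unit [IsProbabilityMeasure μ] (hlc : HasLogConcaveDensity μ) {a : ℝ} (ha : 0 < a)
    (hsub : LinearlySubgaussian μ a) (θ : E n) (hθ : ‖θ‖ = 1) :
    ∫ x, (∑ i, θ i * x i) ^ 2 ∂μ ≤ Real.log 2 * a ^ 2 := by
  have h1 := hsub θ hθ
  have hG : Gr (fun x : E n => ∑ i, θ i * x i) := gr_lin0 θ
  have hint2 : Integrable (fun x : E n => (∑ i, θ i * x i) ^ 2) μ := int_gr hlc (hG.pow 2)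
  have hc : Continuous (fun x : E n => Real.exp ((∑ i, θ i * x i) ^ 2 / a ^ 2)) := by fun_prop
  have e1 : (fun x : E n => ENNReal.ofReal (Real.exp (inner ℝ x θ ^ 2 / a ^ 2))) =
      fun x => ENNReal.ofReal (Real.exp ((∑ i, θ i * x i) ^ 2 / a ^ 2)) := by
    funext x
    rw [inner_sum]
  rw [e1] at h1
  have hint : Integrable (fun x : E n => Real.exp ((∑ i, θ i * x i) ^ 2 / a ^ 2)) μ := by
    refine ⟨hc.aestronglyMeasurable, ?_⟩
    rw [hasFiniteIntegral_iff_ofReal (Eventually.of_forall fun x => (Real.exp_pos _).le)]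
    exact lt_of_le_of_lt h1 (by norm_num)
  have h2 : ∫ x, Real.exp ((∑ i, θ i * x i) ^ 2 / a ^ 2) ∂μ ≤ 2 := by
    rw [integral_eq_lintegral_of_nonneg_ae (Eventually.of_forall fun x => (Real.exp_pos _).le)
      hc.aestronglyMeasurable]
    have := ENNReal.toReal_mono (by norm_num) h1
    simpa using this
  have h3 : ∀ x : E n, (1 / a ^ 2) * (∑ i, θ i * x i) ^ 2 ≤
      (1 / 2) * Real.exp ((∑ i, θ i * x i) ^ 2 / a ^ 2) + (Real.log 2 - 1) := by
    intro x
    have h4 := Real.add_one_le_exp ((∑ i, θ i * x i) ^ 2 / a ^ 2 - Real.log 2)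
    rw [Real.exp_sub, Real.exp_log (by norm_num)] at h4
    have h5 : (1 / a ^ 2) * (∑ i, θ i * x i) ^ 2 = (∑ i, θ i * x i) ^ 2 / a ^ 2 := by ring
    rw [h5]
    linarith
  have i1 : Integrable (fun x : E n => (1 / 2) * Real.exp ((∑ i, θ i * x i) ^ 2 / a ^ 2)) μ := hint.const_mul _
  have h6 : ∫ x, (1 / a ^ 2) * (∑ i, θ i * x i) ^ 2 ∂μ ≤
      ∫ x, ((1 / 2) * Real.exp ((∑ i, θ i * x i) ^ 2 / a ^ 2) + (Real.log 2 - 1)) ∂μ :=
    integral_mono (hint2.const_mul _) (i1.add (integrable_const _)) h3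
  rw [integral_const_mul, integral_add i1 (integrable_const _), integral_const_mul, integral_const] at h6
  simp only [probReal_univ, smul_eq_mul, one_mul] at h6
  have ha2 : 0 < a ^ 2 := by positivity
  have h7 : (1 / a ^ 2) * ∫ x, (∑ i, θ i * x i) ^ 2 ∂μ ≤ Real.log 2 := by linarith
  have h8 := mul_le_mul_of_nonneg_right h7 ha2.le
  have h9 : (1 / a ^ 2) * (∫ x, (∑ i, θ i * x i) ^ 2 ∂μ) * a ^ 2 = ∫ x, (∑ i, θ i * x i) ^ 2 ∂μ := by
    field_simp
  rwa [h9] at h8

/-- second moments of linearly subgaussian laws, all directions -/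
theorem sub_all [IsProbabilityMeasure μ] (hlc : HasLogConcaveDensity μ) {a : ℝ} (ha : 0 < a)
    (hsub : LinearlySubgaussian μ a) (v : Fin n → ℝ) :
    ∫ x, (∑ i, v i * x i) ^ 2 ∂μ ≤ (Real.log 2 * a ^ 2) * ∑ i, v i ^ 2 := by
  obtain ⟨s, hs⟩ : ∃ s : ℝ, s = ∑ i, v i ^ 2 := ⟨_, rfl⟩
  have hs0 : 0 ≤ s := hs ▸ Finset.sum_nonneg fun i _ => sq_nonneg _
  rcases hs0.eq_or_lt with h0 | h0
  · have hv : ∀ i, v i = 0 := by
      intro i
      have := (Finset.sum_eq_zero_iff_of_nonneg fun i _ => sq_nonneg (v i)).1 (hs ▸ h0.symm) i (Finset.mem_univ i)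
      exact pow_eq_zero_iff (two_ne_zero) |>.1 this
    simp [hv]
  · have hr : 0 < Real.sqrt s := Real.sqrt_pos.2 h0
    have hr2 : Real.sqrt s ^ 2 = s := Real.sq_sqrt hs0
    obtain ⟨r, hrr⟩ : ∃ r, r = Real.sqrt s := ⟨_, rfl⟩
    rw [← hrr] at hr hr2
    set θ : E n := WithLp.toLp 2 (fun i => v i / r) with hθ
    have hθi : ∀ i, θ i = v i / r := fun i => rfl
    have hn : ‖θ‖ = 1 := by
      have : ‖θ‖ ^ 2 = 1 := by
        rw [EuclideanSpace.norm_sq_eq]
        have e : ∀ i, ‖θ i‖ ^ 2 = v i ^ 2 / r ^ 2 := fun i => by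
          rw [hθi, Real.norm_eq_abs, sq_abs, div_pow]
        simp only [e]
        rw [← Finset.sum_div, ← hs, hr2]
        exact div_self h0.ne'
      have h1 := norm_nonneg θ
      nlinarith
    have h1 := sub_unit hlc ha hsub θ hn
    have e1 : ∀ x : E n, (∑ i, v i * x i) ^ 2 = s * (∑ i, θ i * x i) ^ 2 := by
      intro x
      have : ∑ i, v i * x i = r * ∑ i, θ i * x i := by
        rw [Finset.mul_sum]
        refine Finset.sum_congr rfl fun i _ => ?_
        rw [hθi]
        field_simp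
      rw [this, mul_pow, hr2]
    rw [integral_congr_ae (Eventually.of_forall e1), integral_const_mul, ← hs]
    calc s * ∫ x, (∑ i, θ i * x i) ^ 2 ∂μ ≤ s * (Real.log 2 * a ^ 2) := mul_le_mul_of_nonneg_left h1 hs0
      _ = _ := by ring

/-- covariance of linearly subgaussian laws -/
theorem sub_cov [IsProbabilityMeasure μ] (hlc : HasLogConcaveDensity μ) {a : ℝ} (ha : 0 < a)
    (hsub : LinearlySubgaussian μ a) {b : Fin n → ℝ} (hb : ∀ i, ∫ x, x i ∂μ = b i)
    {K : Matrix (Fin n) (Fin n) ℝ} (hK : ∀ i j, ∫ x, (x i - b i) * (x j - b j) ∂μ = K i j)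
    (v : Fin n → ℝ) : v ⬝ᵥ (K *ᵥ v) ≤ (Real.log 2 * a ^ 2) * ∑ i, v i ^ 2 := by
  have h1 := sub_all hlc ha hsub v
  have hG := gr_lin0 (n := n) v
  have h2 := var_eq hlc hG
  have h3 : ∫ x, (∑ i, v i * x i) ∂μ = ∑ i, v i * b i := by
    rw [integral_finsetSum _ fun i _ => (int_gr hlc (Gr.coord i)).const_mul _]
    exact Finset.sum_congr rfl fun i _ => by rw [integral_const_mul, hb]
  have h4 : v ⬝ᵥ (K *ᵥ v) = ∫ x, ((∑ i, v i * x i) - ∫ y, (∑ i, v i * y i) ∂μ) ^ 2 ∂μ := by
    rw [← int_lin_mul hlc hK v v, h3]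
    refine integral_congr_ae (Eventually.of_forall fun x => ?_)
    have : ∑ i, v i * (x i - b i) = (∑ i, v i * x i) - ∑ i, v i * b i := by
      rw [← Finset.sum_sub_distrib]
      exact Finset.sum_congr rfl fun i _ => by ring
    simp only [this]
    ring
  rw [h4, h2]
  have h5 := sq_nonneg (∫ x, (∑ i, v i * x i) ∂μ)
  linarith

end Vale.Agent.P245.Q895
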