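import Mathlib.MeasureTheory.Integral.IntervalIntegral.LebesgueDifferentiationThm
import Vale.Agent.P227.PL

/-!
P245, quadratic functionals of log-concave measures (helper895), part J: a Prékopa-Leindler inequality
with two functions on the right hand side (the coupling of Knothe, by induction on the dimension).
-/

set_option linter.all false

open MeasureTheory Filter Topology Set
open scoped ENNReal NNReal

namespace Vale.Agent.P245.Q895.Kn

/-- quantile function of an integrable density -/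
theorem quantile {f : ℝ → ℝ≥0∞} (hf : Measurable f) (h0 : ∫⁻ x, f x ≠ 0) (h1 : ∫⁻ x, f x ≠ ∞) :
    ∃ (X : ℝ → ℝ) (d : ℝ → ℝ), MonotoneOn X (Ioo 0 1) ∧
      ∀ᵐ u : ℝ, u ∈ Ioo (0 : ℝ) 1 → (HasDerivWithinAt X (d u) (Ioo 0 1) u ∧ 0 < d u ∧ f (X u) ≠ 0 ∧
        f (X u) ≠ ∞ ∧ ENNReal.ofReal (d u) * f (X u) = ∫⁻ x, f x) := by
  set fr : ℝ → ℝ := fun x => (f x).toReal with hfr
  have hfi : Integrable fr volume := integrable_toReal_of_lintegral_ne_top hf.aemeasurable h1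
  have hf0 : ∀ x, 0 ≤ fr x := fun x => ENNReal.toReal_nonneg
  set Fr : ℝ := ∫ x, fr x with hFr
  have hFe : Fr = (∫⁻ x, f x).toReal := integral_toReal hf.aemeasurable (ae_lt_top hf h1)
  have hFp : 0 < Fr := by rw [hFe]; exact ENNReal.toReal_pos h0 h1
  have hFo : ENNReal.ofReal Fr = ∫⁻ x, f x := by rw [hFe, ENNReal.ofReal_toReal h1]
  set P : ℝ → ℝ := fun x => ∫ t in Iic x, fr t with hP
  have hPmono : Monotone P := fun x y hxy =>
    setIntegral_mono_set hfi.integrableOn (Eventually.of_forall fun t => hf0 t)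
      (Iic_subset_Iic.2 hxy).eventuallyLE
  have hPeq : ∀ x, P x = P 0 + ∫ t in (0 : ℝ)..x, fr t := fun x => by
    rw [← intervalIntegral.integral_Iic_sub_Iic hfi.integrableOn hfi.integrableOn]
    simp only [hP]
    ring
  have hPcont : Continuous P := by
    rw [funext hPeq]
    exact continuous_const.add (intervalIntegral.continuous_primitive
      (fun a b => hfi.intervalIntegrable) 0)
  have hPd : ∀ᵐ x : ℝ, HasDerivAt P (fr x) x := by
    filter_upwards [_root_.LocallyIntegrable.ae_hasDerivAt_integral hfi.locallyIntegrable] with x hx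
    rw [funext hPeq]
    exact (hx 0).const_add _
  have hPbot : Tendsto P atBot (𝓝 0) := tendsto_integral_Iic_zero tendsto_id
  have hPtop : Tendsto P atTop (𝓝 Fr) := by
    have h2 : Tendsto (fun x => ∫ t in (0 : ℝ)..x, fr t) atTop (𝓝 (∫ t in Ioi 0, fr t)) :=
      intervalIntegral_tendsto_integral_Ioi 0 hfi.integrableOn tendsto_id
    have h3 := h2.const_add (P 0)
    have h4 : P 0 + ∫ t in Ioi (0 : ℝ), fr t = Fr :=
      intervalIntegral.integral_Iic_add_Ioi hfi.integrableOn hfi.integrableOn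
    rw [h4] at h3
    rw [funext hPeq]
    exact h3
  have hP0 : ∀ x, 0 ≤ P x := fun x => setIntegral_nonneg measurableSet_Iic fun t _ => hf0 t
  have hP1 : ∀ x, P x ≤ Fr := fun x => setIntegral_le_integral hfi (Eventually.of_forall hf0)
  -- the quantile function
  set S : ℝ → Set ℝ := fun u => {x | u * Fr ≤ P x} with hS
  have hSne : ∀ u ∈ Ioo (0 : ℝ) 1, (S u).Nonempty := by
    intro u hu
    have h2 : u * Fr < Fr := by nlinarith [hu.2]
    exact ((hPtop.eventually (lt_mem_nhds h2)).exists).imp fun x hx => hx.le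
  have hSbd : ∀ u ∈ Ioo (0 : ℝ) 1, BddBelow (S u) := by
    intro u hu
    have h2 : 0 < u * Fr := mul_pos hu.1 hFp
    obtain ⟨x0, hx0⟩ := (hPbot.eventually (gt_mem_nhds h2)).exists
    refine ⟨x0, fun x hx => ?_⟩
    by_contra hc
    push Not at hc
    exact absurd (hPmono hc.le) (not_le.2 (lt_of_lt_of_le hx0 hx))
  have hScl : ∀ u, IsClosed (S u) := fun u => isClosed_le continuous_const hPcont
  set X : ℝ → ℝ := fun u => sInf (S u) with hX
  have hXmem : ∀ u ∈ Ioo (0 : ℝ) 1, X u ∈ S u := fun u hu =>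
    (hScl u).csInf_mem (hSne u hu) (hSbd u hu)
  have hPX : ∀ u ∈ Ioo (0 : ℝ) 1, P (X u) = u * Fr := by
    intro u hu
    refine le_antisymm ?_ (hXmem u hu)
    by_contra hc
    push Not at hc
    obtain ⟨y, hy1, hy2⟩ := (hPcont.continuousAt.eventually (lt_mem_nhds hc)).exists_lt
    have : X u ≤ y := csInf_le (hSbd u hu) (show u * Fr ≤ P y from le_of_lt hy2)
    linarith
  have hXm : MonotoneOn X (Ioo 0 1) := by
    intro u hu v hv huv
    refine csInf_le_csInf (hSbd u hu) (hSne v hv) fun x hx => ?_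
    have h3 : v * Fr ≤ P x := hx
    show u * Fr ≤ P x
    nlinarith
  have hgal : ∀ u ∈ Ioo (0 : ℝ) 1, ∀ t, X u ≤ t ↔ u * Fr ≤ P t := by
    intro u hu t
    constructor
    · intro h
      rw [← hPX u hu]
      exact hPmono h
    · intro h
      exact csInf_le (hSbd u hu) h
  -- the law of `X`
  have hXae : AEMeasurable X (volume.restrict (Ioo (0 : ℝ) 1)) :=
    aemeasurable_restrict_of_monotoneOn measurableSet_Ioo hXm
  have hlaw : Measure.map X (volume.restrict (Ioo (0 : ℝ) 1)) =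
      (ENNReal.ofReal Fr)⁻¹ • volume.withDensity f := by
    haveI : IsFiniteMeasure (Measure.map X (volume.restrict (Ioo (0 : ℝ) 1))) := by
      haveI : IsFiniteMeasure (volume.restrict (Ioo (0 : ℝ) 1)) := ⟨by simp⟩
      infer_instance
    refine Measure.ext_of_Iic _ _ fun t => ?_
    rw [Measure.map_apply_of_aemeasurable hXae measurableSet_Iic, Measure.smul_apply,
      withDensity_apply _ measurableSet_Iic, Measure.restrict_apply₀' measurableSet_Ioo.nullMeasurableSet]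
    have e1 : X ⁻¹' Iic t ∩ Ioo 0 1 = {u | u * Fr ≤ P t} ∩ Ioo 0 1 := by
      ext u
      constructor
      · rintro ⟨h2, h3⟩
        exact ⟨(hgal u h3 t).1 h2, h3⟩
      · rintro ⟨h2, h3⟩
        exact ⟨(hgal u h3 t).2 h2, h3⟩
    rw [e1]
    have e2 : ∫⁻ x in Iic t, f x = ENNReal.ofReal (P t) := by
      have h5 : ∫⁻ x in Iic t, f x ≠ ∞ := ne_top_of_le_ne_top h1 (setLIntegral_le_lintegral _ _)
      have h6 : P t = (∫⁻ x in Iic t, f x).toReal :=
        integral_toReal hf.aemeasurable (ae_lt_top' hf.aemeasurable h5)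
      rw [h6, ENNReal.ofReal_toReal h5]
    rw [e2, smul_eq_mul]
    have e3 : (ENNReal.ofReal Fr)⁻¹ * ENNReal.ofReal (P t) = ENNReal.ofReal (P t / Fr) := by
      rw [ENNReal.ofReal_div_of_pos hFp, ENNReal.div_eq_inv_mul]
    rw [e3]
    have hc0 : 0 ≤ P t / Fr := div_nonneg (hP0 t) hFp.le
    have hc1 : P t / Fr ≤ 1 := (div_le_one hFp).2 (hP1 t)
    have e4 : {u | u * Fr ≤ P t} = Iic (P t / Fr) := by
      ext u
      exact (le_div_iff₀ hFp).symm
    rw [e4]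
    rcases hc1.eq_or_lt with h7 | h7
    · rw [h7]
      have : Iic (1 : ℝ) ∩ Ioo 0 1 = Ioo 0 1 := by
        ext u
        simp only [mem_inter_iff, mem_Iic, mem_Ioo]
        constructor
        · exact fun h => h.2
        · exact fun h => ⟨h.2.le, h⟩
      rw [this]
      simp
    · have : Iic (P t / Fr) ∩ Ioo 0 1 = Ioc 0 (P t / Fr) := by
        ext u
        simp only [mem_inter_iff, mem_Iic, mem_Ioo, mem_Ioc]
        constructor
        · exact fun h => ⟨h.2.1, h.1⟩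
        · exact fun h => ⟨h.2, h.1, lt_of_le_of_lt h.2 h7⟩
      rw [this, Real.volume_Ioc]
      simp
  have hac : ∀ {p : ℝ → Prop}, (∀ᵐ x : ℝ, p x) → ∀ᵐ u ∂(volume.restrict (Ioo (0 : ℝ) 1)), p (X u) := by
    intro p hp
    refine ae_of_ae_map hXae ?_
    rw [hlaw]
    refine Measure.ae_smul_measure ?_ _
    exact (withDensity_absolutelyContinuous volume f).ae_le hp
  have hne : ∀ᵐ u ∂(volume.restrict (Ioo (0 : ℝ) 1)), f (X u) ≠ 0 := by
    refine ae_of_ae_map (p := fun x => f x ≠ 0) hXae ?_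
    rw [hlaw]
    refine Measure.ae_smul_measure ?_ _
    rw [ae_withDensity_iff hf]
    exact Eventually.of_forall fun x h => h
  have hlt : ∀ᵐ x : ℝ, f x ≠ ∞ := (ae_lt_top hf h1).mono fun x hx => hx.ne
  refine ⟨X, deriv X, hXm, ?_⟩
  have hXdiff := hXm.ae_differentiableWithinAt measurableSet_Ioo
  have hall := (((hac hPd).and hne).and (hac hlt)).and hXdiff
  rw [ae_restrict_iff' measurableSet_Ioo] at hall
  filter_upwards [hall] with u hu huI
  obtain ⟨⟨⟨h2, h3⟩, h4⟩, h5⟩ := hu huI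
  have h6 : DifferentiableAt ℝ X u := h5.differentiableAt (isOpen_Ioo.mem_nhds huI)
  have h7 := h6.hasDerivAt
  have h8 : HasDerivAt (fun v => P (X v)) (fr (X u) * deriv X u) u := h2.comp u h7
  have h9 : HasDerivAt (fun v : ℝ => v * Fr) Fr u := by
    simpa using (hasDerivAt_id u).mul_const Fr
  have h10 : (fun v => P (X v)) =ᶠ[𝓝 u] fun v => v * Fr := by
    filter_upwards [isOpen_Ioo.mem_nhds huI] with v hv using hPX v hv
  have h11 : fr (X u) * deriv X u = Fr := h8.unique (h9.congr_of_eventuallyEq h10)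
  have h12 : 0 < fr (X u) := ENNReal.toReal_pos h3 h4
  have h13 : 0 < deriv X u := by
    by_contra hc
    push Not at hc
    nlinarith
  refine ⟨h7.hasDerivWithinAt, h13, h3, h4, ?_⟩
  rw [← hFo, ← h11, ENNReal.ofReal_mul h12.le, mul_comm, hfr, ENNReal.ofReal_toReal h4]

/-- one term of the change of variables -/
theorem kn_term {s t : ℝ} (hs : 0 < s) (ht : 0 < t) (hst : s + t = 1) {F G : ℝ≥0∞} (hF0 : F ≠ 0)
    (hF1 : F ≠ ∞) (hG0 : G ≠ 0) (hG1 : G ≠ ∞) {f g k : ℝ → ℝ≥0∞} {X Y dX dY : ℝ → ℝ}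
    {A : Set ℝ} (hA : MeasurableSet A) (hAI : A ⊆ Ioo 0 1) (hX : MonotoneOn X (Ioo 0 1))
    (hY : MonotoneOn Y (Ioo 0 1))
    (hgX : ∀ u ∈ A, (HasDerivWithinAt X (dX u) (Ioo 0 1) u ∧ 0 < dX u ∧ f (X u) ≠ 0 ∧
        f (X u) ≠ ∞ ∧ ENNReal.ofReal (dX u) * f (X u) = F))
    (hgY : ∀ u ∈ A, (HasDerivWithinAt Y (dY u) (Ioo 0 1) u ∧ 0 < dY u ∧ g (Y u) ≠ 0 ∧
        g (Y u) ≠ ∞ ∧ ENNReal.ofReal (dY u) * g (Y u) = G)) :
    ∫⁻ u in A, (f (X u) ^ (-s) * g (Y u) ^ (-t)) * k (s * X u + t * Y u) ≤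
      (F ^ (-s) * G ^ (-t)) * ∫⁻ x, k x := by
  have hpw : ∀ (r : ℝ) (d : ℝ) (w W : ℝ≥0∞), 0 < d → w ≠ 0 → w ≠ ∞ → ENNReal.ofReal d * w = W →
      w ^ (-r) = W ^ (-r) * ENNReal.ofReal d ^ r := by
    intro r d w W hd hw0 hw1 hW
    have hd0 : ENNReal.ofReal d ≠ 0 := by simpa using hd
    have hd1 : ENNReal.ofReal d ≠ ∞ := ENNReal.ofReal_ne_top
    rw [← hW, ENNReal.mul_rpow_of_ne_zero hd0 hw0, ENNReal.rpow_neg (ENNReal.ofReal d) r]
    have h3 : ENNReal.ofReal d ^ r ≠ 0 := by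
      simp [ENNReal.rpow_eq_zero_iff, hd0, hd1]
    have h4 : ENNReal.ofReal d ^ r ≠ ∞ := by
      simp [ENNReal.rpow_eq_top_iff, hd0, hd1]
    calc w ^ (-r) = ((ENNReal.ofReal d ^ r)⁻¹ * ENNReal.ofReal d ^ r) * w ^ (-r) := by
          rw [ENNReal.inv_mul_cancel h3 h4, one_mul]
      _ = _ := by ring
  have hz : MonotoneOn (fun u => s * X u + t * Y u) A := by
    intro u hu v hv huv
    have h3 := hX (hAI hu) (hAI hv) huv
    have h4 := hY (hAI hu) (hAI hv) huv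
    show s * X u + t * Y u ≤ s * X v + t * Y v
    nlinarith
  have hzd : ∀ u ∈ A, HasDerivWithinAt (fun u => s * X u + t * Y u) (s * dX u + t * dY u) A u := by
    intro u hu
    exact (((hgX u hu).1.mono hAI).const_mul s).add (((hgY u hu).1.mono hAI).const_mul t)
  have hcv := lintegral_image_eq_lintegral_deriv_mul_of_monotoneOn hA hzd hz k
  have hc : F ^ (-s) * G ^ (-t) ≠ ∞ := by
    refine ENNReal.mul_ne_top ?_ ?_
    · simp [ENNReal.rpow_eq_top_iff, hF0, hF1]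
    · simp [ENNReal.rpow_eq_top_iff, hG0, hG1]
  calc ∫⁻ u in A, (f (X u) ^ (-s) * g (Y u) ^ (-t)) * k (s * X u + t * Y u)
      ≤ ∫⁻ u in A, (F ^ (-s) * G ^ (-t)) *
          (ENNReal.ofReal (s * dX u + t * dY u) * k (s * X u + t * Y u)) := by
        refine setLIntegral_mono' hA fun u hu => ?_
        obtain ⟨-, hd1, hw1, hw2, hW⟩ := hgX u hu
        obtain ⟨-, hd1', hw1', hw2', hW'⟩ := hgY u hu
        rw [hpw s (dX u) _ F hd1 hw1 hw2 hW, hpw t (dY u) _ G hd1' hw1' hw2' hW']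
        have h5 := Vale.Agent.P227.ennreal_amgm hs ht hst (ENNReal.ofReal (dX u)) (ENNReal.ofReal (dY u))
        rw [← ENNReal.ofReal_mul hs.le, ← ENNReal.ofReal_mul ht.le,
          ← ENNReal.ofReal_add (by positivity) (by positivity)] at h5
        calc F ^ (-s) * ENNReal.ofReal (dX u) ^ s * (G ^ (-t) * ENNReal.ofReal (dY u) ^ t) *
              k (s * X u + t * Y u)
            = (F ^ (-s) * G ^ (-t)) * ((ENNReal.ofReal (dX u) ^ s * ENNReal.ofReal (dY u) ^ t) *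
              k (s * X u + t * Y u)) := by ring
          _ ≤ _ := by gcongr
    _ = (F ^ (-s) * G ^ (-t)) * ∫⁻ u in A, ENNReal.ofReal (s * dX u + t * dY u) * k (s * X u + t * Y u) :=
        lintegral_const_mul' _ _ hc
    _ = (F ^ (-s) * G ^ (-t)) * ∫⁻ x in (fun u => s * X u + t * Y u) '' A, k x := by rw [hcv]
    _ ≤ _ := by
        gcongr
        exact Measure.restrict_le_self

/-- dimension one -/
theorem kn_one {s1 t1 s2 t2 : ℝ} (hs1 : 0 < s1) (ht1 : 0 < t1) (h1 : s1 + t1 = 1) (hs2 : 0 < s2)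
    (ht2 : 0 < t2) (h2 : s2 + t2 = 1) (f g k1 k2 : ℝ → ℝ≥0∞) (hf : Measurable f) (hg : Measurable g)
    (hk1 : Measurable k1) (hk2 : Measurable k2)
    (hf0 : ∫⁻ x, f x ≠ 0) (hf1 : ∫⁻ x, f x ≠ ∞) (hg0 : ∫⁻ x, g x ≠ 0) (hg1 : ∫⁻ x, g x ≠ ∞)
    (hc : ∀ x y, f x ≠ 0 → f x ≠ ∞ → g y ≠ 0 → g y ≠ ∞ →
      1 ≤ (f x ^ (-s1) * g y ^ (-t1)) * k1 (s1 * x + t1 * y) +
        (f x ^ (-s2) * g y ^ (-t2)) * k2 (s2 * x + t2 * y)) :
    1 ≤ ((∫⁻ x, f x) ^ (-s1) * (∫⁻ x, g x) ^ (-t1)) * (∫⁻ x, k1 x) +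
      ((∫⁻ x, f x) ^ (-s2) * (∫⁻ x, g x) ^ (-t2)) * ∫⁻ x, k2 x := by
  obtain ⟨X, dX, hX, hgX⟩ := quantile hf hf0 hf1
  obtain ⟨Y, dY, hY, hgY⟩ := quantile hg hg0 hg1
  have hboth := hgX.and hgY
  set N : Set ℝ := {u | ¬ ((u ∈ Ioo (0 : ℝ) 1 → (HasDerivWithinAt X (dX u) (Ioo 0 1) u ∧ 0 < dX u ∧
      f (X u) ≠ 0 ∧ f (X u) ≠ ∞ ∧ ENNReal.ofReal (dX u) * f (X u) = ∫⁻ x, f x)) ∧
      (u ∈ Ioo (0 : ℝ) 1 → (HasDerivWithinAt Y (dY u) (Ioo 0 1) u ∧ 0 < dY u ∧
      g (Y u) ≠ 0 ∧ g (Y u) ≠ ∞ ∧ ENNReal.ofReal (dY u) * g (Y u) = ∫⁻ x, g x)))} with hN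
  have hN0 : volume N = 0 := hboth
  set A : Set ℝ := Ioo 0 1 \ toMeasurable volume N with hA
  have hAm : MeasurableSet A := measurableSet_Ioo.diff (measurableSet_toMeasurable _ _)
  have hAI : A ⊆ Ioo 0 1 := diff_subset
  have hAv : volume A = 1 := by
    rw [hA, measure_diff_null (by rw [measure_toMeasurable, hN0])]
    simp
  have hgood : ∀ u ∈ A, (u ∈ Ioo (0 : ℝ) 1 → (HasDerivWithinAt X (dX u) (Ioo 0 1) u ∧ 0 < dX u ∧
      f (X u) ≠ 0 ∧ f (X u) ≠ ∞ ∧ ENNReal.ofReal (dX u) * f (X u) = ∫⁻ x, f x)) ∧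
      (u ∈ Ioo (0 : ℝ) 1 → (HasDerivWithinAt Y (dY u) (Ioo 0 1) u ∧ 0 < dY u ∧
      g (Y u) ≠ 0 ∧ g (Y u) ≠ ∞ ∧ ENNReal.ofReal (dY u) * g (Y u) = ∫⁻ x, g x)) := by
    intro u hu
    by_contra hc'
    exact hu.2 (subset_toMeasurable _ _ hc')
  have hgX' := fun u (hu : u ∈ A) => (hgood u hu).1 (hAI hu)
  have hgY' := fun u (hu : u ∈ A) => (hgood u hu).2 (hAI hu)
  have T1 := kn_term hs1 ht1 h1 hf0 hf1 hg0 hg1 (k := k1) hAm hAI hX hY hgX' hgY'
  have T2 := kn_term hs2 ht2 h2 hf0 hf1 hg0 hg1 (k := k2) hAm hAI hX hY hgX' hgY'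
  have hXm : AEMeasurable X (volume.restrict A) :=
    (aemeasurable_restrict_of_monotoneOn measurableSet_Ioo hX).mono_set hAI
  have hYm : AEMeasurable Y (volume.restrict A) :=
    (aemeasurable_restrict_of_monotoneOn measurableSet_Ioo hY).mono_set hAI
  refine le_trans ?_ (add_le_add T1 T2)
  rw [← lintegral_add_left']
  · calc (1 : ℝ≥0∞) = ∫⁻ u in A, 1 := by rw [setLIntegral_one, hAv]
      _ ≤ _ := setLIntegral_mono' hAm fun u hu =>
        hc (X u) (Y u) (hgX' u hu).2.2.1 (hgX' u hu).2.2.2.1 (hgY' u hu).2.2.1 (hgY' u hu).2.2.2.1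
  · refine AEMeasurable.mul ?_ ?_
    · exact ((hf.comp_aemeasurable hXm).pow_const _).mul ((hg.comp_aemeasurable hYm).pow_const _)
    · exact hk1.comp_aemeasurable ((hXm.const_mul _).add (hYm.const_mul _))

/-- **The inequality in all dimensions** -/
theorem kn_pi {s1 t1 s2 t2 : ℝ} (hs1 : 0 < s1) (ht1 : 0 < t1) (h1 : s1 + t1 = 1) (hs2 : 0 < s2)
    (ht2 : 0 < t2) (h2 : s2 + t2 = 1) (n : ℕ) :
    ∀ (f g k1 k2 : (Fin n → ℝ) → ℝ≥0∞), Measurable f → Measurable g → Measurable k1 → Measurable k2 →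
    ∫⁻ x, f x ≠ 0 → ∫⁻ x, f x ≠ ∞ → ∫⁻ x, g x ≠ 0 → ∫⁻ x, g x ≠ ∞ →
    (∀ x y, f x ≠ 0 → f x ≠ ∞ → g y ≠ 0 → g y ≠ ∞ →
      1 ≤ (f x ^ (-s1) * g y ^ (-t1)) * k1 (s1 • x + t1 • y) +
        (f x ^ (-s2) * g y ^ (-t2)) * k2 (s2 • x + t2 • y)) →
    1 ≤ ((∫⁻ x, f x) ^ (-s1) * (∫⁻ x, g x) ^ (-t1)) * (∫⁻ x, k1 x) +
      ((∫⁻ x, f x) ^ (-s2) * (∫⁻ x, g x) ^ (-t2)) * ∫⁻ x, k2 x := by
  induction n with
  | zero =>
    intro f g k1 k2 hf hg hk1 hk2 hf0 hf1 hg0 hg1 hc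
    have hv : (volume : Measure (Fin 0 → ℝ)) univ = 1 := by
      simp [volume_pi]
    rw [lintegral_unique, hv, mul_one] at hf0 hf1 hg0 hg1
    rw [lintegral_unique, lintegral_unique, lintegral_unique, lintegral_unique, hv]
    simp only [mul_one]
    have h3 := hc (@default (Fin 0 → ℝ) Unique.instInhabited) (@default (Fin 0 → ℝ) Unique.instInhabited)
      hf0 hf1 hg0 hg1
    have e1 : s1 • (@default (Fin 0 → ℝ) Unique.instInhabited) +
        t1 • (@default (Fin 0 → ℝ) Unique.instInhabited) = (@default (Fin 0 → ℝ) Unique.instInhabited) :=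
      Subsingleton.elim _ _
    have e2 : s2 • (@default (Fin 0 → ℝ) Unique.instInhabited) +
        t2 • (@default (Fin 0 → ℝ) Unique.instInhabited) = (@default (Fin 0 → ℝ) Unique.instInhabited) :=
      Subsingleton.elim _ _
    rw [e1, e2] at h3
    exact h3
  | succ n ih =>
    intro f g k1 k2 hf hg hk1 hk2 hf0 hf1 hg0 hg1 hc
    set e := MeasurableEquiv.piFinSuccAbove (fun _ : Fin (n + 1) => ℝ) 0 with he
    have hvp : MeasurePreserving e volume volume :=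
      volume_preserving_piFinSuccAbove (fun _ : Fin (n + 1) => ℝ) 0
    have hsplit : ∀ u : (Fin (n + 1) → ℝ) → ℝ≥0∞, Measurable u →
        ∫⁻ x, u x = ∫⁻ a : ℝ, ∫⁻ x : Fin n → ℝ, u (e.symm (a, x)) := by
      intro u hu
      rw [← hvp.symm.lintegral_comp hu]
      exact lintegral_prod _ (hu.comp e.symm.measurable).aemeasurable
    have hmid : ∀ (s t a b : ℝ) (x y : Fin n → ℝ),
        s • e.symm (a, x) + t • e.symm (b, y) = e.symm (s * a + t * b, s • x + t • y) := by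
      intro s t a b x y
      funext i
      refine Fin.cases ?_ (fun j => ?_) i
      · simp [he, MeasurableEquiv.piFinSuccAbove]
      · simp [he, MeasurableEquiv.piFinSuccAbove]
    have hm2 : ∀ u : (Fin (n + 1) → ℝ) → ℝ≥0∞, Measurable u →
        Measurable fun a : ℝ => ∫⁻ x : Fin n → ℝ, u (e.symm (a, x)) := by
      intro u hu
      exact (hu.comp e.symm.measurable).lintegral_prod_right'
    have hsec : ∀ (u : (Fin (n + 1) → ℝ) → ℝ≥0∞) (c : ℝ), Measurable u →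
        Measurable fun x : Fin n → ℝ => u (e.symm (c, x)) := by
      intro u c hu
      exact hu.comp (e.symm.measurable.comp measurable_prodMk_left)
    rw [hsplit f hf] at hf0 hf1 ⊢
    rw [hsplit g hg] at hg0 hg1 ⊢
    rw [hsplit k1 hk1, hsplit k2 hk2]
    refine kn_one hs1 ht1 h1 hs2 ht2 h2 _ _ _ _ (hm2 f hf) (hm2 g hg) (hm2 k1 hk1) (hm2 k2 hk2)
      hf0 hf1 hg0 hg1 ?_
    intro a b ha0 ha1 hb0 hb1
    refine ih _ _ _ _ (hsec f a hf) (hsec g b hg) (hsec k1 _ hk1) (hsec k2 _ hk2) ha0 ha1 hb0 hb1 ?_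
    intro x y hx0 hx1 hy0 hy1
    have := hc (e.symm (a, x)) (e.symm (b, y)) hx0 hx1 hy0 hy1
    rwa [hmid, hmid] at this

end Vale.Agent.P245.Q895.Kn
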