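import Vale.Agent.P245.H895.QuadI
import Vale.Agent.P245.H895.QuadJ

/-!
P245, quadratic functionals of log-concave measures (helper895), part K: the reverse Hölder inequality
`E q⁴ ≤ C (E q²)²` for polynomials of degree at most two.
-/

set_option linter.all false

open MeasureTheory Filter Topology Set Metric Matrix
open scoped NNReal ENNReal
open Vale.Agent.P227.M Vale.Agent.P254

namespace Vale.Agent.P245.Q895

variable {n : ℕ} {μ : Measure (E n)}

theorem kn_E {s1 t1 s2 t2 : ℝ} (hs1 : 0 < s1) (ht1 : 0 < t1) (h1 : s1 + t1 = 1) (hs2 : 0 < s2)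
    (ht2 : 0 < t2) (h2 : s2 + t2 = 1) (f g k1 k2 : E n → ℝ≥0∞) (hf : Measurable f) (hg : Measurable g)
    (hk1 : Measurable k1) (hk2 : Measurable k2)
    (hf0 : ∫⁻ x, f x ≠ 0) (hf1 : ∫⁻ x, f x ≠ ∞) (hg0 : ∫⁻ x, g x ≠ 0) (hg1 : ∫⁻ x, g x ≠ ∞)
    (hc : ∀ x y, f x ≠ 0 → f x ≠ ∞ → g y ≠ 0 → g y ≠ ∞ →
      1 ≤ (f x ^ (-s1) * g y ^ (-t1)) * k1 (s1 • x + t1 • y) +
        (f x ^ (-s2) * g y ^ (-t2)) * k2 (s2 • x + t2 • y)) :
    1 ≤ ((∫⁻ x, f x) ^ (-s1) * (∫⁻ x, g x) ^ (-t1)) * (∫⁻ x, k1 x) +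
      ((∫⁻ x, f x) ^ (-s2) * (∫⁻ x, g x) ^ (-t2)) * ∫⁻ x, k2 x := by
  have hvp := PiLp.volume_preserving_toLp (Fin n)
  have e : ∀ u : E n → ℝ≥0∞, Measurable u → ∫⁻ x, u x = ∫⁻ y : Fin n → ℝ, u (WithLp.toLp 2 y) :=
    fun u hu => (hvp.lintegral_comp hu).symm
  rw [e f hf] at hf0 hf1 ⊢
  rw [e g hg] at hg0 hg1 ⊢
  rw [e k1 hk1, e k2 hk2]
  refine Kn.kn_pi hs1 ht1 h1 hs2 ht2 h2 n _ _ _ _ (hf.comp hvp.measurable) (hg.comp hvp.measurable)
    (hk1.comp hvp.measurable) (hk2.comp hvp.measurable) hf0 hf1 hg0 hg1 ?_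
  intro x y hx0 hx1 hy0 hy1
  exact hc (WithLp.toLp 2 x) (WithLp.toLp 2 y) hx0 hx1 hy0 hy1

/-- log-concavity in the multiplicative form -/
theorem lc_mul {ρ : E n → ℝ} (hc : ConcaveOn ℝ {x | 0 < ρ x} (fun x => Real.log (ρ x))) {x y : E n}
    (hx : 0 < ρ x) (hy : 0 < ρ y) {s t : ℝ} (hs : 0 < s) (ht : 0 < t) (hst : s + t = 1) :
    ρ x ^ s * ρ y ^ t ≤ ρ (s • x + t • y) := by
  have h1 : 0 < ρ (s • x + t • y) := hc.1 hx hy hs.le ht.le hst
  have h2 := hc.2 hx hy hs.le ht.le hst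
  simp only [smul_eq_mul] at h2
  rw [← Real.exp_log h1, Real.rpow_def_of_pos hx, Real.rpow_def_of_pos hy, ← Real.exp_add]
  refine Real.exp_le_exp.2 ?_
  linarith

/-- the pointwise inequality, one term -/
theorem term_ge {s t p r z a w : ℝ} (hs : 0 < s) (ht : 0 < t) (hp : 0 < p) (hr : 0 < r)
    (ha : 0 < a) (hz : p ^ s * r ^ t ≤ z) (hw : (a ^ 4) ^ s ≤ w) :
    1 ≤ (ENNReal.ofReal (p * a ^ 4) ^ (-s) * ENNReal.ofReal r ^ (-t)) * (ENNReal.ofReal z * ENNReal.ofReal w) := by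
  have ha4 : 0 < a ^ 4 := by positivity
  have h1 : 0 < p ^ s := Real.rpow_pos_of_pos hp s
  have h2 : 0 < r ^ t := Real.rpow_pos_of_pos hr t
  have h3 : 0 < (a ^ 4) ^ s := Real.rpow_pos_of_pos ha4 s
  have hz0 : 0 < z := lt_of_lt_of_le (by positivity) hz
  have hw0 : 0 < w := lt_of_lt_of_le h3 hw
  rw [ENNReal.ofReal_rpow_of_pos (by positivity), ENNReal.ofReal_rpow_of_pos hr,
    ← ENNReal.ofReal_mul (by positivity), ← ENNReal.ofReal_mul (by positivity),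
    ← ENNReal.ofReal_mul (by positivity), ← ENNReal.ofReal_one]
  refine ENNReal.ofReal_le_ofReal ?_
  rw [Real.rpow_neg (by positivity), Real.rpow_neg hr.le, Real.mul_rpow hp.le ha4.le, ← mul_inv,
    inv_mul_eq_div, one_le_div (by positivity)]
  calc p ^ s * (a ^ 4) ^ s * r ^ t = (p ^ s * r ^ t) * (a ^ 4) ^ s := by ring
    _ ≤ z * w := mul_le_mul hz hw h3.le hz0.le

/-- final numerical step -/
theorem num_end {F G J v : ℝ} (hF : 0 < F) (hG : 1 / 2 ≤ G) (hG1 : G ≤ 1) (hv : 0 ≤ v) (hJ0 : 0 ≤ J)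
    (hJ : J ^ 2 ≤ v)
    (h : 1 ≤ F ^ (-(1 / 4) : ℝ) * G ^ (-(3 / 4) : ℝ) * (17 * J) +
      F ^ (-(1 / 2) : ℝ) * G ^ (-(1 / 2) : ℝ) * (289 * v)) : F ≤ 6250000 * v ^ 2 := by
  have hG0 : 0 < G := by linarith
  obtain ⟨φ, hφ⟩ : ∃ φ : ℝ, φ = F ^ (-(1 / 4) : ℝ) := ⟨_, rfl⟩
  have hφ0 : 0 < φ := hφ ▸ Real.rpow_pos_of_pos hF _
  have e2 : F ^ (-(1 / 2) : ℝ) = φ ^ 2 := by
    rw [hφ, ← Real.rpow_natCast, ← Real.rpow_mul hF.le]
    norm_num
  have e4 : F * φ ^ 4 = 1 := by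
    have : φ ^ 4 = F ^ (-1 : ℝ) := by
      rw [hφ, ← Real.rpow_natCast, ← Real.rpow_mul hF.le]
      norm_num
    rw [this, Real.rpow_neg_one]
    exact mul_inv_cancel₀ hF.ne'
  have g1 : G ^ (-(3 / 4) : ℝ) ≤ 2 := by
    have h1 := Real.rpow_le_rpow_of_exponent_ge hG0 hG1 (show (-1 : ℝ) ≤ -(3 / 4) by norm_num)
    rw [Real.rpow_neg_one] at h1
    have h2 : G⁻¹ ≤ 2 := by
      rw [inv_le_comm₀ hG0 (by norm_num)]
      linarith
    exact h1.trans h2
  have g2 : G ^ (-(1 / 2) : ℝ) ≤ 2 := by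
    have h1 := Real.rpow_le_rpow_of_exponent_ge hG0 hG1 (show (-1 : ℝ) ≤ -(1 / 2) by norm_num)
    rw [Real.rpow_neg_one] at h1
    have h2 : G⁻¹ ≤ 2 := by
      rw [inv_le_comm₀ hG0 (by norm_num)]
      linarith
    exact h1.trans h2
  rw [← hφ, e2] at h
  have h3 : φ * G ^ (-(3 / 4) : ℝ) * (17 * J) ≤ 34 * (φ * J) := by
    have : φ * G ^ (-(3 / 4) : ℝ) * (17 * J) = G ^ (-(3 / 4) : ℝ) * (17 * (φ * J)) := by ring
    rw [this]
    have h5 : 0 ≤ φ * J := by positivity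
    nlinarith
  have h4 : φ ^ 2 * G ^ (-(1 / 2) : ℝ) * (289 * v) ≤ 578 * (φ ^ 2 * v) := by
    have : φ ^ 2 * G ^ (-(1 / 2) : ℝ) * (289 * v) = G ^ (-(1 / 2) : ℝ) * (289 * (φ ^ 2 * v)) := by ring
    rw [this]
    have h5 : 0 ≤ φ ^ 2 * v := by positivity
    nlinarith
  -- `w = φ √v`
  obtain ⟨w, hw⟩ : ∃ w : ℝ, w = φ * Real.sqrt v := ⟨_, rfl⟩
  have hw0 : 0 ≤ w := hw ▸ by positivity
  have hJs : J ≤ Real.sqrt v := Real.le_sqrt_of_sq_le hJ
  have hw1 : φ * J ≤ w := by rw [hw]; exact mul_le_mul_of_nonneg_left hJs hφ0.le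
  have hw2 : φ ^ 2 * v = w ^ 2 := by rw [hw, mul_pow, Real.sq_sqrt hv]
  have h6 : 1 ≤ 34 * w + 578 * w ^ 2 := by
    rw [hw2] at h4
    linarith
  have h7 : 1 / 50 ≤ w := by
    by_contra hc
    push Not at hc
    nlinarith
  have h8 : (1 / 50) ^ 4 ≤ w ^ 4 := pow_le_pow_left₀ (by norm_num) h7 4
  have h9 : w ^ 4 = φ ^ 4 * v ^ 2 := by
    have : w ^ 4 = (w ^ 2) ^ 2 := by ring
    rw [this, ← hw2]
    ring
  rw [h9] at h8
  have h10 : F * (1 / 50) ^ 4 ≤ F * (φ ^ 4 * v ^ 2) := mul_le_mul_of_nonneg_left h8 hF.le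
  have h11 : F * (φ ^ 4 * v ^ 2) = v ^ 2 := by rw [← mul_assoc, e4, one_mul]
  rw [h11] at h10
  nlinarith

/-- **Reverse Hölder inequality** for polynomials of degree at most two -/
theorem rev4 [IsProbabilityMeasure μ] (hlc : HasLogConcaveDensity μ) {q : E n → ℝ} (hq : Gr q)
    (hid : ∀ x y, q x = 3 * q y - 8 * q ((1 / 4 : ℝ) • x + (3 / 4 : ℝ) • y) +
      6 * q ((1 / 2 : ℝ) • x + (1 / 2 : ℝ) • y)) :
    ∫ x, q x ^ 4 ∂μ ≤ 6250578 * (∫ x, q x ^ 2 ∂μ) ^ 2 := by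
  have hqm : Measurable q := hq.1.measurable
  have i2 : Integrable (fun x => q x ^ 2) μ := int_gr hlc (hq.pow 2)
  have i4 : Integrable (fun x => q x ^ 4) μ := int_gr hlc (hq.pow 4)
  have i1 : Integrable (fun x => |q x|) μ := (int_gr hlc hq).abs
  obtain ⟨v, hv⟩ : ∃ v, v = ∫ x, q x ^ 2 ∂μ := ⟨_, rfl⟩
  rw [← hv]
  have hv0 : 0 ≤ v := hv ▸ integral_nonneg fun x => sq_nonneg _
  rcases hv0.eq_or_lt with hv1 | hv1
  · have h1 : (fun x => q x ^ 2) =ᵐ[μ] 0 :=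
      (integral_eq_zero_iff_of_nonneg (fun x => sq_nonneg _) i2).1 (hv ▸ hv1.symm)
    have h2 : ∫ x, q x ^ 4 ∂μ = 0 := by
      rw [integral_congr_ae (g := fun _ => (0 : ℝ))]
      · simp
      · filter_upwards [h1] with x hx
        have : q x ^ 2 = 0 := hx
        calc q x ^ 4 = (q x ^ 2) ^ 2 := by ring
          _ = 0 := by rw [this]; ring
    rw [h2]
    positivity
  obtain ⟨ρ, hρm, hρ0, hconc, hμ⟩ := hlc
  have hlc' : HasLogConcaveDensity μ := ⟨ρ, hρm, hρ0, hconc, hμ⟩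
  set A : Set (E n) := {x | q x ^ 2 ≤ 2 * v} with hA
  set B : Set (E n) := {x | 578 * v < q x ^ 2} with hB
  have hAm : MeasurableSet A := measurableSet_le (hqm.pow_const 2) measurable_const
  have hBm : MeasurableSet B := measurableSet_lt measurable_const (hqm.pow_const 2)
  have hlin : ∀ u : E n → ℝ≥0∞, Measurable u →
      ∫⁻ x, ENNReal.ofReal (ρ x) * u x = ∫⁻ x, u x ∂μ := by
    intro u hu
    rw [hμ, lintegral_withDensity_eq_lintegral_mul _ hρm.ennreal_ofReal hu]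
    rfl
  -- the mass of `A`
  have hGA : 1 / 2 ≤ μ.real A := by
    have h1 : ∫ x, Aᶜ.indicator (fun _ => 2 * v) x ∂μ ≤ ∫ x, q x ^ 2 ∂μ := by
      refine integral_mono ((integrable_const _).indicator hAm.compl) i2 fun x => ?_
      by_cases hx : x ∈ Aᶜ
      · rw [indicator_of_mem hx]
        have : ¬ q x ^ 2 ≤ 2 * v := hx
        push Not at this
        exact this.le
      · rw [indicator_of_notMem hx]
        exact sq_nonneg _
    rw [integral_indicator hAm.compl, setIntegral_const, smul_eq_mul, ← hv] at h1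
    have h2 : μ.real Aᶜ ≤ 1 / 2 := by
      by_contra hc
      push Not at hc
      nlinarith
    have h3 : μ.real Aᶜ = 1 - μ.real A := probReal_compl_eq_one_sub hAm
    linarith
  have hGA1 : μ.real A ≤ 1 := measureReal_le_one
  -- the part of the fourth moment outside `B`
  have hsplit : ∫ x, q x ^ 4 ∂μ = (∫ x in B, q x ^ 4 ∂μ) + ∫ x in Bᶜ, q x ^ 4 ∂μ :=
    (integral_add_compl hBm i4).symm
  have hout : ∫ x in Bᶜ, q x ^ 4 ∂μ ≤ 578 * v ^ 2 := by
    have h1 : ∫ x in Bᶜ, q x ^ 4 ∂μ ≤ ∫ x in Bᶜ, (578 * v) * q x ^ 2 ∂μ := by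
      refine setIntegral_mono_on i4.integrableOn (i2.const_mul _).integrableOn hBm.compl fun x hx => ?_
      have h2 : ¬ 578 * v < q x ^ 2 := hx
      push Not at h2
      have h3 := sq_nonneg (q x)
      calc q x ^ 4 = q x ^ 2 * q x ^ 2 := by ring
        _ ≤ (578 * v) * q x ^ 2 := mul_le_mul_of_nonneg_right h2 h3
    have h4 : ∫ x in Bᶜ, (578 * v) * q x ^ 2 ∂μ ≤ ∫ x, (578 * v) * q x ^ 2 ∂μ :=
      setIntegral_le_integral (i2.const_mul _) (Eventually.of_forall fun x => by positivity)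
    have h5 : ∫ x, (578 * v) * q x ^ 2 ∂μ = 578 * v * v := by rw [integral_const_mul, ← hv]
    rw [h5] at h4
    calc _ ≤ _ := h1
      _ ≤ _ := h4
      _ = _ := by ring
  have hF0 : 0 ≤ ∫ x in B, q x ^ 4 ∂μ := setIntegral_nonneg hBm fun x _ => by positivity
  suffices hmain : ∫ x in B, q x ^ 4 ∂μ ≤ 6250000 * v ^ 2 by
    rw [hsplit]
    linarith
  rcases hF0.eq_or_lt with hF1 | hF1
  · rw [← hF1]
    positivity
  -- the densities
  set uf : E n → ℝ≥0∞ := B.indicator (fun x => ENNReal.ofReal (q x ^ 4)) with huf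
  set ug : E n → ℝ≥0∞ := A.indicator 1 with hug
  set k1 : E n → ℝ≥0∞ := fun x => ENNReal.ofReal (17 * |q x|) with hk1
  set k2 : E n → ℝ≥0∞ := fun x => ENNReal.ofReal (289 * q x ^ 2) with hk2
  have hufm : Measurable uf := ((hqm.pow_const 4).ennreal_ofReal).indicator hBm
  have hugm : Measurable ug := measurable_one.indicator hAm
  have hk1m : Measurable k1 := (hqm.abs.const_mul 17).ennreal_ofReal
  have hk2m : Measurable k2 := ((hqm.pow_const 2).const_mul 289).ennreal_ofReal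
  have Ef : ∫⁻ x, ENNReal.ofReal (ρ x) * uf x = ENNReal.ofReal (∫ x in B, q x ^ 4 ∂μ) := by
    rw [hlin uf hufm, huf, lintegral_indicator hBm,
      ← ofReal_integral_eq_lintegral_ofReal i4.integrableOn (Eventually.of_forall fun x => by positivity)]
  have Eg : ∫⁻ x, ENNReal.ofReal (ρ x) * ug x = ENNReal.ofReal (μ.real A) := by
    rw [hlin ug hugm, hug, lintegral_indicator_one hAm, ofReal_measureReal]
  have E1 : ∫⁻ x, ENNReal.ofReal (ρ x) * k1 x = ENNReal.ofReal (17 * ∫ x, |q x| ∂μ) := by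
    rw [hlin k1 hk1m, hk1, ← integral_const_mul, ← ofReal_integral_eq_lintegral_ofReal (i1.const_mul _)
      (Eventually.of_forall fun x => by positivity)]
  have E2 : ∫⁻ x, ENNReal.ofReal (ρ x) * k2 x = ENNReal.ofReal (289 * v) := by
    rw [hlin k2 hk2m, hk2, hv, ← integral_const_mul, ← ofReal_integral_eq_lintegral_ofReal (i2.const_mul _)
      (Eventually.of_forall fun x => by positivity)]
  have hGp : 0 < μ.real A := by linarith
  have hρe : Measurable fun x => ENNReal.ofReal (ρ x) := hρm.ennreal_ofReal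
  have key := kn_E (s1 := 1 / 4) (t1 := 3 / 4) (s2 := 1 / 2) (t2 := 1 / 2) (by norm_num) (by norm_num)
    (by norm_num) (by norm_num) (by norm_num) (by norm_num)
    (fun x => ENNReal.ofReal (ρ x) * uf x) (fun x => ENNReal.ofReal (ρ x) * ug x)
    (fun x => ENNReal.ofReal (ρ x) * k1 x) (fun x => ENNReal.ofReal (ρ x) * k2 x)
    (hρe.mul hufm) (hρe.mul hugm) (hρe.mul hk1m) (hρe.mul hk2m)
    (by rw [Ef]; exact (ENNReal.ofReal_pos.2 hF1).ne') (by rw [Ef]; exact ENNReal.ofReal_ne_top)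
    (by rw [Eg]; exact (ENNReal.ofReal_pos.2 hGp).ne') (by rw [Eg]; exact ENNReal.ofReal_ne_top) ?_
  · rw [Ef, Eg, E1, E2] at key
    have hJ0 : 0 ≤ ∫ x, |q x| ∂μ := integral_nonneg fun x => abs_nonneg _
    rw [ENNReal.ofReal_rpow_of_pos hF1, ENNReal.ofReal_rpow_of_pos hF1, ENNReal.ofReal_rpow_of_pos hGp,
      ENNReal.ofReal_rpow_of_pos hGp, ← ENNReal.ofReal_mul (by positivity), ← ENNReal.ofReal_mul (by positivity),
      ← ENNReal.ofReal_mul (by positivity), ← ENNReal.ofReal_mul (by positivity),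
      ← ENNReal.ofReal_add (by positivity) (by positivity), ← ENNReal.ofReal_one] at key
    have key' := (ENNReal.ofReal_le_ofReal_iff (by positivity)).1 key
    refine num_end hF1 hGA hGA1 hv0 hJ0 ?_ key'
    have hcs := cs_int (μ := μ) (f := fun x => |q x|) (g := fun _ => (1 : ℝ)) (by simpa using i2) (by simp)
      (by simpa using i1)
    simp only [mul_one, sq_abs, one_pow] at hcs
    rw [integral_const] at hcs
    simpa [← hv] using hcs
  · intro x y hfx hfx' hgy hgy'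
    have hx1 : ENNReal.ofReal (ρ x) ≠ 0 := left_ne_zero_of_mul hfx
    have hx2 : uf x ≠ 0 := right_ne_zero_of_mul hfx
    have hy1 : ENNReal.ofReal (ρ y) ≠ 0 := left_ne_zero_of_mul hgy
    have hy2 : ug y ≠ 0 := right_ne_zero_of_mul hgy
    have hρx : 0 < ρ x := by simpa using hx1
    have hρy : 0 < ρ y := by simpa using hy1
    have hxB : x ∈ B := by
      by_contra hc
      exact hx2 (indicator_of_notMem hc _)
    have hyA : y ∈ A := by
      by_contra hc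
      exact hy2 (indicator_of_notMem hc _)
    have hxB' : 578 * v < q x ^ 2 := hxB
    have hyA' : q y ^ 2 ≤ 2 * v := hyA
    have efx : ENNReal.ofReal (ρ x) * uf x = ENNReal.ofReal (ρ x * |q x| ^ 4) := by
      rw [huf, indicator_of_mem hxB, ← ENNReal.ofReal_mul hρx.le]
      congr 2
      rw [← abs_pow, abs_of_nonneg (by positivity)]
    have egy : ENNReal.ofReal (ρ y) * ug y = ENNReal.ofReal (ρ y) := by
      rw [hug, indicator_of_mem hyA]
      simp
    show 1 ≤ ((ENNReal.ofReal (ρ x) * uf x) ^ (-(1 / 4) : ℝ) * (ENNReal.ofReal (ρ y) * ug y) ^ (-(3 / 4) : ℝ)) * _ +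
      ((ENNReal.ofReal (ρ x) * uf x) ^ (-(1 / 2) : ℝ) * (ENNReal.ofReal (ρ y) * ug y) ^ (-(1 / 2) : ℝ)) * _
    rw [efx, egy]
    have hax : 0 < |q x| := by
      rw [abs_pos]
      intro h0
      rw [h0] at hxB'
      nlinarith
    have hyx : 17 * |q y| ≤ |q x| := by
      rw [← abs_of_nonneg (show (0 : ℝ) ≤ 17 * |q y| by positivity)]
      refine sq_le_sq.1 ?_ |>.trans (abs_abs _).le
      rw [mul_pow, sq_abs, sq_abs]
      nlinarith
    have hid' := hid x y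
    obtain ⟨z1, hz1⟩ : ∃ z, z = (1 / 4 : ℝ) • x + (3 / 4 : ℝ) • y := ⟨_, rfl⟩
    obtain ⟨z2, hz2⟩ : ∃ z, z = (1 / 2 : ℝ) • x + (1 / 2 : ℝ) • y := ⟨_, rfl⟩
    rw [← hz1, ← hz2] at hid' ⊢
    have hcase : |q x| ≤ 17 * |q z1| ∨ |q x| ≤ 17 * |q z2| := by
      by_contra hc
      push Not at hc
      obtain ⟨hc1, hc2⟩ := hc
      have h3 : |q x| ≤ 3 * |q y| + 8 * |q z1| + 6 * |q z2| := by
        rw [hid']
        refine (abs_add_le _ _).trans ?_
        refine add_le_add ((abs_sub _ _).trans ?_) ?_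
        · rw [abs_mul, abs_mul, abs_of_pos (show (0 : ℝ) < 3 by norm_num),
            abs_of_pos (show (0 : ℝ) < 8 by norm_num)]
        · rw [abs_mul, abs_of_pos (show (0 : ℝ) < 6 by norm_num)]
      linarith
    rcases hcase with h4 | h4
    · refine le_trans ?_ le_self_add
      refine term_ge (by norm_num) (by norm_num) hρx hρy hax ?_ ?_
      · rw [hz1]
        exact lc_mul hconc hρx hρy (by norm_num) (by norm_num) (by norm_num)
      · have : (|q x| ^ 4) ^ (1 / 4 : ℝ) = |q x| := by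
          rw [← Real.rpow_natCast, ← Real.rpow_mul (abs_nonneg _)]
          norm_num
        rw [this]
        exact h4
    · refine le_trans ?_ le_add_self
      refine term_ge (by norm_num) (by norm_num) hρx hρy hax ?_ ?_
      · rw [hz2]
        exact lc_mul hconc hρx hρy (by norm_num) (by norm_num) (by norm_num)
      · have : (|q x| ^ 4) ^ (1 / 2 : ℝ) = |q x| ^ 2 := by
          rw [← Real.rpow_natCast, ← Real.rpow_mul (abs_nonneg _), ← Real.rpow_natCast]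
          norm_num
        rw [this]
        have h5 := pow_le_pow_left₀ (abs_nonneg _) h4 2
        rw [mul_pow, sq_abs (q z2)] at h5
        norm_num at h5
        rw [sq_abs]
        exact h5

end Vale.Agent.P245.Q895
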