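import Vale.Agent.P245.H895.QuadK

/-!
P245, quadratic functionals of log-concave measures (helper895), part L: the logarithmic Sobolev inequality
for all polynomials of degree at most two.
-/

set_option linter.all false

open MeasureTheory Filter Topology Set Metric Matrix
open scoped NNReal ENNReal
open Vale.Agent.P227.M Vale.Agent.P254

namespace Vale.Agent.P245.Q895

variable {n : ℕ} {μ : Measure (E n)}

theorem ylog_le {y c : ℝ} (hy : 0 ≤ y) (hc : 0 < c) : y * Real.log y ≤ y * Real.log c + y * (y / c - 1) := by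
  rcases hy.eq_or_lt with h | h
  · rw [← h]; simp
  · have h1 := Real.log_le_sub_one_of_pos (div_pos h hc)
    rw [Real.log_div h.ne' hc.ne'] at h1
    nlinarith

/-- the pointwise inequality -/
theorem ent_pt {m g v : ℝ} (hv : 0 < v) :
    (m + g) ^ 2 * Real.log ((m + g) ^ 2) - (m + g) ^ 2 * Real.log (m ^ 2 + v) - (m + g) ^ 2 + (m ^ 2 + v) ≤
      175 * g ^ 2 + 3 * v + (81 / Real.exp 18) * (g ^ 4 / v) := by
  obtain ⟨S, hS⟩ : ∃ S, S = m ^ 2 + v := ⟨_, rfl⟩
  obtain ⟨y, hy⟩ : ∃ y, y = (m + g) ^ 2 := ⟨_, rfl⟩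
  rw [← hS, ← hy]
  have hy0 : 0 ≤ y := hy ▸ sq_nonneg _
  have hS0 : 0 < S := by rw [hS]; positivity
  have hE : 0 < Real.exp 18 := Real.exp_pos _
  have hg4 : 0 ≤ g ^ 4 / v := by positivity
  have hlast : 0 ≤ (81 / Real.exp 18) * (g ^ 4 / v) := by positivity
  rcases le_or_gt (4 * g ^ 2) (m ^ 2) with h | h
  · have h1 := ylog_le hy0 hS0
    have h2 : y * (y / S - 1) - y + S = (y - S) ^ 2 / S := by
      field_simp
      ring
    have h3 : (y - S) ^ 2 ≤ (13 * g ^ 2 + 3 * v) * S := by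
      have e : y - S = 2 * m * g + g ^ 2 - v := by rw [hy, hS]; ring
      rw [e, hS]
      have h4 : (2 * m * g + g ^ 2 - v) ^ 2 ≤ 3 * (4 * m ^ 2 * g ^ 2 + g ^ 4 + v ^ 2) := by
        nlinarith [sq_nonneg (2 * m * g - g ^ 2), sq_nonneg (2 * m * g + v), sq_nonneg (g ^ 2 + v)]
      have h5 : g ^ 2 * (4 * g ^ 2) ≤ g ^ 2 * m ^ 2 := mul_le_mul_of_nonneg_left h (sq_nonneg g)
      nlinarith [mul_nonneg (sq_nonneg g) hv.le, mul_nonneg (sq_nonneg m) hv.le]
    have h6 : (y - S) ^ 2 / S ≤ 13 * g ^ 2 + 3 * v := by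
      rw [div_le_iff₀ hS0]
      exact h3
    nlinarith [sq_nonneg g]
  · have hkv : 0 < Real.exp 18 * v := by positivity
    have h1 := ylog_le hy0 hkv
    rw [Real.log_mul hE.ne' hv.ne', Real.log_exp] at h1
    have h2 : Real.log v ≤ Real.log S := Real.log_le_log hv (by rw [hS]; nlinarith [sq_nonneg m])
    have h3 : y * Real.log v ≤ y * Real.log S := mul_le_mul_of_nonneg_left h2 hy0
    have h4 : y ≤ 9 * g ^ 2 := by
      rw [hy]
      have h5 : m * g ≤ 2 * g ^ 2 := by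
        by_contra hc
        push Not at hc
        have : (2 * g ^ 2) ^ 2 < (m * g) ^ 2 := by
          apply sq_lt_sq'
          · nlinarith [sq_nonneg g]
          · exact hc
        nlinarith [sq_nonneg g, mul_le_mul_of_nonneg_left h.le (sq_nonneg g)]
      nlinarith
    have h6 : y * (y / (Real.exp 18 * v)) ≤ (81 / Real.exp 18) * (g ^ 4 / v) := by
      have e1 : y * (y / (Real.exp 18 * v)) = y ^ 2 / (Real.exp 18 * v) := by ring
      have e2 : (81 / Real.exp 18) * (g ^ 4 / v) = (9 * g ^ 2) ^ 2 / (Real.exp 18 * v) := by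
        field_simp
        ring
      rw [e1, e2]
      exact div_le_div_of_nonneg_right (pow_le_pow_left₀ hy0 h4 2) hkv.le
    have h7 : S ≤ 4 * g ^ 2 + v := by rw [hS]; linarith
    nlinarith [sq_nonneg g]

theorem ylog_abs {y : ℝ} (hy : 0 ≤ y) : |y * Real.log y| ≤ 1 + y ^ 2 := by
  rcases hy.eq_or_lt with h | h
  · rw [← h]; simp
  · rw [abs_le]
    constructor
    · have h1 := Real.log_le_sub_one_of_pos (inv_pos.2 h)
      rw [Real.log_inv] at h1
      have h2 : y * -Real.log y ≤ y * (y⁻¹ - 1) := mul_le_mul_of_nonneg_left h1 hy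
      have h3 : y * (y⁻¹ - 1) = 1 - y := by field_simp
      rw [h3] at h2
      nlinarith [sq_nonneg y]
    · have h1 := Real.log_le_sub_one_of_pos h
      nlinarith [sq_nonneg y]

theorem exp18 : (81 / Real.exp 18) * 6250578 ≤ 8 := by
  have h1 : (2.718 : ℝ) ^ 18 ≤ Real.exp 18 := by
    have h2 : Real.exp 18 = Real.exp 1 ^ 18 := by
      rw [← Real.exp_nat_mul]
      norm_num
    rw [h2]
    have := Real.exp_one_gt_d9
    exact pow_le_pow_left₀ (by norm_num) (by linarith) 18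
  have h3 : (81 * 6250578 / 8 : ℝ) ≤ (2.718 : ℝ) ^ 18 := by norm_num
  have h4 : 0 < Real.exp 18 := Real.exp_pos _
  rw [div_mul_eq_mul_div, div_le_iff₀ h4]
  linarith

/-- entropy is bounded by the variance -/
theorem ent_le [IsProbabilityMeasure μ] (hlc : HasLogConcaveDensity μ) {f : E n → ℝ} (hf : Gr f)
    (h4 : ∫ x, (f x - ∫ y, f y ∂μ) ^ 4 ∂μ ≤ 6250578 * (∫ x, (f x - ∫ y, f y ∂μ) ^ 2 ∂μ) ^ 2) :
    Entropy μ (fun x => f x ^ 2) ≤ 186 * ((∫ x, f x ^ 2 ∂μ) - (∫ x, f x ∂μ) ^ 2) := by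
  have hvar := var_eq hlc hf
  rw [← hvar]
  obtain ⟨m, hm⟩ : ∃ m, m = ∫ y, f y ∂μ := ⟨_, rfl⟩
  rw [← hm] at h4 hvar ⊢
  obtain ⟨v, hv⟩ : ∃ v, v = ∫ x, (f x - m) ^ 2 ∂μ := ⟨_, rfl⟩
  rw [← hv] at h4 hvar ⊢
  have hgG : Gr (fun x => f x - m) := hf.sub (Gr.const _)
  have hg2 : Integrable (fun x => (f x - m) ^ 2) μ := int_gr hlc (hgG.pow 2)
  have hg4 : Integrable (fun x => (f x - m) ^ 4) μ := int_gr hlc (hgG.pow 4)
  have hf2 : Integrable (fun x => f x ^ 2) μ := int_gr hlc (hf.pow 2)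
  have hf4 : Integrable (fun x => f x ^ 4) μ := int_gr hlc (hf.pow 4)
  have hv0 : 0 ≤ v := hv ▸ integral_nonneg fun x => sq_nonneg _
  have hS : ∫ x, f x ^ 2 ∂μ = m ^ 2 + v := by linarith
  rcases hv0.eq_or_lt with h0 | h0
  · have h1 : (fun x => (f x - m) ^ 2) =ᵐ[μ] 0 :=
      (integral_eq_zero_iff_of_nonneg (fun x => sq_nonneg _) hg2).1 (hv ▸ h0.symm)
    have h2 : ∀ᵐ x ∂μ, f x = m := by
      filter_upwards [h1] with x hx
      have : (f x - m) ^ 2 = 0 := hx
      have := pow_eq_zero_iff (two_ne_zero) |>.1 this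
      linarith
    have h3 : ∫ x, f x ^ 2 * Real.log (f x ^ 2) ∂μ = m ^ 2 * Real.log (m ^ 2) := by
      rw [integral_congr_ae (g := fun _ => m ^ 2 * Real.log (m ^ 2))]
      · simp
      · filter_upwards [h2] with x hx
        rw [hx]
    unfold Entropy
    rw [h3, hS, ← h0]
    simp
  have hyl : Integrable (fun x => f x ^ 2 * Real.log (f x ^ 2)) μ := by
    have hc : Continuous (fun x => f x ^ 2 * Real.log (f x ^ 2)) :=
      Real.continuous_mul_log.comp (hf.1.pow 2)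
    refine ((integrable_const (1 : ℝ)).add hf4).mono' hc.aestronglyMeasurable (Eventually.of_forall fun x => ?_)
    have := ylog_abs (sq_nonneg (f x))
    rw [Real.norm_eq_abs]
    refine this.trans (le_of_eq ?_)
    simp only [Pi.add_apply]
    ring
  have hc1 : Integrable (fun x => f x ^ 2 * Real.log (m ^ 2 + v)) μ := hf2.mul_const _
  have hL : Integrable (fun x => f x ^ 2 * Real.log (f x ^ 2) - f x ^ 2 * Real.log (m ^ 2 + v)) μ := hyl.sub hc1
  have hL2 : Integrable (fun x => f x ^ 2 * Real.log (f x ^ 2) - f x ^ 2 * Real.log (m ^ 2 + v) - f x ^ 2) μ :=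
    hL.sub hf2
  have hEnt : Entropy μ (fun x => f x ^ 2) =
      ∫ x, (f x ^ 2 * Real.log (f x ^ 2) - f x ^ 2 * Real.log (m ^ 2 + v) - f x ^ 2 + (m ^ 2 + v)) ∂μ := by
    rw [integral_add hL2 (integrable_const _), integral_sub hL hf2, integral_sub hyl hc1,
      integral_mul_const, integral_const, hS]
    unfold Entropy
    rw [hS]
    simp
  rw [hEnt]
  have r1 : Integrable (fun x => 175 * (f x - m) ^ 2) μ := hg2.const_mul _
  have r2 : Integrable (fun x => 175 * (f x - m) ^ 2 + 3 * v) μ := r1.add (integrable_const _)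
  have r3 : Integrable (fun x => (81 / Real.exp 18) * ((f x - m) ^ 4 / v)) μ := (hg4.div_const _).const_mul _
  have hle : ∫ x, (f x ^ 2 * Real.log (f x ^ 2) - f x ^ 2 * Real.log (m ^ 2 + v) - f x ^ 2 + (m ^ 2 + v)) ∂μ ≤
      ∫ x, (175 * (f x - m) ^ 2 + 3 * v + (81 / Real.exp 18) * ((f x - m) ^ 4 / v)) ∂μ := by
    refine integral_mono (hL2.add (integrable_const _)) (r2.add r3) fun x => ?_
    have := ent_pt (m := m) (g := f x - m) h0
    rw [show m + (f x - m) = f x by ring] at this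
    exact this
  have q1 : ∫ x, 175 * (f x - m) ^ 2 ∂μ = 175 * v := by rw [integral_const_mul, ← hv]
  have q2 : ∫ _, 3 * v ∂μ = 3 * v := by rw [integral_const]; simp
  have q3 : ∫ x, (81 / Real.exp 18) * ((f x - m) ^ 4 / v) ∂μ =
      (81 / Real.exp 18) * ((∫ x, (f x - m) ^ 4 ∂μ) / v) := by rw [integral_const_mul, integral_div]
  rw [integral_add r2 r3, integral_add r1 (integrable_const _), q1, q2, q3] at hle
  have h5 : (81 / Real.exp 18) * ((∫ x, (f x - m) ^ 4 ∂μ) / v) ≤ 8 * v := by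
    have h6 : (∫ x, (f x - m) ^ 4 ∂μ) / v ≤ 6250578 * v := by
      rw [div_le_iff₀ h0]
      calc _ ≤ _ := h4
        _ = _ := by ring
    have h7 : 0 ≤ 81 / Real.exp 18 := by positivity
    calc _ ≤ (81 / Real.exp 18) * (6250578 * v) := mul_le_mul_of_nonneg_left h6 h7
      _ = ((81 / Real.exp 18) * 6250578) * v := by ring
      _ ≤ 8 * v := mul_le_mul_of_nonneg_right exp18 hv0
  linarith

/-- the three point identity for polynomials of degree at most two -/
theorem qpoly_three (T : Matrix (Fin n) (Fin n) ℝ) (c : Fin n → ℝ) (d : ℝ) (x y : E n) :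
    qpoly T c d x = 3 * qpoly T c d y - 8 * qpoly T c d ((1 / 4 : ℝ) • x + (3 / 4 : ℝ) • y) +
      6 * qpoly T c d ((1 / 2 : ℝ) • x + (1 / 2 : ℝ) • y) := by
  have e1 : ∀ (s t : ℝ) (i : Fin n), (s • x + t • y) i = s * x i + t * y i := fun s t i => rfl
  unfold qpoly
  simp only [e1]
  have h1 : ∑ i, ∑ j, T i j * (x i * x j) = 3 * (∑ i, ∑ j, T i j * (y i * y j)) -
      8 * (∑ i, ∑ j, T i j * ((1 / 4 * x i + 3 / 4 * y i) * (1 / 4 * x j + 3 / 4 * y j))) +
      6 * (∑ i, ∑ j, T i j * ((1 / 2 * x i + 1 / 2 * y i) * (1 / 2 * x j + 1 / 2 * y j))) -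
      (∑ i, ∑ j, T i j * 0) := by
    simp only [Finset.mul_sum, ← Finset.sum_add_distrib, ← Finset.sum_sub_distrib]
    exact Finset.sum_congr rfl fun i _ => Finset.sum_congr rfl fun j _ => by ring
  have h2 : ∑ i, c i * x i = 3 * (∑ i, c i * y i) - 8 * (∑ i, c i * (1 / 4 * x i + 3 / 4 * y i)) +
      6 * (∑ i, c i * (1 / 2 * x i + 1 / 2 * y i)) := by
    simp only [Finset.mul_sum, ← Finset.sum_add_distrib, ← Finset.sum_sub_distrib]
    exact Finset.sum_congr rfl fun i _ => by ring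
  rw [h1, h2]
  simp
  ring

/-- **Entropy of quadratic polynomials**: `Ent(f²) ≤ 186 Var f` -/
theorem ent_qpoly [IsProbabilityMeasure μ] (hlc : HasLogConcaveDensity μ) (T : Matrix (Fin n) (Fin n) ℝ)
    (c : Fin n → ℝ) (d : ℝ) :
    Entropy μ (fun x => qpoly T c d x ^ 2) ≤
      186 * ((∫ x, qpoly T c d x ^ 2 ∂μ) - (∫ x, qpoly T c d x ∂μ) ^ 2) := by
  refine ent_le hlc (gr_qpoly T c d) ?_
  refine rev4 hlc ((gr_qpoly T c d).sub (Gr.const _)) fun x y => ?_
  have := qpoly_three T c d x y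
  rw [this]
  ring

end Vale.Agent.P245.Q895
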