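import Vale.Agent.P245.H895.QuadL

/-!
P245, quadratic functionals of log-concave measures (helper895), part M: the affine invariant Poincaré and
logarithmic Sobolev inequalities for all polynomials of degree at most two.
-/

set_option linter.all false

open MeasureTheory Filter Topology Set Metric Matrix
open scoped NNReal ENNReal
open Vale.Agent.P227.M Vale.Agent.P254

namespace Vale.Agent.P245.Q895

variable {n : ℕ} {μ : Measure (E n)}

section
variable [IsProbabilityMeasure μ] (hlc : HasLogConcaveDensity μ)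
  {b : Fin n → ℝ} (hb : ∀ i, ∫ x, x i ∂μ = b i)
  {K : Matrix (Fin n) (Fin n) ℝ} (hK : ∀ i j, ∫ x, (x i - b i) * (x j - b j) ∂μ = K i j)

include hlc hK hb

/-- mean of the gradient form in the metric of the covariance matrix -/
theorem gradK_qpoly {T : Matrix (Fin n) (Fin n) ℝ} (hT : Tᵀ = T) (c : Fin n → ℝ) (d : ℝ) :
    ∫ x, ∑ i, ∑ j, K i j * (gradient (qpoly T c d) x i * gradient (qpoly T c d) x j) ∂μ =
      4 * (T * K * T * K).trace + (fun i => c i + 2 * ∑ j, T i j * b j) ⬝ᵥ
        (K *ᵥ fun i => c i + 2 * ∑ j, T i j * b j) := by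
  have hsym : ∀ i j, T i j = T j i := fun i j => by
    conv_lhs => rw [← hT]
    rfl
  obtain ⟨w, hw⟩ : ∃ w : Fin n → ℝ, w = fun i => c i + 2 * ∑ j, T i j * b j := ⟨_, rfl⟩
  rw [← hw]
  have e : ∀ (x : E n) i, gradient (qpoly T c d) x i = 2 * ∑ j, T i j * (x j - b j) + w i := by
    intro x i
    rw [grad_coord, pd_qpoly hT, hw]
    have : ∑ j, T i j * (x j - b j) = ∑ j, T i j * x j - ∑ j, T i j * b j := by
      rw [← Finset.sum_sub_distrib]
      exact Finset.sum_congr rfl fun j _ => by ring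
    rw [this]
    ring
  have hl : ∀ i, Gr (fun x : E n => ∑ j, T i j * (x j - b j)) := fun i => gr_lin b (fun j => T i j)
  have hl2 : ∀ i, Gr (fun x : E n => 2 * ∑ j, T i j * (x j - b j) + w i) := fun i =>
    ((hl i).const_mul _).add (Gr.const _)
  simp only [e]
  refine (int_dbl_aux (c := fun i j => K i j)
    (G := fun i j x => (2 * ∑ k, T i k * (x k - b k) + w i) * (2 * ∑ k, T j k * (x k - b k) + w j))
    fun i j => int_gr hlc ((hl2 i).mul (hl2 j))).trans ?_
  have e1 : ∀ i j, ∫ x, (2 * ∑ k, T i k * (x k - b k) + w i) * (2 * ∑ k, T j k * (x k - b k) + w j) ∂μ =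
      4 * ((fun k => T i k) ⬝ᵥ (K *ᵥ (fun k => T j k))) + w i * w j := by
    intro i j
    obtain ⟨p, hp⟩ : ∃ p, p = w i := ⟨_, rfl⟩
    obtain ⟨r, hr⟩ : ∃ r, r = w j := ⟨_, rfl⟩
    rw [← hp, ← hr]
    have e2 : ∀ x : E n, (2 * ∑ k, T i k * (x k - b k) + p) * (2 * ∑ k, T j k * (x k - b k) + r) =
        ((4 * ((∑ k, T i k * (x k - b k)) * (∑ k, T j k * (x k - b k))) +
          (2 * r) * ∑ k, T i k * (x k - b k)) + (2 * p) * ∑ k, T j k * (x k - b k)) + p * r :=
      fun x => by ring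
    have i1 : Integrable (fun x : E n => 4 * ((∑ k, T i k * (x k - b k)) * (∑ k, T j k * (x k - b k)))) μ :=
      (int_gr hlc ((hl i).mul (hl j))).const_mul _
    have i2 : Integrable (fun x : E n => (2 * r) * ∑ k, T i k * (x k - b k)) μ := (int_gr hlc (hl i)).const_mul _
    have i3 : Integrable (fun x : E n => (2 * p) * ∑ k, T j k * (x k - b k)) μ := (int_gr hlc (hl j)).const_mul _
    have i4 : Integrable (fun x : E n => 4 * ((∑ k, T i k * (x k - b k)) * (∑ k, T j k * (x k - b k))) +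
          (2 * r) * ∑ k, T i k * (x k - b k)) μ := i1.add i2
    have i5 : Integrable (fun x : E n => 4 * ((∑ k, T i k * (x k - b k)) * (∑ k, T j k * (x k - b k))) +
          (2 * r) * ∑ k, T i k * (x k - b k) + (2 * p) * ∑ k, T j k * (x k - b k)) μ := i4.add i3
    rw [integral_congr_ae (Eventually.of_forall e2), integral_add i5 (integrable_const _),
      integral_add i4 i3, integral_add i1 i2, integral_const_mul, integral_const_mul, integral_const_mul,
      int_lin_mul hlc hK (fun k => T i k) (fun k => T j k), int_lin hlc hb (fun k => T i k),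
      int_lin hlc hb (fun k => T j k), integral_const]
    simp
  have e0 : ∑ i, ∑ j, K i j * ∫ x, (2 * ∑ k, T i k * (x k - b k) + w i) * (2 * ∑ k, T j k * (x k - b k) + w j) ∂μ =
      (4 * ∑ i, ∑ j, K i j * ((fun k => T i k) ⬝ᵥ (K *ᵥ (fun k => T j k)))) + ∑ i, ∑ j, w i * (K i j * w j) := by
    simp only [Finset.mul_sum, ← Finset.sum_add_distrib]
    refine Finset.sum_congr rfl fun i _ => Finset.sum_congr rfl fun j _ => ?_
    have := e1 i j
    simp only [Finset.mul_sum] at this
    rw [this]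
    ring
  refine e0.trans ?_
  congr 1
  · have e3 : (T * K * T * K).trace = ∑ i, ∑ j, K i j * ((fun k => T i k) ⬝ᵥ (K *ᵥ (fun k => T j k))) := by
      rw [Matrix.trace_mul_comm]
      show ∑ i, (K * (T * K * T)) i i = _
      refine Finset.sum_congr rfl fun i _ => ?_
      rw [Matrix.mul_apply]
      refine Finset.sum_congr rfl fun j _ => ?_
      congr 1
      rw [Matrix.mul_assoc, Matrix.mul_apply]
      have hKs : (K).PosSemidef := cov_psd hlc hK
      -- symmetric in `i`, `j`
      have hsy : (fun k => T i k) ⬝ᵥ (K *ᵥ (fun k => T j k)) = (fun k => T j k) ⬝ᵥ (K *ᵥ (fun k => T i k)) := by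
        rw [← int_lin_mul hlc hK, ← int_lin_mul hlc hK]
        exact integral_congr_ae (Eventually.of_forall fun x => by ring)
      rw [hsy]
      show ∑ k, T j k * (K * T) k i = ∑ k, T j k * (K *ᵥ fun k => T i k) k
      refine Finset.sum_congr rfl fun k _ => ?_
      congr 1
      rw [Matrix.mul_apply]
      show ∑ l, K k l * T l i = ∑ l, K k l * T i l
      exact Finset.sum_congr rfl fun l _ => by rw [hsym l i]
    rw [e3]
  · show _ = ∑ i, w i * ∑ j, K i j * w j
    refine Finset.sum_congr rfl fun i _ => ?_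
    rw [Finset.mul_sum]

/-- **Poincaré inequality for polynomials of degree at most two**, in the metric of the covariance -/
theorem poincK_qpoly {T : Matrix (Fin n) (Fin n) ℝ} (hT : Tᵀ = T) (c : Fin n → ℝ) (d : ℝ) :
    (∫ x, qpoly T c d x ^ 2 ∂μ) - (∫ x, qpoly T c d x ∂μ) ^ 2 ≤
      5 * ∫ x, ∑ i, ∑ j, K i j * (gradient (qpoly T c d) x i * gradient (qpoly T c d) x j) ∂μ := by
  obtain ⟨D, hD⟩ := qpoly_eq hT c d b
  obtain ⟨w, hw⟩ : ∃ w : Fin n → ℝ, w = fun i => c i + 2 * ∑ j, T i j * b j := ⟨_, rfl⟩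
  have hqG : Gr (fun x : E n => ∑ i, ∑ j, T i j * ((x i - b i) * (x j - b j))) := gr_q b T
  have hlG : Gr (fun x : E n => ∑ i, w i * (x i - b i)) := gr_lin b w
  obtain ⟨m, hm⟩ : ∃ m, m = ∫ x, (∑ i, ∑ j, T i j * ((x i - b i) * (x j - b j))) ∂μ := ⟨_, rfl⟩
  have hD' : ∀ x : E n, qpoly T c d x = (∑ i, ∑ j, T i j * ((x i - b i) * (x j - b j)) +
        ∑ i, w i * (x i - b i)) + D := fun x => by rw [hD, hw]
  have hmean : ∫ x, qpoly T c d x ∂μ = m + D := by
    have j1 := int_gr hlc hqG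
    have j2 := int_gr hlc hlG
    have j3 : Integrable (fun x : E n => ∑ i, ∑ j, T i j * ((x i - b i) * (x j - b j)) +
        ∑ i, w i * (x i - b i)) μ := j1.add j2
    rw [integral_congr_ae (Eventually.of_forall hD')]
    refine (integral_add j3 (integrable_const _)).trans ?_
    rw [integral_const]
    have e7 := integral_add j1 j2
    rw [int_lin hlc hb w, ← hm] at e7
    refine (congrArg (· + _) e7).trans ?_
    simp
  rw [← var_eq hlc (gr_qpoly T c d), hmean]
  have hvq : ∫ x, ((∑ i, ∑ j, T i j * ((x i - b i) * (x j - b j))) - m) ^ 2 ∂μ ≤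
      16 * (T * K * T * K).trace := by
    rw [hm, var_eq hlc hqG]
    exact quad_lc hlc hT hb hK
  have hvl : ∫ x, (∑ i, w i * (x i - b i)) ^ 2 ∂μ = w ⬝ᵥ (K *ᵥ w) := by
    rw [← int_lin_mul hlc hK w w]
    exact integral_congr_ae (Eventually.of_forall fun x => by ring)
  have hqm : Gr (fun x : E n => (∑ i, ∑ j, T i j * ((x i - b i) * (x j - b j))) - m) := hqG.sub (Gr.const _)
  have i1 : Integrable (fun x : E n => (5 / 4 : ℝ) * ((∑ i, ∑ j, T i j * ((x i - b i) * (x j - b j))) - m) ^ 2) μ :=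
    (int_gr hlc (hqm.pow 2)).const_mul _
  have i2 : Integrable (fun x : E n => 5 * (∑ i, w i * (x i - b i)) ^ 2) μ :=
    (int_gr hlc (hlG.pow 2)).const_mul _
  have h1 : ∫ x, (qpoly T c d x - (m + D)) ^ 2 ∂μ ≤
      5 / 4 * (∫ x, ((∑ i, ∑ j, T i j * ((x i - b i) * (x j - b j))) - m) ^ 2 ∂μ) +
        5 * ∫ x, (∑ i, w i * (x i - b i)) ^ 2 ∂μ := by
    rw [← integral_const_mul, ← integral_const_mul, ← integral_add i1 i2]
    refine integral_mono (int_gr hlc (((gr_qpoly T c d).sub (Gr.const _)).pow 2)) (i1.add i2) fun x => ?_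
    show (qpoly T c d x - (m + D)) ^ 2 ≤ _
    rw [hD']
    simp only [Pi.add_apply]
    nlinarith [sq_nonneg ((∑ i, ∑ j, T i j * ((x i - b i) * (x j - b j)) - m) - 4 * ∑ i, w i * (x i - b i))]
  rw [gradK_qpoly hlc hb hK hT c d, ← hw]
  rw [hvl] at h1
  linarith

end

end Vale.Agent.P245.Q895
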