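import Vale.Agent.P245.H895.QuadK

/-!
P245, quadratic functionals of log-concave measures (helper895), part N: the Knothe-Prékopa-Leindler
inequality with a finite family of functions on the right hand side.
-/

set_option linter.all false

open MeasureTheory Filter Topology Set
open scoped ENNReal NNReal

namespace Vale.Agent.P245.Q895.Kn

/-- dimension one -/
theorem kf_one {m : ℕ} {s t : Fin m → ℝ} (hs : ∀ i, 0 < s i) (ht : ∀ i, 0 < t i)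
    (hst : ∀ i, s i + t i = 1) (f g : ℝ → ℝ≥0∞) (k : Fin m → ℝ → ℝ≥0∞) (hf : Measurable f)
    (hg : Measurable g) (hk : ∀ i, Measurable (k i))
    (hf0 : ∫⁻ x, f x ≠ 0) (hf1 : ∫⁻ x, f x ≠ ∞) (hg0 : ∫⁻ x, g x ≠ 0) (hg1 : ∫⁻ x, g x ≠ ∞)
    (hc : ∀ x y, f x ≠ 0 → f x ≠ ∞ → g y ≠ 0 → g y ≠ ∞ →
      1 ≤ ∑ i, (f x ^ (-s i) * g y ^ (-t i)) * k i (s i * x + t i * y)) :
    1 ≤ ∑ i, ((∫⁻ x, f x) ^ (-s i) * (∫⁻ x, g x) ^ (-t i)) * (∫⁻ x, k i x) := by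
  obtain ⟨X, dX, hX, hgX⟩ := quantile hf hf0 hf1
  obtain ⟨Y, dY, hY, hgY⟩ := quantile hg hg0 hg1
  have hboth := hgX.and hgY
  set N : Set ℝ := {u | ¬ ((u ∈ Ioo (0 : ℝ) 1 → (HasDerivWithinAt X (dX u) (Ioo 0 1) u ∧ 0 < dX u ∧
      f (X u) ≠ 0 ∧ f (X u) ≠ ∞ ∧ ENNReal.ofReal (dX u) * f (X u) = ∫⁻ x, f x)) ∧
      (u ∈ Ioo (0 : ℝ) 1 → (HasDerivWithinAt Y (dY u) (Ioo 0 1) u ∧ 0 < dY u ∧
      g (Y u) ≠ 0 ∧ g (Y u) ≠ ∞ ∧ ENNReal.ofReal (dY u) * g (Y u) = ∫⁻ x, g x)))} with hN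
  have hN0 : volume N = 0 := hboth
  set A : Set ℝ := Ioo 0 1 \ toMeasurable volume N with hA
  have hAm : MeasurableSet A := measurableSet_Ioo.diff (measurableSet_toMeasurable _ _)
  have hAI : A ⊆ Ioo 0 1 := diff_subset
  have hAv : volume A = 1 := by
    rw [hA, measure_diff_null (by rw [measure_toMeasurable, hN0])]
    simp
  have hgood : ∀ u ∈ A, (u ∈ Ioo (0 : ℝ) 1 → (HasDerivWithinAt X (dX u) (Ioo 0 1) u ∧ 0 < dX u ∧
      f (X u) ≠ 0 ∧ f (X u) ≠ ∞ ∧ ENNReal.ofReal (dX u) * f (X u) = ∫⁻ x, f x)) ∧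
      (u ∈ Ioo (0 : ℝ) 1 → (HasDerivWithinAt Y (dY u) (Ioo 0 1) u ∧ 0 < dY u ∧
      g (Y u) ≠ 0 ∧ g (Y u) ≠ ∞ ∧ ENNReal.ofReal (dY u) * g (Y u) = ∫⁻ x, g x)) := by
    intro u hu
    by_contra hc'
    exact hu.2 (subset_toMeasurable _ _ hc')
  have hgX' := fun u (hu : u ∈ A) => (hgood u hu).1 (hAI hu)
  have hgY' := fun u (hu : u ∈ A) => (hgood u hu).2 (hAI hu)
  have T := fun i => kn_term (hs i) (ht i) (hst i) hf0 hf1 hg0 hg1 (k := k i) hAm hAI hX hY hgX' hgY'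
  have hXm : AEMeasurable X (volume.restrict A) :=
    (aemeasurable_restrict_of_monotoneOn measurableSet_Ioo hX).mono_set hAI
  have hYm : AEMeasurable Y (volume.restrict A) :=
    (aemeasurable_restrict_of_monotoneOn measurableSet_Ioo hY).mono_set hAI
  refine le_trans ?_ (Finset.sum_le_sum fun i _ => T i)
  rw [← lintegral_finset_sum']
  · calc (1 : ℝ≥0∞) = ∫⁻ u in A, 1 := by rw [setLIntegral_one, hAv]
      _ ≤ _ := setLIntegral_mono' hAm fun u hu =>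
        hc (X u) (Y u) (hgX' u hu).2.2.1 (hgX' u hu).2.2.2.1 (hgY' u hu).2.2.1 (hgY' u hu).2.2.2.1
  · intro i _
    refine AEMeasurable.mul ?_ ?_
    · exact ((hf.comp_aemeasurable hXm).pow_const _).mul ((hg.comp_aemeasurable hYm).pow_const _)
    · exact (hk i).comp_aemeasurable ((hXm.const_mul _).add (hYm.const_mul _))

/-- **The inequality in all dimensions** -/
theorem kf_pi {m : ℕ} {s t : Fin m → ℝ} (hs : ∀ i, 0 < s i) (ht : ∀ i, 0 < t i)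
    (hst : ∀ i, s i + t i = 1) (n : ℕ) :
    ∀ (f g : (Fin n → ℝ) → ℝ≥0∞) (k : Fin m → (Fin n → ℝ) → ℝ≥0∞), Measurable f → Measurable g →
    (∀ i, Measurable (k i)) →
    ∫⁻ x, f x ≠ 0 → ∫⁻ x, f x ≠ ∞ → ∫⁻ x, g x ≠ 0 → ∫⁻ x, g x ≠ ∞ →
    (∀ x y, f x ≠ 0 → f x ≠ ∞ → g y ≠ 0 → g y ≠ ∞ →
      1 ≤ ∑ i, (f x ^ (-s i) * g y ^ (-t i)) * k i (s i • x + t i • y)) →
    1 ≤ ∑ i, ((∫⁻ x, f x) ^ (-s i) * (∫⁻ x, g x) ^ (-t i)) * (∫⁻ x, k i x) := by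
  induction n with
  | zero =>
    intro f g k hf hg hk hf0 hf1 hg0 hg1 hc
    have hv : (volume : Measure (Fin 0 → ℝ)) univ = 1 := by
      simp [volume_pi]
    simp only [lintegral_unique, hv, mul_one] at hf0 hf1 hg0 hg1 ⊢
    have h3 := hc (@default (Fin 0 → ℝ) Unique.instInhabited) (@default (Fin 0 → ℝ) Unique.instInhabited)
      hf0 hf1 hg0 hg1
    have e1 : ∀ i, s i • (@default (Fin 0 → ℝ) Unique.instInhabited) +
        t i • (@default (Fin 0 → ℝ) Unique.instInhabited) = (@default (Fin 0 → ℝ) Unique.instInhabited) :=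
      fun i => Subsingleton.elim _ _
    simp only [e1] at h3
    exact h3
  | succ n ih =>
    intro f g k hf hg hk hf0 hf1 hg0 hg1 hc
    set e := MeasurableEquiv.piFinSuccAbove (fun _ : Fin (n + 1) => ℝ) 0 with he
    have hvp : MeasurePreserving e volume volume :=
      volume_preserving_piFinSuccAbove (fun _ : Fin (n + 1) => ℝ) 0
    have hsplit : ∀ u : (Fin (n + 1) → ℝ) → ℝ≥0∞, Measurable u →
        ∫⁻ x, u x = ∫⁻ a : ℝ, ∫⁻ x : Fin n → ℝ, u (e.symm (a, x)) := by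
      intro u hu
      rw [← hvp.symm.lintegral_comp hu]
      exact lintegral_prod _ (hu.comp e.symm.measurable).aemeasurable
    have hmid : ∀ (s t a b : ℝ) (x y : Fin n → ℝ),
        s • e.symm (a, x) + t • e.symm (b, y) = e.symm (s * a + t * b, s • x + t • y) := by
      intro s t a b x y
      funext i
      refine Fin.cases ?_ (fun j => ?_) i
      · simp [he, MeasurableEquiv.piFinSuccAbove]
      · simp [he, MeasurableEquiv.piFinSuccAbove]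
    have hm2 : ∀ u : (Fin (n + 1) → ℝ) → ℝ≥0∞, Measurable u →
        Measurable fun a : ℝ => ∫⁻ x : Fin n → ℝ, u (e.symm (a, x)) := by
      intro u hu
      exact (hu.comp e.symm.measurable).lintegral_prod_right'
    have hsec : ∀ (u : (Fin (n + 1) → ℝ) → ℝ≥0∞) (c : ℝ), Measurable u →
        Measurable fun x : Fin n → ℝ => u (e.symm (c, x)) := by
      intro u c hu
      exact hu.comp (e.symm.measurable.comp measurable_prodMk_left)
    rw [hsplit f hf] at hf0 hf1 ⊢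
    rw [hsplit g hg] at hg0 hg1 ⊢
    have hks : ∀ i, ∫⁻ x, k i x = ∫⁻ a : ℝ, ∫⁻ x : Fin n → ℝ, k i (e.symm (a, x)) := fun i => hsplit _ (hk i)
    simp only [hks]
    refine kf_one hs ht hst _ _ _ (hm2 f hf) (hm2 g hg) (fun i => hm2 _ (hk i)) hf0 hf1 hg0 hg1 ?_
    intro a b ha0 ha1 hb0 hb1
    refine ih (fun x => f (e.symm (a, x))) (fun x => g (e.symm (b, x)))
      (fun i x => k i (e.symm (s i * a + t i * b, x))) (hsec f a hf) (hsec g b hg)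
      (fun i => hsec _ _ (hk i)) ha0 ha1 hb0 hb1 ?_
    intro x y hx0 hx1 hy0 hy1
    have h3 := hc (e.symm (a, x)) (e.symm (b, y)) hx0 hx1 hy0 hy1
    simp only [hmid] at h3
    exact h3

end Vale.Agent.P245.Q895.Kn

open Vale.Agent.P227.M Vale.Agent.P254

namespace Vale.Agent.P245.Q895

variable {n : ℕ}

theorem kf_E {m : ℕ} {s t : Fin m → ℝ} (hs : ∀ i, 0 < s i) (ht : ∀ i, 0 < t i)
    (hst : ∀ i, s i + t i = 1) (f g : E n → ℝ≥0∞) (k : Fin m → E n → ℝ≥0∞) (hf : Measurable f)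
    (hg : Measurable g) (hk : ∀ i, Measurable (k i))
    (hf0 : ∫⁻ x, f x ≠ 0) (hf1 : ∫⁻ x, f x ≠ ∞) (hg0 : ∫⁻ x, g x ≠ 0) (hg1 : ∫⁻ x, g x ≠ ∞)
    (hc : ∀ x y, f x ≠ 0 → f x ≠ ∞ → g y ≠ 0 → g y ≠ ∞ →
      1 ≤ ∑ i, (f x ^ (-s i) * g y ^ (-t i)) * k i (s i • x + t i • y)) :
    1 ≤ ∑ i, ((∫⁻ x, f x) ^ (-s i) * (∫⁻ x, g x) ^ (-t i)) * (∫⁻ x, k i x) := by
  have hvp := PiLp.volume_preserving_toLp (Fin n)
  have e : ∀ u : E n → ℝ≥0∞, Measurable u → ∫⁻ x, u x = ∫⁻ y : Fin n → ℝ, u (WithLp.toLp 2 y) :=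
    fun u hu => (hvp.lintegral_comp hu).symm
  rw [e f hf] at hf0 hf1 ⊢
  rw [e g hg] at hg0 hg1 ⊢
  have ek := fun i => e (k i) (hk i)
  simp only [ek]
  refine Kn.kf_pi hs ht hst n _ _ _ (hf.comp hvp.measurable) (hg.comp hvp.measurable)
    (fun i => (hk i).comp hvp.measurable) hf0 hf1 hg0 hg1 ?_
  intro x y hx0 hx1 hy0 hy1
  exact hc (WithLp.toLp 2 x) (WithLp.toLp 2 y) hx0 hx1 hy0 hy1

end Vale.Agent.P245.Q895
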