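import Vale.Agent.P245.H895.QuadL

/-!
P245, quadratic functionals of log-concave measures (helper895), part O: the entropy of `f²` is bounded by
the variance of `f` times the logarithm of the kurtosis.
-/

set_option linter.all false

open MeasureTheory Filter Topology Set Metric Matrix
open scoped NNReal ENNReal
open Vale.Agent.P227.M Vale.Agent.P254

namespace Vale.Agent.P245.Q895

variable {n : ℕ} {μ : Measure (E n)}

/-- the pointwise inequality -/
theorem ent_ptK {m g v k : ℝ} (hv : 0 < v) (hk : 1 ≤ k) :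
    (m + g) ^ 2 * Real.log ((m + g) ^ 2) - (m + g) ^ 2 * Real.log (m ^ 2 + v) - (m + g) ^ 2 + (m ^ 2 + v) ≤
      (13 + 9 * Real.log k) * g ^ 2 + 3 * v + (81 / k) * (g ^ 4 / v) := by
  obtain ⟨S, hS⟩ : ∃ S, S = m ^ 2 + v := ⟨_, rfl⟩
  obtain ⟨y, hy⟩ : ∃ y, y = (m + g) ^ 2 := ⟨_, rfl⟩
  rw [← hS, ← hy]
  have hy0 : 0 ≤ y := hy ▸ sq_nonneg _
  have hS0 : 0 < S := by rw [hS]; positivity
  have hE : 0 < k := by linarith
  have hlk : 0 ≤ Real.log k := Real.log_nonneg hk
  have hg4 : 0 ≤ g ^ 4 / v := by positivity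
  have hlast : 0 ≤ (81 / k) * (g ^ 4 / v) := by positivity
  have hlg : 0 ≤ Real.log k * g ^ 2 := by positivity
  rcases le_or_gt (4 * g ^ 2) (m ^ 2) with h | h
  · have h1 := ylog_le hy0 hS0
    have h2 : y * (y / S - 1) - y + S = (y - S) ^ 2 / S := by
      field_simp
      ring
    have h3 : (y - S) ^ 2 ≤ (13 * g ^ 2 + 3 * v) * S := by
      have e : y - S = 2 * m * g + g ^ 2 - v := by rw [hy, hS]; ring
      rw [e, hS]
      have h4 : (2 * m * g + g ^ 2 - v) ^ 2 ≤ 3 * (4 * m ^ 2 * g ^ 2 + g ^ 4 + v ^ 2) := by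
        nlinarith [sq_nonneg (2 * m * g - g ^ 2), sq_nonneg (2 * m * g + v), sq_nonneg (g ^ 2 + v)]
      have h5 : g ^ 2 * (4 * g ^ 2) ≤ g ^ 2 * m ^ 2 := mul_le_mul_of_nonneg_left h (sq_nonneg g)
      nlinarith [mul_nonneg (sq_nonneg g) hv.le, mul_nonneg (sq_nonneg m) hv.le]
    have h6 : (y - S) ^ 2 / S ≤ 13 * g ^ 2 + 3 * v := by
      rw [div_le_iff₀ hS0]
      exact h3
    nlinarith [sq_nonneg g]
  · have hkv : 0 < k * v := by positivity
    have h1 := ylog_le hy0 hkv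
    rw [Real.log_mul hE.ne' hv.ne'] at h1
    have h2 : Real.log v ≤ Real.log S := Real.log_le_log hv (by rw [hS]; nlinarith [sq_nonneg m])
    have h3 : y * Real.log v ≤ y * Real.log S := mul_le_mul_of_nonneg_left h2 hy0
    have h4 : y ≤ 9 * g ^ 2 := by
      rw [hy]
      have h5 : m * g ≤ 2 * g ^ 2 := by
        by_contra hc
        push Not at hc
        have : (2 * g ^ 2) ^ 2 < (m * g) ^ 2 := by
          apply sq_lt_sq'
          · nlinarith [sq_nonneg g]
          · exact hc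
        nlinarith [sq_nonneg g, mul_le_mul_of_nonneg_left h.le (sq_nonneg g)]
      nlinarith
    have h6 : y * (y / (k * v)) ≤ (81 / k) * (g ^ 4 / v) := by
      have e1 : y * (y / (k * v)) = y ^ 2 / (k * v) := by ring
      have e2 : (81 / k) * (g ^ 4 / v) = (9 * g ^ 2) ^ 2 / (k * v) := by
        field_simp
        ring
      rw [e1, e2]
      exact div_le_div_of_nonneg_right (pow_le_pow_left₀ hy0 h4 2) hkv.le
    have h7 : S ≤ 4 * g ^ 2 + v := by rw [hS]; linarith
    have h8 : y * Real.log k ≤ (9 * g ^ 2) * Real.log k := mul_le_mul_of_nonneg_right h4 hlk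
    nlinarith [sq_nonneg g]

/-- entropy is bounded by the variance and the logarithm of the kurtosis -/
theorem ent_leK [IsProbabilityMeasure μ] {f : E n → ℝ} (hfc : Continuous f)
    (hf1 : Integrable f μ) (hf2 : Integrable (fun x => f x ^ 2) μ) (hf3 : Integrable (fun x => f x ^ 3) μ)
    (hf4 : Integrable (fun x => f x ^ 4) μ) {k : ℝ} (hk : 1 ≤ k)
    (h4 : ∫ x, (f x - ∫ y, f y ∂μ) ^ 4 ∂μ ≤ k * (∫ x, (f x - ∫ y, f y ∂μ) ^ 2 ∂μ) ^ 2) :
    Entropy μ (fun x => f x ^ 2) ≤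
      (17 + 9 * Real.log (81 * k)) * ((∫ x, f x ^ 2 ∂μ) - (∫ x, f x ∂μ) ^ 2) := by
  obtain ⟨m, hm⟩ : ∃ m, m = ∫ y, f y ∂μ := ⟨_, rfl⟩
  rw [← hm] at h4 ⊢
  obtain ⟨v, hv⟩ : ∃ v, v = ∫ x, (f x - m) ^ 2 ∂μ := ⟨_, rfl⟩
  have e2 : ∀ x, (f x - m) ^ 2 = f x ^ 2 - (2 * m) * f x + m ^ 2 := fun x => by ring
  have e4 : ∀ x, (f x - m) ^ 4 = f x ^ 4 - (4 * m) * f x ^ 3 + (6 * m ^ 2) * f x ^ 2 - (4 * m ^ 3) * f x + m ^ 4 :=
    fun x => by ring
  have hg2 : Integrable (fun x => (f x - m) ^ 2) μ := by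
    simp only [e2]
    exact (hf2.sub (hf1.const_mul _)).add (integrable_const _)
  have hg4 : Integrable (fun x => (f x - m) ^ 4) μ := by
    simp only [e4]
    exact (((hf4.sub (hf3.const_mul _)).add (hf2.const_mul _)).sub (hf1.const_mul _)).add (integrable_const _)
  have hvar : v = (∫ x, f x ^ 2 ∂μ) - m ^ 2 := by
    have i1 : Integrable (fun x => (2 * m) * f x) μ := hf1.const_mul _
    have i2 : Integrable (fun x => f x ^ 2 - (2 * m) * f x) μ := hf2.sub i1
    rw [hv, integral_congr_ae (Eventually.of_forall e2), integral_add i2 (integrable_const _),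
      integral_sub hf2 i1, integral_const_mul, integral_const, ← hm]
    simp
    ring
  rw [← hv] at h4
  rw [← hvar]
  have hv0 : 0 ≤ v := hv ▸ integral_nonneg fun x => sq_nonneg _
  have hS : ∫ x, f x ^ 2 ∂μ = m ^ 2 + v := by linarith
  rcases hv0.eq_or_lt with h0 | h0
  · have h1 : (fun x => (f x - m) ^ 2) =ᵐ[μ] 0 :=
      (integral_eq_zero_iff_of_nonneg (fun x => sq_nonneg _) hg2).1 (hv ▸ h0.symm)
    have h2 : ∀ᵐ x ∂μ, f x = m := by
      filter_upwards [h1] with x hx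
      have : (f x - m) ^ 2 = 0 := hx
      have := pow_eq_zero_iff (two_ne_zero) |>.1 this
      linarith
    have h3 : ∫ x, f x ^ 2 * Real.log (f x ^ 2) ∂μ = m ^ 2 * Real.log (m ^ 2) := by
      rw [integral_congr_ae (g := fun _ => m ^ 2 * Real.log (m ^ 2))]
      · simp
      · filter_upwards [h2] with x hx
        rw [hx]
    unfold Entropy
    rw [h3, hS, ← h0]
    simp
  have hyl : Integrable (fun x => f x ^ 2 * Real.log (f x ^ 2)) μ := by
    have hc : Continuous (fun x => f x ^ 2 * Real.log (f x ^ 2)) :=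
      Real.continuous_mul_log.comp (hfc.pow 2)
    refine ((integrable_const (1 : ℝ)).add hf4).mono' hc.aestronglyMeasurable (Eventually.of_forall fun x => ?_)
    have := ylog_abs (sq_nonneg (f x))
    rw [Real.norm_eq_abs]
    refine this.trans (le_of_eq ?_)
    simp only [Pi.add_apply]
    ring
  have hc1 : Integrable (fun x => f x ^ 2 * Real.log (m ^ 2 + v)) μ := hf2.mul_const _
  have hL : Integrable (fun x => f x ^ 2 * Real.log (f x ^ 2) - f x ^ 2 * Real.log (m ^ 2 + v)) μ := hyl.sub hc1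
  have hL2 : Integrable (fun x => f x ^ 2 * Real.log (f x ^ 2) - f x ^ 2 * Real.log (m ^ 2 + v) - f x ^ 2) μ :=
    hL.sub hf2
  have hEnt : Entropy μ (fun x => f x ^ 2) =
      ∫ x, (f x ^ 2 * Real.log (f x ^ 2) - f x ^ 2 * Real.log (m ^ 2 + v) - f x ^ 2 + (m ^ 2 + v)) ∂μ := by
    rw [integral_add hL2 (integrable_const _), integral_sub hL hf2, integral_sub hyl hc1,
      integral_mul_const, integral_const, hS]
    unfold Entropy
    rw [hS]
    simp
  rw [hEnt]
  obtain ⟨A, hA⟩ : ∃ A, A = 13 + 9 * Real.log (81 * k) := ⟨_, rfl⟩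
  have hK1 : (1 : ℝ) ≤ 81 * k := by linarith
  have r1 : Integrable (fun x => A * (f x - m) ^ 2) μ := hg2.const_mul _
  have r2 : Integrable (fun x => A * (f x - m) ^ 2 + 3 * v) μ := r1.add (integrable_const _)
  have r3 : Integrable (fun x => (81 / (81 * k)) * ((f x - m) ^ 4 / v)) μ := (hg4.div_const _).const_mul _
  have hle : ∫ x, (f x ^ 2 * Real.log (f x ^ 2) - f x ^ 2 * Real.log (m ^ 2 + v) - f x ^ 2 + (m ^ 2 + v)) ∂μ ≤
      ∫ x, (A * (f x - m) ^ 2 + 3 * v + (81 / (81 * k)) * ((f x - m) ^ 4 / v)) ∂μ := by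
    refine integral_mono (hL2.add (integrable_const _)) (r2.add r3) fun x => ?_
    have := ent_ptK (m := m) (g := f x - m) h0 hK1
    rw [show m + (f x - m) = f x by ring] at this
    rw [← hA] at this
    exact this
  have q1 : ∫ x, A * (f x - m) ^ 2 ∂μ = A * v := by rw [integral_const_mul, ← hv]
  have q2 : ∫ _, 3 * v ∂μ = 3 * v := by rw [integral_const]; simp
  have q3 : ∫ x, (81 / (81 * k)) * ((f x - m) ^ 4 / v) ∂μ =
      (81 / (81 * k)) * ((∫ x, (f x - m) ^ 4 ∂μ) / v) := by rw [integral_const_mul, integral_div]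
  rw [integral_add r2 r3, integral_add r1 (integrable_const _), q1, q2, q3] at hle
  have hk0 : 0 < k := by linarith
  have h5 : (81 / (81 * k)) * ((∫ x, (f x - m) ^ 4 ∂μ) / v) ≤ v := by
    have h6 : (∫ x, (f x - m) ^ 4 ∂μ) / v ≤ k * v := by
      rw [div_le_iff₀ h0]
      calc _ ≤ _ := h4
        _ = _ := by ring
    have h7 : 0 ≤ 81 / (81 * k) := by positivity
    calc _ ≤ (81 / (81 * k)) * (k * v) := mul_le_mul_of_nonneg_left h6 h7
      _ = v := by field_simp
  have h8 : (17 + 9 * Real.log (81 * k)) * v = A * v + 3 * v + v := by rw [hA]; ring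
  rw [h8]
  linarith

end Vale.Agent.P245.Q895
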