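import Mathlib.Algebra.Group.ForwardDiff
import Vale.Agent.P245.H895.QuadN

/-!
P245, quadratic functionals of log-concave measures (helper895), part P: the reverse Hölder inequality
`E q⁴ ≤ C^d (E q²)²` for polynomials of degree at most `d`.
-/

set_option linter.all false

open MeasureTheory Filter Topology Set Metric
open scoped NNReal ENNReal
open Vale.Agent.P227.M Vale.Agent.P254

namespace Vale.Agent.P245.Q895

variable {n : ℕ} {μ : Measure (E n)}

open Finset in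
/-- extrapolation by Newton's formula -/
theorem extrap (P : Polynomial ℝ) {d : ℕ} (hd : P.natDegree ≤ d) {M : ℝ}
    (hM : ∀ j : ℕ, j ≤ d → |P.eval (j : ℝ)| ≤ M) (N : ℕ) : |P.eval (N : ℝ)| ≤ 3 ^ N * M := by
  have hM0 : 0 ≤ M := (abs_nonneg _).trans (hM 0 (Nat.zero_le _))
  have h1 := shift_eq_sum_fwdDiff_iter (1 : ℝ) P.eval N 0
  simp only [nsmul_eq_mul, mul_one, zero_add] at h1
  rw [h1]
  have h2 : ∀ k, |(fwdDiff (1 : ℝ))^[k] P.eval 0| ≤ 2 ^ k * M := by
    intro k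
    rcases le_or_gt k d with hk | hk
    · rw [fwdDiff_iter_eq_sum_shift]
      refine (Finset.abs_sum_le_sum_abs _ _).trans ?_
      have h3 : ∀ i ∈ Finset.range (k + 1), |((-1 : ℤ) ^ (k - i) * (k.choose i : ℤ)) • P.eval (0 + i • (1 : ℝ))| ≤
          (k.choose i : ℝ) * M := by
        intro i hi
        have hi' : i ≤ d := (Nat.lt_succ_iff.1 (Finset.mem_range.1 hi)).trans hk
        rw [zsmul_eq_mul, abs_mul]
        have e1 : |((((-1 : ℤ) ^ (k - i) * (k.choose i : ℤ)) : ℤ) : ℝ)| = (k.choose i : ℝ) := by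
          push_cast
          rw [abs_mul, abs_pow, abs_neg, abs_one, one_pow, one_mul, Nat.abs_cast]
        rw [e1]
        have e2 : (0 : ℝ) + i • (1 : ℝ) = (i : ℝ) := by simp
        rw [e2]
        exact mul_le_mul_of_nonneg_left (hM i hi') (Nat.cast_nonneg _)
      refine (Finset.sum_le_sum h3).trans (le_of_eq ?_)
      rw [← Finset.sum_mul]
      congr 1
      have := Nat.sum_range_choose k
      exact_mod_cast this
    · have h4 := Polynomial.fwdDiff_iter_eq_zero_of_degree_lt (P := P) (n := k) (lt_of_le_of_lt hd hk)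
      rw [h4]
      simp only [Pi.zero_apply, abs_zero]
      positivity
  refine (Finset.abs_sum_le_sum_abs _ _).trans ?_
  have h5 : ∀ k ∈ Finset.range (N + 1), |(N.choose k : ℝ) * (fwdDiff (1 : ℝ))^[k] P.eval 0| ≤
      (2 ^ k * 1 ^ (N - k) * (N.choose k : ℝ)) * M := by
    intro k _
    rw [abs_mul, Nat.abs_cast]
    calc (N.choose k : ℝ) * |(fwdDiff (1 : ℝ))^[k] P.eval 0| ≤ (N.choose k : ℝ) * (2 ^ k * M) :=
          mul_le_mul_of_nonneg_left (h2 k) (Nat.cast_nonneg _)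
      _ = _ := by rw [one_pow]; ring
  refine (Finset.sum_le_sum h5).trans (le_of_eq ?_)
  rw [← Finset.sum_mul]
  congr 1
  rw [← add_pow]
  norm_num

/-- final numerical step -/
theorem num_endd {d : ℕ} {F v L : ℝ} (hF : 0 < F) (hv : 0 < v) (hL : 0 < L)
    (h : 1 ≤ ∑ i : Fin d, F ^ (-(((i : ℕ) + 1 : ℝ) / (2 * (d + 1)))) *
      (4 * (L ^ (4 * (((i : ℕ) + 1 : ℝ) / (2 * (d + 1)))) * v ^ (2 * (((i : ℕ) + 1 : ℝ) / (2 * (d + 1))))))) :
    F ≤ 25 ^ (d + 1) * L ^ 4 * v ^ 2 := by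
  by_contra hc
  push Not at hc
  obtain ⟨W, hW⟩ : ∃ W, W = L ^ 4 * v ^ 2 / F := ⟨_, rfl⟩
  have hW0 : 0 < W := by rw [hW]; positivity
  have hW1 : W * 25 ^ (d + 1) < 1 := by
    rw [hW, div_mul_eq_mul_div, div_lt_one hF]
    linarith
  obtain ⟨w, hw⟩ : ∃ w : ℝ, w = W ^ ((1 : ℝ) / (2 * (d + 1))) := ⟨_, rfl⟩
  have hw0 : 0 < w := hw ▸ Real.rpow_pos_of_pos hW0 _
  have hd : (0 : ℝ) < 2 * ((d : ℝ) + 1) := by positivity
  have hwp : w ^ (2 * (d + 1)) = W := by
    rw [hw, ← Real.rpow_natCast, ← Real.rpow_mul hW0.le]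
    push_cast
    rw [one_div, inv_mul_cancel₀ hd.ne', Real.rpow_one]
  have hw5 : w < 1 / 5 := by
    by_contra hc'
    push Not at hc'
    have h1 : (1 / 5 : ℝ) ^ (2 * (d + 1)) ≤ w ^ (2 * (d + 1)) := pow_le_pow_left₀ (by norm_num) hc' _
    rw [hwp, pow_mul] at h1
    have h2 : ((1 / 5 : ℝ) ^ 2) ^ (d + 1) * 25 ^ (d + 1) = 1 := by
      rw [← mul_pow]
      norm_num
    have h3 : ((1 / 5 : ℝ) ^ 2) ^ (d + 1) * 25 ^ (d + 1) ≤ W * 25 ^ (d + 1) :=
      mul_le_mul_of_nonneg_right h1 (by positivity)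
    linarith
  have hterm : ∀ i : Fin d, F ^ (-(((i : ℕ) + 1 : ℝ) / (2 * (d + 1)))) *
      (4 * (L ^ (4 * (((i : ℕ) + 1 : ℝ) / (2 * (d + 1)))) * v ^ (2 * (((i : ℕ) + 1 : ℝ) / (2 * (d + 1)))))) =
      4 * w * w ^ (i : ℕ) := by
    intro i
    obtain ⟨s, hs⟩ : ∃ s : ℝ, s = ((i : ℕ) + 1 : ℝ) / (2 * (d + 1)) := ⟨_, rfl⟩
    rw [← hs]
    have e1 : L ^ (4 * s) = (L ^ 4) ^ s := by
      rw [Real.rpow_mul hL.le]
      norm_num
    have e2 : v ^ (2 * s) = (v ^ 2) ^ s := by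
      rw [Real.rpow_mul hv.le]
      norm_num
    have e3 : W ^ s = F ^ (-s) * (L ^ (4 * s) * v ^ (2 * s)) := by
      rw [e1, e2, hW, Real.div_rpow (by positivity) hF.le, Real.mul_rpow (by positivity) (by positivity),
        Real.rpow_neg hF.le]
      ring
    have e4 : W ^ s = w ^ ((i : ℕ) + 1) := by
      rw [hw, ← Real.rpow_natCast, ← Real.rpow_mul hW0.le]
      congr 1
      rw [hs]
      push_cast
      ring
    calc F ^ (-s) * (4 * (L ^ (4 * s) * v ^ (2 * s))) = 4 * W ^ s := by rw [e3]; ring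
      _ = _ := by rw [e4, pow_succ]; ring
  rw [Finset.sum_congr rfl fun i _ => hterm i, ← Finset.mul_sum] at h
  have hgs : ∑ i : Fin d, w ^ (i : ℕ) ≤ (1 - w)⁻¹ := by
    rw [Fin.sum_univ_eq_sum_range (fun i => w ^ i) d]
    have h1 : (1 - w) * ∑ i ∈ Finset.range d, w ^ i = 1 - w ^ d := by
      have := geom_sum_mul w d
      linarith
    have h2 : 0 < 1 - w := by linarith
    rw [← one_div, le_div_iff₀ h2]
    have h3 : 0 < w ^ d := by positivity
    linarith
  have h6 : (1 - w)⁻¹ < 5 / 4 := by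
    rw [inv_lt_comm₀ (by linarith) (by norm_num)]
    norm_num
    linarith
  have h7 : 4 * w * ∑ i : Fin d, w ^ (i : ℕ) ≤ 4 * w * (5 / 4) :=
    mul_le_mul_of_nonneg_left (hgs.trans h6.le) (by positivity)
  linarith

/-- moments of order at most two -/
theorem mom_le {q v s : ℝ} (hv : 0 < v) (hs : 0 < s) (hs1 : 2 * s ≤ 1) :
    |q| ^ (4 * s) ≤ v ^ (2 * s) * (1 + q ^ 2 / v) := by
  have h1 : |q| ^ (4 * s) = v ^ (2 * s) * (q ^ 2 / v) ^ (2 * s) := by
    rw [← Real.mul_rpow hv.le (by positivity), mul_div_cancel₀ _ hv.ne', ← sq_abs,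
      show (4 * s) = (2 : ℕ) * (2 * s) by push_cast; ring, Real.rpow_mul (abs_nonneg _), Real.rpow_natCast]
  rw [h1]
  refine mul_le_mul_of_nonneg_left ?_ (by positivity)
  obtain ⟨y, hy⟩ : ∃ y, y = q ^ 2 / v := ⟨_, rfl⟩
  rw [← hy]
  have hy0 : 0 ≤ y := by rw [hy]; positivity
  rcases le_or_gt y 1 with h | h
  · have := Real.rpow_le_one hy0 h (show (0 : ℝ) ≤ 2 * s by positivity)
    linarith
  · have := Real.rpow_le_rpow_of_exponent_le h.le hs1
    rw [Real.rpow_one] at this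
    linarith

/-- **Reverse Hölder inequality** for polynomials of degree at most `d` -/
theorem revd [IsProbabilityMeasure μ] (hlc : HasLogConcaveDensity μ) {q : E n → ℝ} (hq : Gr q) (d : ℕ)
    {L : ℝ} (hL : 1 ≤ L)
    (hid : ∀ x y, ∀ M : ℝ, |q y| ≤ M → (∀ i : Fin d, |q ((((i : ℕ) + 1 : ℝ) / (2 * (d + 1))) • x +
      (1 - ((i : ℕ) + 1 : ℝ) / (2 * (d + 1))) • y)| ≤ M) → |q x| ≤ L * M) :
    ∫ x, q x ^ 4 ∂μ ≤ (25 ^ (d + 1) * L ^ 4 + 2 * L ^ 2) * (∫ x, q x ^ 2 ∂μ) ^ 2 := by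
  have hqm : Measurable q := hq.1.measurable
  have hL0 : 0 < L := by linarith
  have i2 : Integrable (fun x => q x ^ 2) μ := int_gr hlc (hq.pow 2)
  have i4 : Integrable (fun x => q x ^ 4) μ := int_gr hlc (hq.pow 4)
  obtain ⟨v, hv⟩ : ∃ v, v = ∫ x, q x ^ 2 ∂μ := ⟨_, rfl⟩
  rw [← hv]
  have hv0 : 0 ≤ v := hv ▸ integral_nonneg fun x => sq_nonneg _
  rcases hv0.eq_or_lt with hv1 | hv1
  · have h1 : (fun x => q x ^ 2) =ᵐ[μ] 0 :=
      (integral_eq_zero_iff_of_nonneg (fun x => sq_nonneg _) i2).1 (hv ▸ hv1.symm)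
    have h2 : ∫ x, q x ^ 4 ∂μ = 0 := by
      rw [integral_congr_ae (g := fun _ => (0 : ℝ))]
      · simp
      · filter_upwards [h1] with x hx
        have : q x ^ 2 = 0 := hx
        calc q x ^ 4 = (q x ^ 2) ^ 2 := by ring
          _ = 0 := by rw [this]; ring
    rw [h2]
    positivity
  obtain ⟨ρ, hρm, hρ0, hconc, hμ⟩ := hlc
  have hlc' : HasLogConcaveDensity μ := ⟨ρ, hρm, hρ0, hconc, hμ⟩
  set A : Set (E n) := {x | q x ^ 2 ≤ 2 * v} with hA
  set B : Set (E n) := {x | 2 * L ^ 2 * v < q x ^ 2} with hB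
  have hAm : MeasurableSet A := measurableSet_le (hqm.pow_const 2) measurable_const
  have hBm : MeasurableSet B := measurableSet_lt measurable_const (hqm.pow_const 2)
  have hlin : ∀ u : E n → ℝ≥0∞, Measurable u →
      ∫⁻ x, ENNReal.ofReal (ρ x) * u x = ∫⁻ x, u x ∂μ := by
    intro u hu
    rw [hμ, lintegral_withDensity_eq_lintegral_mul _ hρm.ennreal_ofReal hu]
    rfl
  -- the mass of `A`
  have hGA : 1 / 2 ≤ μ.real A := by
    have h1 : ∫ x, Aᶜ.indicator (fun _ => 2 * v) x ∂μ ≤ ∫ x, q x ^ 2 ∂μ := by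
      refine integral_mono ((integrable_const _).indicator hAm.compl) i2 fun x => ?_
      by_cases hx : x ∈ Aᶜ
      · rw [indicator_of_mem hx]
        have : ¬ q x ^ 2 ≤ 2 * v := hx
        push Not at this
        exact this.le
      · rw [indicator_of_notMem hx]
        exact sq_nonneg _
    rw [integral_indicator hAm.compl, setIntegral_const, smul_eq_mul, ← hv] at h1
    have h2 : μ.real Aᶜ ≤ 1 / 2 := by
      by_contra hc
      push Not at hc
      nlinarith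
    have h3 : μ.real Aᶜ = 1 - μ.real A := probReal_compl_eq_one_sub hAm
    linarith
  have hGA1 : μ.real A ≤ 1 := measureReal_le_one
  -- the part of the fourth moment outside `B`
  have hsplit : ∫ x, q x ^ 4 ∂μ = (∫ x in B, q x ^ 4 ∂μ) + ∫ x in Bᶜ, q x ^ 4 ∂μ :=
    (integral_add_compl hBm i4).symm
  have hout : ∫ x in Bᶜ, q x ^ 4 ∂μ ≤ 2 * L ^ 2 * v ^ 2 := by
    have h1 : ∫ x in Bᶜ, q x ^ 4 ∂μ ≤ ∫ x in Bᶜ, (2 * L ^ 2 * v) * q x ^ 2 ∂μ := by
      refine setIntegral_mono_on i4.integrableOn (i2.const_mul _).integrableOn hBm.compl fun x hx => ?_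
      have h2 : ¬ 2 * L ^ 2 * v < q x ^ 2 := hx
      push Not at h2
      have h3 := sq_nonneg (q x)
      calc q x ^ 4 = q x ^ 2 * q x ^ 2 := by ring
        _ ≤ (2 * L ^ 2 * v) * q x ^ 2 := mul_le_mul_of_nonneg_right h2 h3
    have h4 : ∫ x in Bᶜ, (2 * L ^ 2 * v) * q x ^ 2 ∂μ ≤ ∫ x, (2 * L ^ 2 * v) * q x ^ 2 ∂μ :=
      setIntegral_le_integral (i2.const_mul _) (Eventually.of_forall fun x => by positivity)
    have h5 : ∫ x, (2 * L ^ 2 * v) * q x ^ 2 ∂μ = 2 * L ^ 2 * v * v := by rw [integral_const_mul, ← hv]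
    rw [h5] at h4
    calc _ ≤ _ := h1
      _ ≤ _ := h4
      _ = _ := by ring
  have hF0 : 0 ≤ ∫ x in B, q x ^ 4 ∂μ := setIntegral_nonneg hBm fun x _ => by positivity
  suffices hmain : ∫ x in B, q x ^ 4 ∂μ ≤ 25 ^ (d + 1) * L ^ 4 * v ^ 2 by
    rw [hsplit]
    linarith
  rcases hF0.eq_or_lt with hF1 | hF1
  · rw [← hF1]
    positivity
  -- the exponents
  obtain ⟨s, hs⟩ : ∃ s : Fin d → ℝ, s = fun i : Fin d => (((i : ℕ) : ℝ) + 1) / (2 * ((d : ℝ) + 1)) := ⟨_, rfl⟩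
  have hsi : ∀ i : Fin d, ((i : ℕ) + 1 : ℝ) / (2 * (d + 1)) = s i := fun i => by rw [hs]
  have hs0 : ∀ i, 0 < s i := fun i => by rw [hs]; positivity
  have hs1 : ∀ i, 2 * s i ≤ 1 := fun i => by
    have h1 : ((i : ℕ) : ℝ) + 1 ≤ d := by exact_mod_cast i.2
    rw [hs]
    show 2 * (((i : ℕ) + 1 : ℝ) / (2 * (d + 1))) ≤ 1
    rw [mul_div_assoc', div_le_one (by positivity)]
    linarith
  have ht0 : ∀ i, 0 < 1 - s i := fun i => by linarith [hs1 i]
  simp only [hsi] at hid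
  -- the densities
  set uf : E n → ℝ≥0∞ := B.indicator (fun x => ENNReal.ofReal (q x ^ 4)) with huf
  set ug : E n → ℝ≥0∞ := A.indicator 1 with hug
  set k : Fin d → E n → ℝ≥0∞ := fun i x => ENNReal.ofReal ((L * |q x|) ^ (4 * s i)) with hk
  have hufm : Measurable uf := ((hqm.pow_const 4).ennreal_ofReal).indicator hBm
  have hugm : Measurable ug := measurable_one.indicator hAm
  have hkm : ∀ i, Measurable (k i) := fun i => ((hqm.abs.const_mul L).pow_const _).ennreal_ofReal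
  have Ef : ∫⁻ x, ENNReal.ofReal (ρ x) * uf x = ENNReal.ofReal (∫ x in B, q x ^ 4 ∂μ) := by
    rw [hlin uf hufm, huf, lintegral_indicator hBm,
      ← ofReal_integral_eq_lintegral_ofReal i4.integrableOn (Eventually.of_forall fun x => by positivity)]
  have Eg : ∫⁻ x, ENNReal.ofReal (ρ x) * ug x = ENNReal.ofReal (μ.real A) := by
    rw [hlin ug hugm, hug, lintegral_indicator_one hAm, ofReal_measureReal]
  have Ek : ∀ i, ∫⁻ x, ENNReal.ofReal (ρ x) * k i x ≤ ENNReal.ofReal (2 * (L ^ (4 * s i) * v ^ (2 * s i))) := by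
    intro i
    rw [hlin (k i) (hkm i)]
    have j1 : Integrable (fun x => (L ^ (4 * s i) * v ^ (2 * s i)) * (1 + q x ^ 2 / v)) μ :=
      (((integrable_const (1 : ℝ)).add (i2.div_const v))).const_mul _
    have j2 : ∫ x, (L ^ (4 * s i) * v ^ (2 * s i)) * (1 + q x ^ 2 / v) ∂μ =
        2 * (L ^ (4 * s i) * v ^ (2 * s i)) := by
      rw [integral_const_mul]
      have : ∫ x, (1 + q x ^ 2 / v) ∂μ = 2 := by
        refine (integral_add (integrable_const (1 : ℝ)) (i2.div_const v)).trans ?_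
        rw [integral_const, integral_div, ← hv, div_self hv1.ne']
        simp
        norm_num
      rw [this]
      ring
    rw [← j2, ofReal_integral_eq_lintegral_ofReal j1 (Eventually.of_forall fun x => by positivity)]
    refine lintegral_mono fun x => ENNReal.ofReal_le_ofReal ?_
    rw [Real.mul_rpow hL0.le (abs_nonneg _), mul_assoc]
    exact mul_le_mul_of_nonneg_left (mom_le hv1 (hs0 i) (hs1 i)) (by positivity)
  have hGp : 0 < μ.real A := by linarith
  have hρe : Measurable fun x => ENNReal.ofReal (ρ x) := hρm.ennreal_ofReal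
  have key := kf_E (s := s) (t := fun i => 1 - s i) hs0 ht0 (fun i => by ring)
    (fun x => ENNReal.ofReal (ρ x) * uf x) (fun x => ENNReal.ofReal (ρ x) * ug x)
    (fun i x => ENNReal.ofReal (ρ x) * k i x)
    (hρe.mul hufm) (hρe.mul hugm) (fun i => hρe.mul (hkm i))
    (by rw [Ef]; exact (ENNReal.ofReal_pos.2 hF1).ne') (by rw [Ef]; exact ENNReal.ofReal_ne_top)
    (by rw [Eg]; exact (ENNReal.ofReal_pos.2 hGp).ne') (by rw [Eg]; exact ENNReal.ofReal_ne_top) ?_
  · rw [Ef, Eg] at key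
    have hG2 : ∀ i, (μ.real A) ^ (-(1 - s i)) ≤ 2 := by
      intro i
      have h1 := Real.rpow_le_rpow_of_exponent_ge hGp hGA1 (show (-1 : ℝ) ≤ -(1 - s i) by linarith [hs0 i])
      rw [Real.rpow_neg_one] at h1
      have h2 : (μ.real A)⁻¹ ≤ 2 := by
        rw [inv_le_comm₀ hGp (by norm_num)]
        linarith
      exact h1.trans h2
    refine num_endd (L := L) hF1 hv1 hL0 ?_
    simp only [hsi]
    have h9 : (1 : ℝ≥0∞) ≤ ∑ i : Fin d, ENNReal.ofReal ((∫ x in B, q x ^ 4 ∂μ) ^ (-s i) *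
        (4 * (L ^ (4 * s i) * v ^ (2 * s i)))) := by
      refine key.trans (Finset.sum_le_sum fun i _ => ?_)
      rw [ENNReal.ofReal_rpow_of_pos hF1, ENNReal.ofReal_rpow_of_pos hGp, ← ENNReal.ofReal_mul (by positivity)]
      refine (mul_le_mul' le_rfl (Ek i)).trans ?_
      rw [← ENNReal.ofReal_mul (by positivity)]
      refine ENNReal.ofReal_le_ofReal ?_
      have hF2 : 0 ≤ (∫ x in B, q x ^ 4 ∂μ) ^ (-s i) := by positivity
      have hV2 : 0 ≤ L ^ (4 * s i) * v ^ (2 * s i) := by positivity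
      calc (∫ x in B, q x ^ 4 ∂μ) ^ (-s i) * (μ.real A) ^ (-(1 - s i)) * (2 * (L ^ (4 * s i) * v ^ (2 * s i)))
          = ((∫ x in B, q x ^ 4 ∂μ) ^ (-s i) * (2 * (L ^ (4 * s i) * v ^ (2 * s i)))) *
              (μ.real A) ^ (-(1 - s i)) := by ring
        _ ≤ ((∫ x in B, q x ^ 4 ∂μ) ^ (-s i) * (2 * (L ^ (4 * s i) * v ^ (2 * s i)))) * 2 :=
            mul_le_mul_of_nonneg_left (hG2 i) (by positivity)
        _ = _ := by ring
    rw [← ENNReal.ofReal_sum_of_nonneg (fun i _ => by positivity), ← ENNReal.ofReal_one] at h9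
    exact (ENNReal.ofReal_le_ofReal_iff (Finset.sum_nonneg fun i _ => by positivity)).1 h9
  · intro x y hfx hfx' hgy hgy'
    have hx1 : ENNReal.ofReal (ρ x) ≠ 0 := left_ne_zero_of_mul hfx
    have hx2 : uf x ≠ 0 := right_ne_zero_of_mul hfx
    have hy1 : ENNReal.ofReal (ρ y) ≠ 0 := left_ne_zero_of_mul hgy
    have hy2 : ug y ≠ 0 := right_ne_zero_of_mul hgy
    have hρx : 0 < ρ x := by simpa using hx1
    have hρy : 0 < ρ y := by simpa using hy1
    have hxB : x ∈ B := by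
      by_contra hc
      exact hx2 (indicator_of_notMem hc _)
    have hyA : y ∈ A := by
      by_contra hc
      exact hy2 (indicator_of_notMem hc _)
    have hxB' : 2 * L ^ 2 * v < q x ^ 2 := hxB
    have hyA' : q y ^ 2 ≤ 2 * v := hyA
    have efx : ENNReal.ofReal (ρ x) * uf x = ENNReal.ofReal (ρ x * |q x| ^ 4) := by
      rw [huf, indicator_of_mem hxB, ← ENNReal.ofReal_mul hρx.le]
      congr 2
      rw [← abs_pow, abs_of_nonneg (by positivity)]
    have egy : ENNReal.ofReal (ρ y) * ug y = ENNReal.ofReal (ρ y) := by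
      rw [hug, indicator_of_mem hyA]
      simp
    show (1 : ℝ≥0∞) ≤ ∑ i, ((ENNReal.ofReal (ρ x) * uf x) ^ (-s i) * (ENNReal.ofReal (ρ y) * ug y) ^ (-(1 - s i))) * _
    rw [efx, egy]
    have hax : 0 < |q x| := by
      rw [abs_pos]
      intro h0
      rw [h0] at hxB'
      have : 0 ≤ 2 * L ^ 2 * v := by positivity
      nlinarith
    have hyx : L * |q y| < |q x| := by
      refine lt_of_pow_lt_pow_left₀ 2 hax.le ?_
      rw [mul_pow, sq_abs, sq_abs]
      have : L ^ 2 * q y ^ 2 ≤ L ^ 2 * (2 * v) := mul_le_mul_of_nonneg_left hyA' (by positivity)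
      linarith
    obtain ⟨i, hi⟩ : ∃ i : Fin d, |q x| ≤ L * |q (s i • x + (1 - s i) • y)| := by
      by_contra hc
      push Not at hc
      -- the maximum of finitely many numbers
      obtain ⟨M, hM0, hM1, hM2⟩ : ∃ M : ℝ, |q y| ≤ M ∧ (∀ i : Fin d, |q (s i • x + (1 - s i) • y)| ≤ M) ∧
          L * M < |q x| := by
        let T : Finset ℝ := insert |q y| (Finset.univ.image fun i : Fin d => |q (s i • x + (1 - s i) • y)|)
        have hT : T.Nonempty := ⟨_, Finset.mem_insert_self _ _⟩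
        refine ⟨T.max' hT, T.le_max' _ (Finset.mem_insert_self _ _), fun i => T.le_max' _
          (Finset.mem_insert_of_mem (Finset.mem_image_of_mem _ (Finset.mem_univ i))), ?_⟩
        rcases Finset.mem_insert.1 (T.max'_mem hT) with h | h
        · rw [h]; exact hyx
        · obtain ⟨i, -, hi⟩ := Finset.mem_image.1 h
          rw [← hi]; exact hc i
      exact absurd (hid x y M hM0 hM1) (not_le.2 hM2)
    refine le_trans ?_ (Finset.single_le_sum (f := fun i => (ENNReal.ofReal (ρ x * |q x| ^ 4) ^ (-s i) *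
      ENNReal.ofReal (ρ y) ^ (-(1 - s i))) * (ENNReal.ofReal (ρ (s i • x + (1 - s i) • y)) *
        k i (s i • x + (1 - s i) • y))) (fun i _ => bot_le) (Finset.mem_univ i))
    refine term_ge (hs0 i) (ht0 i) hρx hρy hax (lc_mul hconc hρx hρy (hs0 i) (ht0 i) (by ring)) ?_
    rw [show (4 * s i) = (4 : ℕ) * s i by push_cast; ring, Real.rpow_mul (by positivity), Real.rpow_natCast]
    exact Real.rpow_le_rpow (by positivity) (pow_le_pow_left₀ hax.le hi 4) (hs0 i).le

end Vale.Agent.P245.Q895
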