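import Mathlib.RingTheory.Polynomial.Basic
import Vale.Agent.P245.H895.QuadO
import Vale.Agent.P245.H895.QuadP

/-!
P245, quadratic functionals of log-concave measures (helper895), part Q: polynomials in several variables;
`Ent (f²) ≤ C (1 + d) Var f` for polynomials of degree at most `d`.
-/

set_option linter.all false

open MeasureTheory Filter Topology Set Metric
open scoped NNReal ENNReal ContDiff
open Vale.Agent.P227.M Vale.Agent.P254

namespace Vale.Agent.P245.Q895

variable {n : ℕ} {μ : Measure (E n)}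

/-- a polynomial as a function on Euclidean space -/
noncomputable def pf (p : MvPolynomial (Fin n) ℝ) (x : E n) : ℝ := MvPolynomial.eval (fun i => x i) p

theorem line_pf (p : MvPolynomial (Fin n) ℝ) {d : ℕ} (hp : p.totalDegree ≤ d) (x y : E n) :
    ∃ Q : Polynomial ℝ, Q.natDegree ≤ d ∧ ∀ r : ℝ, Q.eval r = pf p (y + r • (x - y)) := by
  refine ⟨MvPolynomial.aeval (fun i => Polynomial.C (y i) + Polynomial.C (x i - y i) * Polynomial.X) p, ?_, ?_⟩
  · have h := MvPolynomial.aeval_natDegree_le (n := 1) p hp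
      (fun i => Polynomial.C (y i) + Polynomial.C (x i - y i) * Polynomial.X) (fun i => by
        refine (Polynomial.natDegree_add_le _ _).trans (max_le (by simp) ?_)
        exact (Polynomial.natDegree_C_mul_le _ _).trans (by simp))
    simpa using h
  · intro r
    have h := MvPolynomial.comp_aeval_apply
      (fun i => Polynomial.C (y i) + Polynomial.C (x i - y i) * Polynomial.X) (Polynomial.aeval r) p
    rw [← Polynomial.coe_aeval_eq_eval, h]
    have h2 : ∀ g : Fin n → ℝ, MvPolynomial.aeval g p = MvPolynomial.eval g p := fun g => by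
      rw [← MvPolynomial.coe_aeval_eq_eval]
      rfl
    rw [h2]
    unfold pf
    refine congrArg (fun g => MvPolynomial.eval g p) (funext fun i => ?_)
    simp [mul_comm]

theorem ext_pf (p : MvPolynomial (Fin n) ℝ) {d : ℕ} (hp : p.totalDegree ≤ d) (x y : E n) (M : ℝ)
    (hy : |pf p y| ≤ M) (hM : ∀ i : Fin d, |pf p ((((i : ℕ) + 1 : ℝ) / (2 * (d + 1))) • x +
      (1 - ((i : ℕ) + 1 : ℝ) / (2 * (d + 1))) • y)| ≤ M) : |pf p x| ≤ 9 ^ (d + 1) * M := by
  obtain ⟨Q, hQ, hQe⟩ := line_pf p hp x y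
  obtain ⟨c, hc⟩ : ∃ c : ℝ, c = 1 / (2 * ((d : ℝ) + 1)) := ⟨_, rfl⟩
  have hd : (0 : ℝ) < 2 * ((d : ℝ) + 1) := by positivity
  have hP : (Q.comp (Polynomial.C c * Polynomial.X)).natDegree ≤ d := by
    refine Polynomial.natDegree_comp_le.trans ?_
    have : (Polynomial.C c * Polynomial.X : Polynomial ℝ).natDegree ≤ 1 :=
      (Polynomial.natDegree_C_mul_le _ _).trans (by simp)
    calc Q.natDegree * (Polynomial.C c * Polynomial.X : Polynomial ℝ).natDegree ≤ Q.natDegree * 1 :=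
          Nat.mul_le_mul_left _ this
      _ ≤ d := by rw [mul_one]; exact hQ
  have he : ∀ r : ℝ, (Q.comp (Polynomial.C c * Polynomial.X)).eval r = pf p (y + (c * r) • (x - y)) := by
    intro r
    rw [Polynomial.eval_comp, ← hQe]
    simp
  have h := extrap _ hP (M := M) (fun j hj => ?_) (2 * (d + 1))
  · rw [he] at h
    have e1 : c * ((2 * (d + 1) : ℕ) : ℝ) = 1 := by
      rw [hc]
      push_cast
      rw [one_div, inv_mul_cancel₀ hd.ne']
    rw [e1, one_smul, add_sub_cancel] at h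
    refine h.trans (le_of_eq ?_)
    rw [pow_mul]
    norm_num
  · rw [he]
    rcases Nat.eq_zero_or_pos j with h0 | h0
    · rw [h0]
      simpa using hy
    · have h1 := hM ⟨j - 1, by omega⟩
      have e2 : (((j - 1 : ℕ) : ℝ) + 1) = j := by
        rw [Nat.cast_sub h0]
        simp
      simp only [e2] at h1
      refine le_trans (le_of_eq ?_) h1
      congr 2
      have e3 : c * (j : ℝ) = (j : ℝ) / (2 * ((d : ℝ) + 1)) := by rw [hc]; ring
      rw [e3, smul_sub, sub_smul, one_smul]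
      abel

theorem pf_C (c : ℝ) : pf (n := n) (MvPolynomial.C c) = fun _ => c := by
  funext x; simp [pf]

theorem pf_add (p q : MvPolynomial (Fin n) ℝ) : pf (p + q) = fun x => pf p x + pf q x := by
  funext x; simp [pf]

theorem pf_mulX (p : MvPolynomial (Fin n) ℝ) (i : Fin n) :
    pf (p * MvPolynomial.X i) = fun x => pf p x * x i := by
  funext x; simp [pf]

theorem pf_subC (p : MvPolynomial (Fin n) ℝ) (c : ℝ) (x : E n) :
    pf (p - MvPolynomial.C c) x = pf p x - c := by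
  simp [pf]

theorem gr_pf (p : MvPolynomial (Fin n) ℝ) : Gr (pf p) := by
  induction p using MvPolynomial.induction_on with
  | C c => rw [pf_C]; exact Gr.const _
  | add p q hp hq => rw [pf_add]; exact hp.add hq
  | mul_X p i hp => rw [pf_mulX]; exact hp.mul (Gr.coord i)

theorem cd_coord (i : Fin n) : ContDiff ℝ ∞ (fun x : E n => x i) :=
  (EuclideanSpace.proj (𝕜 := ℝ) (ι := Fin n) i).contDiff

theorem cd_pf (p : MvPolynomial (Fin n) ℝ) : ContDiff ℝ ∞ (pf p) := by
  induction p using MvPolynomial.induction_on with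
  | C c => rw [pf_C]; exact contDiff_const
  | add p q hp hq => rw [pf_add]; exact hp.add hq
  | mul_X p i hp => rw [pf_mulX]; exact hp.mul (cd_coord i)

theorem diff_pf (p : MvPolynomial (Fin n) ℝ) (x : E n) : DifferentiableAt ℝ (pf p) x :=
  ((cd_pf p).differentiable (by simp)) x

theorem gr_pd_pf (p : MvPolynomial (Fin n) ℝ) (i : Fin n) : Gr (pd i (pf p)) := by
  induction p using MvPolynomial.induction_on with
  | C c =>
    have : pd i (pf (n := n) (MvPolynomial.C c)) = fun _ => 0 := by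
      funext x
      unfold pd
      rw [pf_C]
      simp
    rw [this]
    exact Gr.const _
  | add p q hp hq =>
    have : pd i (pf (p + q)) = fun x => pd i (pf p) x + pd i (pf q) x := by
      funext x
      unfold pd
      rw [pf_add, fderiv_fun_add (diff_pf p x) (diff_pf q x)]
      rfl
    rw [this]
    exact hp.add hq
  | mul_X p j hp =>
    have : pd i (pf (p * MvPolynomial.X j)) = fun x => pf p x * (ei i : E n) j + x j * pd i (pf p) x := by
      funext x
      unfold pd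
      have hj : HasFDerivAt (fun x : E n => x j) (EuclideanSpace.proj (𝕜 := ℝ) (ι := Fin n) j) x :=
        (EuclideanSpace.proj (𝕜 := ℝ) (ι := Fin n) j).hasFDerivAt
      rw [pf_mulX, fderiv_fun_mul (diff_pf p x) hj.differentiableAt, hj.fderiv]
      rfl
    rw [this]
    exact ((gr_pf p).mul (Gr.const _)).add ((Gr.coord j).mul hp)

theorem num_k (d : ℕ) : (25 : ℝ) ^ (d + 1) * (9 ^ (d + 1)) ^ 4 + 2 * (9 ^ (d + 1)) ^ 2 ≤ 400000 ^ (d + 1) := by
  have e1 : (25 : ℝ) ^ (d + 1) * (9 ^ (d + 1)) ^ 4 = 164025 ^ (d + 1) := by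
    rw [← pow_mul, mul_comm (d + 1) 4, pow_mul, ← mul_pow]
    norm_num
  have e2 : ((9 : ℝ) ^ (d + 1)) ^ 2 = 81 ^ (d + 1) := by
    rw [← pow_mul, mul_comm (d + 1) 2, pow_mul]
    norm_num
  rw [e1, e2]
  have h1 : (81 : ℝ) ^ (d + 1) * 2 ^ (d + 1) ≤ 164025 ^ (d + 1) := by
    rw [← mul_pow]
    exact pow_le_pow_left₀ (by norm_num) (by norm_num) _
  have h2 : (2 : ℝ) ≤ 2 ^ (d + 1) := by
    have : (1 : ℝ) ≤ 2 ^ d := one_le_pow₀ (by norm_num)
    rw [pow_succ]
    linarith
  have h3 : (81 : ℝ) ^ (d + 1) * 2 ≤ 81 ^ (d + 1) * 2 ^ (d + 1) :=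
    mul_le_mul_of_nonneg_left h2 (by positivity)
  have h4 : (164025 : ℝ) ^ (d + 1) * 2 ≤ 164025 ^ (d + 1) * 2 ^ (d + 1) :=
    mul_le_mul_of_nonneg_left h2 (by positivity)
  have h5 : (164025 : ℝ) ^ (d + 1) * 2 ^ (d + 1) ≤ 400000 ^ (d + 1) := by
    rw [← mul_pow]
    exact pow_le_pow_left₀ (by norm_num) (by norm_num) _
  linarith

theorem log_k (d : ℕ) : Real.log (81 * 400000 ^ (d + 1)) ≤ 18 * (d + 1) := by
  have h0 : Real.log (81 * 400000) ≤ 18 := by
    rw [Real.log_le_iff_le_exp (by norm_num)]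
    have h2 : Real.exp 18 = Real.exp 1 ^ 18 := by
      rw [← Real.exp_nat_mul]
      norm_num
    rw [h2]
    have := Real.exp_one_gt_d9
    have h3 : (2.718 : ℝ) ^ 18 ≤ Real.exp 1 ^ 18 := pow_le_pow_left₀ (by norm_num) (by linarith) 18
    have h4 : (81 * 400000 : ℝ) ≤ (2.718 : ℝ) ^ 18 := by norm_num
    linarith
  have h1 : (81 : ℝ) * 400000 ^ (d + 1) ≤ (81 * 400000) ^ (d + 1) := by
    rw [mul_pow]
    refine mul_le_mul_of_nonneg_right ?_ (by positivity)
    have : (1 : ℝ) ≤ 81 ^ d := one_le_pow₀ (by norm_num)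
    rw [pow_succ]
    linarith
  have h5 := Real.log_le_log (by positivity) h1
  rw [Real.log_pow] at h5
  refine h5.trans ?_
  push_cast
  have hd : (0 : ℝ) ≤ (d : ℝ) + 1 := by positivity
  calc ((d : ℝ) + 1) * Real.log (81 * 400000) ≤ ((d : ℝ) + 1) * 18 := mul_le_mul_of_nonneg_left h0 hd
    _ = _ := by ring

/-- **Entropy of polynomials**: `Ent (f²) ≤ 180 (1 + d) Var f` -/
theorem ent_pf [IsProbabilityMeasure μ] (hlc : HasLogConcaveDensity μ) (p : MvPolynomial (Fin n) ℝ)
    {d : ℕ} (hp : p.totalDegree ≤ d) :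
    Entropy μ (fun x => pf p x ^ 2) ≤
      180 * (d + 1) * ((∫ x, pf p x ^ 2 ∂μ) - (∫ x, pf p x ∂μ) ^ 2) := by
  obtain ⟨m, hm⟩ : ∃ m, m = ∫ x, pf p x ∂μ := ⟨_, rfl⟩
  have hG := gr_pf p
  have hq : Gr (pf (p - MvPolynomial.C m)) := gr_pf _
  have hqd : (p - MvPolynomial.C m).totalDegree ≤ d := (MvPolynomial.totalDegree_sub_C_le _ _).trans hp
  have h9 : (1 : ℝ) ≤ 9 ^ (d + 1) := one_le_pow₀ (by norm_num)
  have hr := revd hlc hq d h9 (fun x y M h1 h2 => ext_pf _ hqd x y M h1 h2)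
  simp only [pf_subC] at hr
  have hk : (1 : ℝ) ≤ 400000 ^ (d + 1) := one_le_pow₀ (by norm_num)
  have hk2 : ∫ x, (pf p x - ∫ y, pf p y ∂μ) ^ 4 ∂μ ≤
      400000 ^ (d + 1) * (∫ x, (pf p x - ∫ y, pf p y ∂μ) ^ 2 ∂μ) ^ 2 := by
    rw [← hm]
    exact hr.trans (mul_le_mul_of_nonneg_right (num_k d) (by positivity))
  have he := ent_leK (μ := μ) hG.1 (int_gr hlc hG) (int_gr hlc (hG.pow 2)) (int_gr hlc (hG.pow 3))
    (int_gr hlc (hG.pow 4)) hk hk2
  refine he.trans ?_
  have hv : 0 ≤ (∫ x, pf p x ^ 2 ∂μ) - (∫ x, pf p x ∂μ) ^ 2 := by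
    rw [← var_eq hlc hG]
    exact integral_nonneg fun x => sq_nonneg _
  refine mul_le_mul_of_nonneg_right ?_ hv
  have h10 := log_k d
  have hd : (0 : ℝ) ≤ (d : ℝ) := by positivity
  linarith

end Vale.Agent.P245.Q895
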