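import Vale.Agent.P245.H847.HandIn
import Vale.Agent.P245.H895.QuadS

/-!
P245 (helper895): the combined text of the hand-in, from the affine invariant Poincaré inequality.
-/

set_option linter.all false

open MeasureTheory Matrix
open scoped ContDiff

namespace Vale.Agent.P245.Q895

open Vale.Agent.P245

theorem combined {C : ℝ} (hC : 0 < C) (h : KLS C) :
    ∀ (n : ℕ) (μ : Measure (EuclideanSpace ℝ (Fin n))) [IsProbabilityMeasure μ],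
      HasLogConcaveDensity μ →
      ∀ (b : Fin n → ℝ) (K : Matrix (Fin n) (Fin n) ℝ), (∀ i, ∫ x, x i ∂μ = b i) →
      (∀ i j, ∫ x, (x i - b i) * (x j - b j) ∂μ = K i j) →
      -- test functions
      (∀ f : EuclideanSpace ℝ (Fin n) → ℝ, ContDiff ℝ ∞ f → HasCompactSupport f →
        -- (1) affine invariant form
        (∫ x, f x ^ 2 ∂μ) - (∫ x, f x ∂μ) ^ 2 ≤
          (200 * C) * ∫ x, ∑ i, ∑ j, K i j * (gradient f x i * gradient f x j) ∂μ ∧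
        -- (2) `Λ` = any upper bound of the covariance matrix
        (∀ Λ : ℝ, 0 ≤ Λ → (∀ v : Fin n → ℝ, v ⬝ᵥ (K *ᵥ v) ≤ Λ * ∑ i, v i ^ 2) →
          (∫ x, f x ^ 2 ∂μ) - (∫ x, f x ∂μ) ^ 2 ≤ (200 * C) * Λ * ∫ x, ‖gradient f x‖ ^ 2 ∂μ ∧
          (∀ R : ℝ, 1 ≤ R → (∀ x, f x ^ 2 ≤ R * ∫ y, f y ^ 2 ∂μ) →
            Entropy μ (fun x => f x ^ 2) ≤
              (200 * C) * (1 + Real.log R) * Λ * ∫ x, ‖gradient f x‖ ^ 2 ∂μ) ∧
          (∀ p : ℝ, 2 < p →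
            Entropy μ (fun x => f x ^ 2) ≤
              (200 * C) * (p / (p - 2)) * Λ * (∫ x, ‖gradient f x‖ ^ p ∂μ) ^ (2 / p))) ∧
        -- (3) `μ` linearly `a`-subgaussian
        (∀ a : ℝ, 0 < a → LinearlySubgaussian μ a →
          (∫ x, f x ^ 2 ∂μ) - (∫ x, f x ∂μ) ^ 2 ≤
            (200 * C) * a ^ 2 * ∫ x, ‖gradient f x‖ ^ 2 ∂μ ∧
          (∀ R : ℝ, 1 ≤ R → (∀ x, f x ^ 2 ≤ R * ∫ y, f y ^ 2 ∂μ) →
            Entropy μ (fun x => f x ^ 2) ≤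
              (200 * C) * (1 + Real.log R) * a ^ 2 * ∫ x, ‖gradient f x‖ ^ 2 ∂μ) ∧
          (∀ p : ℝ, 2 < p →
            Entropy μ (fun x => f x ^ 2) ≤
              (200 * C) * (p / (p - 2)) * a ^ 2 * (∫ x, ‖gradient f x‖ ^ p ∂μ) ^ (2 / p)) ∧
          (∀ k : ℝ, 1 ≤ k →
            ∫ x, (f x - ∫ y, f y ∂μ) ^ 4 ∂μ ≤ k * (∫ x, (f x - ∫ y, f y ∂μ) ^ 2 ∂μ) ^ 2 →
            Entropy μ (fun x => f x ^ 2) ≤
              (200 * C) * (1 + Real.log k) * a ^ 2 * ∫ x, ‖gradient f x‖ ^ 2 ∂μ))) ∧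
      -- (4) polynomials of degree at most `d`
      (∀ (d : ℕ) (p : MvPolynomial (Fin n) ℝ), p.totalDegree ≤ d →
        ∀ f : EuclideanSpace ℝ (Fin n) → ℝ, (∀ x, f x = MvPolynomial.eval (fun i => x i) p) →
        (∫ x, f x ^ 2 ∂μ) - (∫ x, f x ∂μ) ^ 2 ≤
          (200 * C) * ∫ x, ∑ i, ∑ j, K i j * (gradient f x i * gradient f x j) ∂μ ∧
        Entropy μ (fun x => f x ^ 2) ≤ 180 * (d + 1) * ((∫ x, f x ^ 2 ∂μ) - (∫ x, f x ∂μ) ^ 2) ∧
        (∀ a : ℝ, 0 < a → LinearlySubgaussian μ a →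
          Entropy μ (fun x => f x ^ 2) ≤ (200 * C) * (d + 1) * a ^ 2 * ∫ x, ‖gradient f x‖ ^ 2 ∂μ)) := by
  intro n μ _ hlc b K hb hK
  refine ⟨fun f hf hs => ?_, fun d p hp f hf => ?_⟩
  · obtain ⟨h1, h2, h3⟩ := H847.handin hC h n μ hlc b K hb hK f hf hs
    refine ⟨h1, h2, fun a ha hsub => ?_⟩
    obtain ⟨h4, h5, h6⟩ := h3 a ha hsub
    refine ⟨h4, h5, h6, fun k hk hk4 => ?_⟩
    refine (kurt_lsi hC h hlc ha hsub hf hs hk hk4).trans ?_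
    have hlk : 0 ≤ Real.log k := Real.log_nonneg hk
    have hI : 0 ≤ ∫ x, ‖gradient f x‖ ^ 2 ∂μ := integral_nonneg fun x => by positivity
    have h7 : 0 ≤ C * (1 + Real.log k) * a ^ 2 * ∫ x, ‖gradient f x‖ ^ 2 ∂μ := by positivity
    nlinarith
  · have e : f = pf p := funext fun x => hf x
    rw [e]
    have hv : 0 ≤ (∫ x, pf p x ^ 2 ∂μ) - (∫ x, pf p x ∂μ) ^ 2 := by
      rw [← var_eq hlc (gr_pf p)]
      exact integral_nonneg fun x => sq_nonneg _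
    have hP := kls_gr h hlc hb hK (cd_pf p) (gr_pf p) (gr_pd_pf p)
    refine ⟨by linarith, ?_, fun a ha hsub => ?_⟩
    · refine (ent_pf hlc p hp).trans (mul_le_mul_of_nonneg_right ?_ hv)
      exact le_rfl
    · refine (poly_lsi hC h hlc ha hsub p hp).trans ?_
      have hI : 0 ≤ ∫ x, ‖gradient (pf p) x‖ ^ 2 ∂μ := integral_nonneg fun x => by positivity
      have h7 : 0 ≤ C * (d + 1) * a ^ 2 * ∫ x, ‖gradient (pf p) x‖ ^ 2 ∂μ := by positivity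
      nlinarith

end Vale.Agent.P245.Q895
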